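import Crest.Agent.R330.L.Defs

/-! # Row 330, L/Glue: gluing and existence of a zero mode (owner helper74; statements frozen, plan in `L/Defs.lean`) -/

set_option autoImplicit false
set_option linter.unusedSectionVars false
set_option linter.unusedVariables false

noncomputable section

open MeasureTheory Filter Topology Set Metric
open scoped InnerProductSpace ContDiff Matrix
open Crest.MathPhysics.MatrixQM (GammaNine)

namespace Crest.Agent.R330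

variable {Y Θ F : Type} [NormedAddCommGroup Y] [InnerProductSpace ℝ Y] [FiniteDimensional ℝ Y]
  [MeasurableSpace Y] [BorelSpace Y]
  [NormedAddCommGroup Θ] [InnerProductSpace ℝ Θ] [FiniteDimensional ℝ Θ]
  [NormedAddCommGroup F] [InnerProductSpace ℂ F] [FiniteDimensional ℂ F]

theorem Gap.mono {𝒮 : Syms Y F} {Q : (Y → F) → Y → F} {S : Set Y} {a a' : ℝ} (h : Gap 𝒮 Q S a)
    (ha : a' ≤ a) : Gap 𝒮 Q S a' := by
  intro ψ hψ hs
  exact (mul_le_mul_of_nonneg_right ha (integral_nonneg fun x => by positivity)).trans (h ψ hψ hs)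

theorem Codim.mono {𝒮 : Syms Y F} {Q : (Y → F) → Y → F} {S S' : Set Y} {a a' : ℝ}
    (h : Codim 𝒮 Q S a) (hS : S' ⊆ S) (ha : a' ≤ a) : Codim 𝒮 Q S' a' := by
  obtain ⟨t, ht, b, hb, H⟩ := h
  exact ⟨t, ht, b, hb, fun ψ hψ hs =>
    (mul_le_mul_of_nonneg_right ha (integral_nonneg fun x => by positivity)).trans (H ψ hψ (hs.trans hS))⟩

theorem dirac_congr (C : Cl Θ F) (c : Y →ₗ[ℝ] Θ) {w w' : Y → Θ} {ψ : Y → F}
    (h : ∀ x ∈ tsupport ψ, w x = w' x) : dirac C c w ψ = dirac C c w' ψ := by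
  funext x
  unfold dirac
  by_cases hx : x ∈ tsupport ψ
  · rw [h x hx]
  · rw [image_eq_zero_of_notMem_tsupport hx, map_zero, map_zero]

theorem Codim.congr {C : Cl Θ F} {c : Y →ₗ[ℝ] Θ} {w w' : Y → Θ} {𝒮 : Syms Y F} {S : Set Y} {a : ℝ}
    (h : Codim 𝒮 (dirac C c w) S a) (hw : ∀ x ∈ S, w x = w' x) : Codim 𝒮 (dirac C c w') S a := by
  obtain ⟨t, ht, b, hb, H⟩ := h
  refine ⟨t, ht, b, hb, fun ψ hψ hs => ?_⟩
  rw [← dirac_congr C c (w := w) fun x hx => hw x (hs hx)]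
  exact H ψ hψ hs

theorem gla_int {ψ : Y → F} (h : Core ψ) : Integrable fun x => ‖ψ x‖ ^ 2 :=
  (h.1.continuous.norm.pow 2).integrable_of_hasCompactSupport
    (h.2.mono fun x hx h0 => hx (by simp [h0]))

theorem gla_supp (f : Y → ℝ) (ψ : Y → F) :
    tsupport (fun x => (f x : ℂ) • ψ x) ⊆ tsupport ψ ∩ tsupport f :=
  subset_inter (closure_mono fun x hx h0 => hx (by simp [h0])) (closure_mono fun x hx h0 => hx (by simp [h0]))

/-- Integrated `ims`. -/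
theorem glue (C : Cl Θ F) (c : Y →ₗ[ℝ] Θ) (hc : ∀ v, ‖c v‖ = ‖v‖) {w : Y → Θ} (hw : ContDiff ℝ ∞ w)
    {𝒮 : Syms Y F} {f g : Y → ℝ} (hf : ContDiff ℝ ∞ f) (hg : ContDiff ℝ ∞ g) (hfi : InvS 𝒮 f)
    (hgi : InvS 𝒮 g) (hfg : ∀ x, f x ^ 2 + g x ^ 2 = 1) {S S₁ S₂ : Set Y}
    (h₁ : S ∩ tsupport f ⊆ S₁) (h₂ : S ∩ tsupport g ⊆ S₂) {β a : ℝ}
    (hβ : ∀ x ∈ S, ‖gradient f x‖ ^ 2 + ‖gradient g x‖ ^ 2 ≤ β)
    (H₁ : Codim 𝒮 (dirac C c w) S₁ a) (H₂ : Gap 𝒮 (dirac C c w) S₂ a) :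
    Codim 𝒮 (dirac C c w) S (a - β / 2) := by
  obtain ⟨t, ht, b, hb, H⟩ := H₁
  refine ⟨fun x => (f x : ℂ) • t x, ?_, b, hb, fun ψ hψ hs => ?_⟩
  · refine ht.of_le ((Complex.continuous_ofReal.comp hf.continuous).aestronglyMeasurable.smul ht.1)
      (Eventually.of_forall fun x => ?_)
    rw [norm_smul, Complex.norm_real, Real.norm_eq_abs]
    refine mul_le_of_le_one_left (norm_nonneg _) ?_
    rw [← sq_le_one_iff_abs_le_one]
    nlinarith [hfg x, sq_nonneg (g x)]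
  have hF := hψ.smul hf hfi
  have hG := hψ.smul hg hgi
  have e1 := H _ hF (((gla_supp f ψ).trans (inter_subset_inter_left _ hs)).trans h₁)
  have e2 := H₂ _ hG (((gla_supp g ψ).trans (inter_subset_inter_left _ hs)).trans h₂)
  have e3 : (∫ x, ‖(f x : ℂ) • ψ x‖ ^ 2) + ∫ x, ‖(g x : ℂ) • ψ x‖ ^ 2 = ∫ x, ‖ψ x‖ ^ 2 := by
    rw [← integral_add (gla_int hF.1) (gla_int hG.1)]
    refine integral_congr_ae (Eventually.of_forall fun x => ?_)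
    simp only [norm_smul, Complex.norm_real, Real.norm_eq_abs, mul_pow, sq_abs]
    linear_combination ‖ψ x‖ ^ 2 * hfg x
  have e4 : (∫ x, ‖dirac C c w (fun y => (f y : ℂ) • ψ y) x‖ ^ 2) +
      ∫ x, ‖dirac C c w (fun y => (g y : ℂ) • ψ y) x‖ ^ 2 ≤
      (∫ x, ‖dirac C c w ψ x‖ ^ 2) + β / 2 * ∫ x, ‖ψ x‖ ^ 2 := by
    have i1 := gla_int (hF.1.dirac C c hw)
    have i2 := gla_int (hG.1.dirac C c hw)
    have i3 := gla_int (hψ.1.dirac C c hw)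
    have i4 := (gla_int hψ.1).const_mul (β / 2)
    rw [← integral_add i1 i2, ← integral_const_mul, ← integral_add i3 i4]
    refine integral_mono (i1.add i2) (i3.add i4) fun x => ?_
    have := ims C c hc w (x := x) (hf.differentiable (by simp) x) (hg.differentiable (by simp) x)
      (Eventually.of_forall hfg) (hψ.1.1.differentiable (by simp) x)
    simp only
    rw [this]
    by_cases hx : x ∈ tsupport ψ
    · nlinarith [hβ x (hs hx), sq_nonneg ‖ψ x‖]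
    · rw [image_eq_zero_of_notMem_tsupport hx]; simp
  have e5 : ∫ x, ⟪(f x : ℂ) • t x, ψ x⟫_ℂ = ∫ x, ⟪t x, (f x : ℂ) • ψ x⟫_ℂ := by
    refine integral_congr_ae (Eventually.of_forall fun x => ?_)
    simp only [inner_smul_left, inner_smul_right, Complex.conj_ofReal]
  rw [e5]
  have e6 : a * ∫ x, ‖ψ x‖ ^ 2 = a * (∫ x, ‖(f x : ℂ) • ψ x‖ ^ 2) + a * ∫ x, ‖(g x : ℂ) • ψ x‖ ^ 2 := by
    rw [← e3]; ring
  linarith

theorem glueb_pyth {Γ : F →L[ℂ] F} (hΓ : IsSelfAdjoint Γ) {u v : Y → F} (hu : Core u) (hv : Core v)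
    (h₁ : ∀ x, u x = Γ (u x)) (h₂ : ∀ x, v x = (-Γ) (v x)) (α β : ℂ) :
    ∫ x, ‖α • u x + β • v x‖ ^ 2 = ‖α‖ ^ 2 * (∫ x, ‖u x‖ ^ 2) + ‖β‖ ^ 2 * ∫ x, ‖v x‖ ^ 2 := by
  rw [← integral_const_mul, ← integral_const_mul, ← integral_add
    ((fae_int_sq hu.memLp).const_mul _) ((fae_int_sq hv.memLp).const_mul _)]
  refine integral_congr_ae (Eventually.of_forall fun x => ?_)
  have h0 : ⟪u x, v x⟫_ℂ = 0 := by
    have e : ⟪Γ (u x), v x⟫_ℂ = ⟪u x, Γ (v x)⟫_ℂ := hΓ.isSymmetric _ _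
    have e2 : Γ (v x) = -v x := by
      have := h₂ x
      rw [neg_apply] at this
      exact (neg_eq_iff_eq_neg.2 this).symm
    rw [← h₁, e2, inner_neg_right] at e
    linear_combination e / 2
  have h3 : ⟪α • u x, β • v x⟫_ℂ = 0 := by rw [inner_smul_left, inner_smul_right, h0]; simp
  have h4 := norm_add_sq_eq_norm_sq_add_norm_sq_of_inner_eq_zero _ _ h3
  simp only [sq]
  rw [h4, norm_smul, norm_smul]; ring

theorem glueb_par (C : Cl Θ F) (c : Y →ₗ[ℝ] Θ) (w : Y → Θ) {𝒮 : Syms Y F} {Γ : F →L[ℂ] F}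
    (hΓ : IsPar C Γ) {φ : Y → F} (hφ : DS (withPar 𝒮 Γ) φ) :
    DS 𝒮 φ ∧ (∀ x, φ x = Γ (φ x)) ∧ ∀ x, dirac C c w φ x = (-Γ) (dirac C c w φ x) := by
  have h2 : φ = fun y => Γ (φ y) := funext fun y => hφ.2 _ (Set.mem_insert _ _) y
  refine ⟨⟨hφ.1, fun q hq => hφ.2 q (Set.mem_insert_of_mem _ hq)⟩, congrFun h2, fun x => ?_⟩
  have h3 := dirac_par C c w hΓ.2.2 (hφ.1.1.differentiable (by simp) x)
  rwa [← h2] at h3

theorem glueb_even (C : Cl Θ F) (c : Y →ₗ[ℝ] Θ) {w : Y → Θ} (hw : ContDiff ℝ ∞ w)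
    {𝒮 : Syms Y F} (h : SymOK 𝒮) (hC : Compat C c w 𝒮) {Γ : F →L[ℂ] F} (hΓ : IsPar C Γ)
    (hΓ𝒮 : ∀ p ∈ 𝒮, Γ * p.2 = p.2 * Γ) {a : ℝ} (ha : 0 < a) (H : Codim 𝒮 (dirac C c w) univ a)
    {φ : Y → F} (hφ : DS (withPar 𝒮 Γ) φ)
    (hq : ∫ x, ‖dirac C c w φ x‖ ^ 2 < a * ∫ x, ‖φ x‖ ^ 2) : NonTriv (WK 𝒮 (dirac C c w)) := by
  obtain ⟨t, ht, b, hb, H⟩ := H
  obtain ⟨p1, p2, p3⟩ := glueb_par C c w hΓ hφ
  have hd : ∀ {ψ : Y → F}, Core ψ → ∀ x, DifferentiableAt ℝ ψ x := fun hψ x =>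
    hψ.1.differentiable (by simp) x
  have hα : ∫ x, ⟪t x, φ x⟫_ℂ ≠ 0 := fun h0 => by
    have := H φ p1 (subset_univ _)
    rw [h0] at this
    simp at this
    linarith
  have hgap : ∀ ψ, DS (withPar 𝒮 (-Γ)) ψ → a * ∫ x, ‖ψ x‖ ^ 2 ≤ ∫ x, ‖dirac C c w ψ x‖ ^ 2 := by
    intro ψ hψ
    obtain ⟨q1, q2, q3⟩ := glueb_par C c w hΓ.neg hψ
    obtain ⟨α, hα'⟩ : ∃ α, α = ∫ x, ⟪t x, φ x⟫_ℂ := ⟨_, rfl⟩
    obtain ⟨β, hβ⟩ : ∃ β, β = -∫ x, ⟪t x, ψ x⟫_ℂ := ⟨_, rfl⟩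
    have h1 := H _ ((p1.csmul β).add (q1.csmul α)) (subset_univ _)
    have h2 : ∫ x, ⟪t x, (β • φ + α • ψ) x⟫_ℂ = 0 := by
      simp only [Pi.add_apply, Pi.smul_apply, inner_add_right, inner_smul_right]
      rw [integral_add ((fae_int_inner ht hφ.1.memLp).const_mul _)
        ((fae_int_inner ht hψ.1.memLp).const_mul _), integral_const_mul, integral_const_mul, ← hα', hβ]
      ring
    have h3 : ∀ x, dirac C c w (β • φ + α • ψ) x = α • dirac C c w ψ x + β • dirac C c w φ x :=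
      fun x => by
        rw [dirac_add C c w (hd (p1.csmul β).1 x) (hd (q1.csmul α).1 x), dirac_csmul, dirac_csmul,
          add_comm]
    rw [h2] at h1
    simp only [h3, Pi.add_apply, Pi.smul_apply, norm_zero, ne_eq, OfNat.ofNat_ne_zero,
      not_false_eq_true, zero_pow, mul_zero, add_zero] at h1
    rw [glueb_pyth hΓ.1 hφ.1 hψ.1 p2 q2, glueb_pyth hΓ.1 (hψ.1.dirac C c hw) (hφ.1.dirac C c hw)
      (by simpa only [neg_neg] using q3) p3] at h1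
    have h4 : 0 < ‖α‖ ^ 2 := by rw [hα']; positivity
    refine le_of_mul_le_mul_left ?_ h4
    nlinarith [mul_le_mul_of_nonneg_left hq.le (sq_nonneg ‖β‖)]
  have h0 : 0 ≤ (∫ x, ‖dirac C c w φ x‖ ^ 2) / a := by positivity
  obtain ⟨φ', hφ', hle⟩ := duality C c hw h hC hΓ hΓ𝒮 hφ.hs (Real.sqrt_nonneg
    ((∫ x, ‖dirac C c w φ x‖ ^ 2) / a)) fun ψ hψ => by
      rw [← dirac_symm C c hw.continuous (hφ.1.1.of_le (by simp)) (hψ.1.1.of_le (by simp))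
        (Or.inl hφ.1.2), ← Real.sqrt_mul h0]
      refine Real.le_sqrt_of_sq_le ((fae_cs (hφ.1.dirac C c hw).memLp hψ.1.memLp).trans ?_)
      rw [div_mul_eq_mul_div, mul_div_assoc]
      refine mul_le_mul_of_nonneg_left ?_ (by positivity)
      rw [le_div_iff₀' ha]
      exact hgap ψ hψ
  refine ⟨φ', hφ', fun hz => ?_⟩
  have e : ∫ x, ‖φ x - φ' x‖ ^ 2 = ∫ x, ‖φ x‖ ^ 2 := by
    refine integral_congr_ae ?_
    filter_upwards [hz] with x hx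
    rw [hx, Pi.zero_apply, sub_zero]
  rw [e, Real.sq_sqrt h0, le_div_iff₀' ha] at hle
  linarith

/-- One of the parity components `φ±` of `φ` is again a quasi-mode; say `Γφ = φ`.  For odd `ψ` a combination
of `φ` and `ψ` is orthogonal to `t`, which gives `a‖ψ‖² ≤ ‖Qψ‖²`; then `duality` with `δ² = ‖Qφ‖²/a < ‖φ‖²`. -/
theorem nonTriv_of_codim (C : Cl Θ F) (c : Y →ₗ[ℝ] Θ) {w : Y → Θ} (hw : ContDiff ℝ ∞ w)
    {𝒮 : Syms Y F} (h : SymOK 𝒮) (hC : Compat C c w 𝒮) {Γ : F →L[ℂ] F} (hΓ : IsPar C Γ)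
    (hΓ𝒮 : ∀ p ∈ 𝒮, Γ * p.2 = p.2 * Γ) {a : ℝ} (ha : 0 < a) (H : Codim 𝒮 (dirac C c w) univ a)
    {φ : Y → F} (hφ : DS 𝒮 φ) (hq : ∫ x, ‖dirac C c w φ x‖ ^ 2 < a * ∫ x, ‖φ x‖ ^ 2) :
    NonTriv (WK 𝒮 (dirac C c w)) := by
  have hΓ𝒮' : ∀ p ∈ 𝒮, -Γ * p.2 = p.2 * -Γ := fun p hp => by simpa using hΓ𝒮 p hp
  have h1 := facC_ds_pj hΓ.2.1 hΓ𝒮 hφ
  have h2 := facC_ds_pj hΓ.neg.2.1 hΓ𝒮' hφ
  obtain ⟨p1, p2, p3⟩ := glueb_par C c w hΓ h1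
  obtain ⟨q1, q2, q3⟩ := glueb_par C c w hΓ.neg h2
  by_contra hn
  have a1 := not_lt.1 fun hlt => hn (glueb_even C c hw h hC hΓ hΓ𝒮 ha H h1 hlt)
  have a2 := not_lt.1 fun hlt => hn (glueb_even C c hw h hC hΓ.neg hΓ𝒮' ha H h2 hlt)
  have e1 := glueb_pyth hΓ.1 h1.1 h2.1 p2 q2 1 1
  have e2 := glueb_pyth hΓ.1 (h2.1.dirac C c hw) (h1.1.dirac C c hw)
    (by simpa only [neg_neg] using q3) p3 1 1
  have f1 : ∀ v : F, (1 : ℂ) • (1 / 2 : ℂ) • (v + Γ v) + (1 : ℂ) • (1 / 2 : ℂ) • (v + (-Γ) v) = v :=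
    fun v => by rw [neg_apply]; module
  have f2 := facC_dirac_pj C c w hΓ.neg hφ.1
  rw [neg_neg] at f2
  simp only [facC_dirac_pj C c w hΓ hφ.1, f2, f1] at e1 e2 a1 a2
  simp only [norm_one, one_pow, one_mul] at e1 e2
  rw [e1, e2, mul_add] at hq
  linarith

theorem invS_norm [Nontrivial F] {C : Cl Θ F} {c : Y →ₗ[ℝ] Θ} {w : Y → Θ} {𝒮 : Syms Y F}
    (h : SymOK 𝒮) (hC : Compat C c w 𝒮) : InvS 𝒮 fun x => ‖w x‖ := by
  intro p hp x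
  obtain ⟨v, hv⟩ := exists_ne (0 : F)
  have h1 : p.2 (C.θ (w x) v) = C.θ (w (p.1 x)) (p.2 v) := congrArg (fun T : F →L[ℂ] F => T v) ((hC p hp).2 x)
  have h2 := C.norm_θ_sq (w x) v
  have h3 := C.norm_θ_sq (w (p.1 x)) (p.2 v)
  rw [← h1, (h p hp).2, (h p hp).2, h2] at h3
  have h4 : 0 < ‖v‖ ^ 2 := by positivity
  have h5 : ‖w (p.1 x)‖ ^ 2 = ‖w x‖ ^ 2 := by
    have := mul_right_cancel₀ h4.ne' h3
    linarith
  exact (sq_eq_sq₀ (norm_nonneg _) (norm_nonneg _)).1 h5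

end Crest.Agent.R330

end
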