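import Crest.Agent.R330.L.Dict
import Crest.Agent.R330.L.Glue

/-! # Row 330, L/Far: the region far from the chain (owner helper74; statements frozen, plan in `L/Defs.lean`) -/

set_option autoImplicit false
set_option linter.unusedSectionVars false
set_option linter.unusedVariables false

noncomputable section

open MeasureTheory Filter Topology Set Metric
open scoped InnerProductSpace ContDiff Matrix
open Crest.MathPhysics.MatrixQM (GammaNine)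

namespace Crest.Agent.R330

variable {E F : Type} [NormedAddCommGroup E] [InnerProductSpace ℝ E] [FiniteDimensional ℝ E]
  [MeasurableSpace E] [BorelSpace E]
  [NormedAddCommGroup F] [InnerProductSpace ℂ F] [FiniteDimensional ℂ F]
  {K : Type} [Group K] [TopologicalSpace K] [IsTopologicalGroup K]
  [CompactSpace K] [MeasurableSpace K] [BorelSpace K] {𝔤 : Lie E}

variable (C : Cl (Th E) F) (σ : Spn)

/-- `exists_smooth_dist` (`δ = ℓ/2`) and `exists_fg`: `f, g = f₀, g₀ (d/ℓ - 2)`, `F̂ = ½‖v‖² f₀ (d/ℓ - 5)`. -/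
theorem exists_cut (Γ : Grp 𝔤 K) (φ₀ : E) {ℓ : ℝ} (hℓ : 0 < ℓ) : ∃ (f g Fh : E → ℝ) (β : ℝ),
    ContDiff ℝ ∞ f ∧ ContDiff ℝ ∞ g ∧ ContDiff ℝ ∞ Fh ∧ HasCompactSupport Fh ∧
    (∀ ξ v, f (rexp' (𝔤.br ξ) v) = f v) ∧ (∀ ξ v, g (rexp' (𝔤.br ξ) v) = g v) ∧
    (∀ ξ v, Fh (rexp' (𝔤.br ξ) v) = Fh v) ∧ (∀ v, f v ^ 2 + g v ^ 2 = 1) ∧
    (∀ v, ‖gradient f v‖ ^ 2 + ‖gradient g v‖ ^ 2 ≤ β) ∧
    (∀ v, f v ≠ 0 → infDist v (Γ.orb φ₀) ≤ 7 / 2 * ℓ) ∧ (∀ v, g v ≠ 0 → ℓ ≤ infDist v (Γ.orb φ₀)) ∧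
    ∀ v, infDist v (Γ.orb φ₀) < 4 * ℓ → Fh v = 1 / 2 * ‖v‖ ^ 2 := by
  have hS : (Γ.orb φ₀).Nonempty := range_nonempty _
  obtain ⟨d, hd, hdd, hdg, hdi⟩ := exists_smooth_dist hS (half_pos hℓ)
  obtain ⟨f₀, g₀, b, hf, hg, hfg, hg0, hf0, hpos, hb, -⟩ := exists_fg
  have hinv : ∀ ξ v, d (rexp' (𝔤.br ξ) v) = d v ∧ ‖rexp' (𝔤.br ξ) v‖ = ‖v‖ := fun ξ v => by
    obtain ⟨k, hk⟩ := Γ.of_exp ξ
    rw [← hk]
    refine ⟨hdi (Γ.act k).toLinearIsometry (Subset.antisymm ?_ ?_) v, (Γ.act k).norm_map v⟩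
    · rintro _ ⟨_, ⟨k', rfl⟩, rfl⟩
      exact ⟨k * k', by simp⟩
    · rintro _ ⟨k', rfl⟩
      refine ⟨_, ⟨k⁻¹ * k', rfl⟩, ?_⟩
      change (Γ.act k * Γ.act (k⁻¹ * k')) φ₀ = _
      rw [← map_mul, mul_inv_cancel_left]
  have ha : ∀ c : ℝ, ContDiff ℝ ∞ fun v => d v / ℓ - c := fun c => (hd.div_const ℓ).sub contDiff_const
  have hgr : ∀ {h : ℝ → ℝ}, ContDiff ℝ ∞ h → ∀ v,
      ‖gradient (fun v => h (d v / ℓ - 2)) v‖ ^ 2 ≤ deriv h (d v / ℓ - 2) ^ 2 / ℓ ^ 2 := fun {h} hh v => by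
    have h1 : HasFDerivAt (fun v => d v / ℓ - 2) (ℓ⁻¹ • fderiv ℝ d v) v := by
      simpa only [div_eq_inv_mul] using
        (((hd.differentiable (by simp)) v).hasFDerivAt.const_mul ℓ⁻¹).sub_const 2
    have h2 : HasFDerivAt (fun v => h (d v / ℓ - 2)) _ v :=
      ((hh.differentiable (by simp)) (d v / ℓ - 2)).hasDerivAt.comp_hasFDerivAt v h1
    have h3 := hdg v
    rw [gh_norm_gradient] at h3 ⊢
    rw [h2.fderiv, norm_smul, norm_smul, mul_pow, mul_pow, Real.norm_eq_abs, Real.norm_eq_abs, sq_abs,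
      sq_abs, div_eq_mul_inv, inv_pow]
    exact mul_le_mul_of_nonneg_left (mul_le_of_le_one_right (by positivity)
      (pow_le_one₀ (norm_nonneg _) h3)) (sq_nonneg _)
  refine ⟨fun v => f₀ (d v / ℓ - 2), fun v => g₀ (d v / ℓ - 2),
    fun v => 1 / 2 * ‖v‖ ^ 2 * f₀ (d v / ℓ - 5), b / ℓ ^ 2, hf.comp (ha 2), hg.comp (ha 2),
    (contDiff_const.mul (contDiff_norm_sq ℝ)).mul (hf.comp (ha 5)), ?_,
    fun ξ v => by simp only [(hinv ξ v).1], fun ξ v => by simp only [(hinv ξ v).1],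
    fun ξ v => by simp only [(hinv ξ v).1, (hinv ξ v).2], fun v => hfg _, fun v => ?_, fun v hv => ?_,
    fun v hv => ?_, fun v hv => ?_⟩
  · refine HasCompactSupport.intro (isCompact_closedBall (0 : E) (‖φ₀‖ + 7 * ℓ)) fun v hv => ?_
    rw [mem_closedBall_zero_iff, not_le] at hv
    have h1 : ‖v‖ - ‖φ₀‖ ≤ infDist v (Γ.orb φ₀) := (le_infDist hS).2 (by
      rintro _ ⟨k, rfl⟩
      rw [dist_eq_norm, ← (Γ.act k).norm_map φ₀]
      exact norm_sub_norm_le _ _)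
    have h2 := (abs_le.1 (hdd v)).1
    have h3 : 6 ≤ d v / ℓ := by rw [le_div_iff₀ hℓ]; linarith
    rw [hf0 _ (by linarith), mul_zero]
  · refine (add_le_add (hgr hf v) (hgr hg v)).trans ?_
    rw [← add_div]
    exact div_le_div_of_nonneg_right (hb _) (sq_nonneg _)
  · have h1 : d v / ℓ - 2 < 1 := not_le.1 fun h => hv (hf0 _ h)
    have h2 : d v < 3 * ℓ := (div_lt_iff₀ hℓ).1 (by linarith)
    linarith [(abs_le.1 (hdd v)).1]
  · have h1 : 0 < d v / ℓ - 2 := not_le.1 fun h => hv (hg0 _ h)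
    have h2 : 2 * ℓ < d v := (lt_div_iff₀ hℓ).1 (by linarith)
    linarith [(abs_le.1 (hdd v)).2]
  · have h1 : d v / ℓ ≤ 5 := (div_le_iff₀ hℓ).2 (by linarith [(abs_le.1 (hdd v)).2])
    have h2 := hfg (d v / ℓ - 5)
    rw [hg0 _ (by linarith), zero_pow two_ne_zero, add_zero,
      pow_eq_one_iff_of_nonneg (hpos _).1 two_ne_zero] at h2
    beta_reduce
    rw [h2, mul_one]

theorem farb_grad {Fh : E → ℝ} (t : ℝ) {Λ : ℝ} (hΛ : 0 < Λ) {v : E}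
    (hd : DifferentiableAt ℝ Fh (Λ⁻¹ • v)) :
    gradient (Fs Fh t Λ) v = (t * Λ ^ 2) • gradient Fh (Λ⁻¹ • v) := by
  have h1 : DifferentiableAt ℝ (fun v : E => Fh (Λ⁻¹ • v)) v := hd.comp v (by fun_prop)
  unfold Fs
  rw [gradient, gradient, fderiv_const_mul h1, fderiv_comp_smul, smul_smul, map_smul]
  congr 1
  field_simp

theorem Fs_props {Fh : E → ℝ} (h : ContDiff ℝ ∞ Fh) (hc : HasCompactSupport Fh) : ∃ B : ℝ, 0 ≤ B ∧
    ∀ t Λ : ℝ, 0 < t → 0 < Λ → ContDiff ℝ ∞ (Fs Fh t Λ) ∧ HasCompactSupport (Fs Fh t Λ) ∧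
      (∀ v, ‖gradient (Fs Fh t Λ) v‖ ≤ B * t * Λ ^ 2) ∧
      ∀ v, ‖fderiv ℝ (gradient (Fs Fh t Λ)) v‖ ≤ B * t * Λ := by
  have hg := F_grad h
  have hgc : HasCompactSupport (gradient Fh) :=
    (hc.fderiv ℝ).comp_left (g := (InnerProductSpace.toDual ℝ E).symm) (map_zero _)
  obtain ⟨B₁, h₁⟩ := hg.continuous.bounded_above_of_compact_support hgc
  obtain ⟨B₂, h₂⟩ := (hg.continuous_fderiv (by simp)).bounded_above_of_compact_support (hgc.fderiv ℝ)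
  refine ⟨max B₁ B₂, ((norm_nonneg _).trans (h₁ 0)).trans (le_max_left _ _), fun t Λ ht hΛ => ?_⟩
  have e : gradient (Fs Fh t Λ) = fun v => (t * Λ ^ 2) • gradient Fh (Λ⁻¹ • v) :=
    funext fun v => farb_grad t hΛ (h.differentiable (by simp) _)
  refine ⟨contDiff_const.mul (h.comp (contDiff_const_smul _)),
    (hc.comp_smul (inv_ne_zero hΛ.ne')).mul_left, fun v => ?_, fun v => ?_⟩
  · rw [e, norm_smul, Real.norm_of_nonneg (by positivity), mul_comm, mul_assoc]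
    exact mul_le_mul_of_nonneg_right ((h₁ _).trans (le_max_left _ _)) (by positivity)
  · have h1 : DifferentiableAt ℝ (fun v : E => gradient Fh (Λ⁻¹ • v)) v :=
      (hg.differentiable (by simp) _).comp v (by fun_prop)
    rw [e, fderiv_fun_const_smul h1, fderiv_comp_smul, smul_smul, norm_smul,
      show t * Λ ^ 2 * Λ⁻¹ = t * Λ by field_simp, Real.norm_of_nonneg (by positivity), mul_comm, mul_assoc]
    exact mul_le_mul_of_nonneg_right ((h₂ _).trans (le_max_right _ _)) (by positivity)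

theorem gradient_Fs {Fh : E → ℝ} {U : Set E} (hU : IsOpen U) (h : ∀ v ∈ U, Fh v = 1 / 2 * ‖v‖ ^ 2)
    (t : ℝ) {Λ : ℝ} (hΛ : 0 < Λ) {v : E} (hv : Λ⁻¹ • v ∈ U) :
    gradient (Fs Fh t Λ) v = (t * Λ) • v := by
  have h1 : HasGradientAt Fh (Λ⁻¹ • v) (Λ⁻¹ • v) := by
    refine HasGradientAt.congr_of_eventuallyEq (f := fun v : E => 1 / 2 * ‖v‖ ^ 2) ?_
      (eventually_of_mem (hU.mem_nhds hv) h)
    refine ((hasStrictFDerivAt_norm_sq _).hasFDerivAt.const_mul _).congr_fderiv ?_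
    ext w
    simp
  rw [farb_grad t hΛ h1.differentiableAt, h1.gradient, smul_smul]
  congr 1
  field_simp

theorem lift_cut {f : E → ℝ} (hf : ContDiff ℝ ∞ f) (hi : ∀ ξ v, f (rexp' (𝔤.br ξ) v) = f v) {Λ : ℝ}
    (hΛ : 1 ≤ Λ) : ContDiff ℝ ∞ (fun x : X E => f (Λ⁻¹ • x 8)) ∧
      InvS (flows 𝔤 C σ.G neut) (fun x : X E => f (Λ⁻¹ • x 8)) ∧
      ∀ x, ‖gradient (fun x : X E => f (Λ⁻¹ • x 8)) x‖ ≤ ‖gradient f (Λ⁻¹ • x 8)‖ := by
  have hΛ0 : 0 < Λ := one_pos.trans_le hΛ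
  set L : X E →L[ℝ] E := Λ⁻¹ • PiLp.proj 2 (fun _ : Fin 9 => E) 8 with hL
  have hLn : ‖L‖ ≤ 1 := L.opNorm_le_bound zero_le_one fun x => by
    change ‖Λ⁻¹ • x 8‖ ≤ _
    rw [norm_smul, Real.norm_of_nonneg (inv_pos.2 hΛ0).le]
    exact mul_le_mul (inv_le_one_of_one_le₀ hΛ) (PiLp.norm_apply_le x 8) (norm_nonneg _) zero_le_one
  refine ⟨hf.comp L.contDiff, ?_, fun x => ?_⟩
  · simpa using invS_mu 𝔤 C σ 0 (Fn := fun v => f (Λ⁻¹ • v)) fun ξ v => by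
      rw [← map_smul, hi]
  · have h1 : HasFDerivAt (fun x : X E => f (Λ⁻¹ • x 8)) _ x :=
      ((hf.differentiable (by simp)) (L x)).hasFDerivAt.comp x L.hasFDerivAt
    rw [gh_norm_gradient, gh_norm_gradient, h1.fderiv]
    exact (ContinuousLinearMap.opNorm_comp_le _ _).trans (mul_le_of_le_one_right (norm_nonneg _) hLn)

/-- `coulomb` with `e v = cΛ min 1 (max 0 (2 dist(v/Λ)/ℓ - 1))`, `Ecoul_ge`, `Ecoul_smul`, `Ecoul_nonneg`,
`infDist_le_eig`. -/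
theorem far_gap {N : ℕ} (hN : 1 ≤ N) (M : MatSys N 𝔤) (Γ : Grp 𝔤 K) {φ₀ : E} (hφ : M.m φ₀ = dch N)
    {ℓ : ℝ} (hℓ : 0 < ℓ) {Fh : E → ℝ} (h : ContDiff ℝ ∞ Fh) (hc : HasCompactSupport Fh) :
    ∃ c t : ℝ, 0 < c ∧ 0 < t ∧ ∀ᶠ Λ : ℝ in atTop,
      Gap (flows 𝔤 C σ.G neut) (Qd 𝔤 C σ Λ (gradient (Fs Fh t Λ)))
        {x | ℓ ≤ infDist (Λ⁻¹ • x 8) (Γ.orb φ₀)} (c * Λ) := by
  obtain ⟨c₀, hc₀, hE⟩ := Ecoul_ge hN (half_pos hℓ)
  obtain ⟨c, B, hc1, hB, H⟩ := coulomb C σ M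
  obtain ⟨B', hB', hF⟩ := Fs_props h hc
  have h0 : ContinuousAt (fun t : ℝ => B * (√(B' * t) + B' * t)) 0 := by fun_prop
  obtain ⟨t, ht1, ht⟩ := (((h0.eventually_lt (g := fun _ => c₀ / 4) continuousAt_const
    (by simpa using hc₀)).filter_mono nhdsWithin_le_nhds).and (self_mem_nhdsWithin (s := Ioi 0))).exists
  refine ⟨c₀ / 2, t, half_pos hc₀, ht, ?_⟩
  filter_upwards [eventually_ge_atTop 1, eventually_ge_atTop (8 * B / c₀)] with Λ hΛ1 hΛ2 ψ hψ hs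
  have hΛ : 0 < Λ := by linarith
  obtain ⟨f1, -, f3, f4⟩ := hF t Λ ht hΛ
  have ce : Continuous fun v : E => c₀ * Λ * min 1 (max 0 (2 * infDist (Λ⁻¹ • v) (Γ.orb φ₀) / ℓ - 1)) := by
    fun_prop
  refine le_trans ?_ (H Λ hΛ _ f1 _ _ f3 f4 _ ce (fun v => ?_) ψ ((cls_iff_ds 𝔤 C σ.G neut ψ).2 hψ))
  · have cz := L1B.continuous_zsq (E := E)
    rw [← integral_const_mul]
    refine integral_mono ((F_sq hψ.1).const_mul _) (fae_core_int hψ.1 ?_) fun x => ?_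
    · exact ((ce.comp (by fun_prop)).add (continuous_const.mul cz)).sub continuous_const
    by_cases hx : x ∈ tsupport ψ
    swap
    · simp [image_eq_zero_of_notMem_tsupport hx]
    refine mul_le_mul_of_nonneg_right ?_ (sq_nonneg _)
    have h1 : 1 ≤ 2 * infDist (Λ⁻¹ • x 8) (Γ.orb φ₀) / ℓ - 1 := by
      rw [le_sub_iff_add_le, le_div_iff₀ hℓ]
      linarith [show ℓ ≤ infDist (Λ⁻¹ • x 8) (Γ.orb φ₀) from hs hx]
    have hz : 0 ≤ zsq x := Finset.sum_nonneg fun _ _ => sq_nonneg _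
    have ht0 : 0 < t := ht
    have h2 : 0 ≤ c * min Λ (Λ ^ 2) / ((1 + Λ) * (1 + B' * t * Λ ^ 2)) * zsq x := by positivity
    have h3 : Λ⁻¹ ^ 2 ≤ 1 := pow_le_one₀ (by positivity) (inv_le_one_of_one_le₀ hΛ1)
    rw [div_le_iff₀ hc₀] at hΛ2
    rw [min_eq_left (le_max_of_le_right h1), Real.sqrt_mul' _ (sq_nonneg Λ), Real.sqrt_sq hΛ.le]
    nlinarith [mul_le_mul_of_nonneg_right ht1.le hΛ.le, mul_le_mul_of_nonneg_left h3 hB.le]
  · rcases le_total (infDist (Λ⁻¹ • v) (Γ.orb φ₀)) (ℓ / 2) with h1 | h1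
    · rw [max_eq_left, min_eq_right zero_le_one, mul_zero]
      · exact Ecoul_nonneg hN hΛ _
      · rw [sub_nonpos, div_le_one hℓ]; linarith
    · have h2 := Ecoul_smul hΛ fun a => Λ⁻¹ * (M.herm v).eigenvalues a
      simp only [mul_inv_cancel_left₀ hΛ.ne'] at h2
      have h3 : ∑ a, (M.herm v).eigenvalues a = 0 := by
        have := (M.herm v).trace_eq_sum_eigenvalues
        rw [M.traceless] at this
        exact Complex.ofReal_eq_zero.1 ((Complex.ofReal_sum _ _).trans this.symm)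
      have h4 := hE (fun a => Λ⁻¹ * (M.herm v).eigenvalues a) (by rw [← Finset.mul_sum, h3, mul_zero])
        fun s => (pow_le_pow_left₀ (by positivity) h1 2).trans (M.infDist_le_eig Γ hφ v _ s)
      rw [h2, mul_comm c₀]
      exact (mul_le_of_le_one_right (by positivity) (min_le_left _ _)).trans
        (mul_le_mul_of_nonneg_left h4 hΛ.le)

end Crest.Agent.R330

end
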