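import Crest.Agent.R330.L.Inner
import Crest.Agent.R330.L.Glue

/-! # Row 330, L/Outer: the region near the chain (owner helper74; statements frozen, plan in `L/Defs.lean`) -/

set_option autoImplicit false
set_option linter.unusedSectionVars false
set_option linter.unusedVariables false

noncomputable section

open MeasureTheory Filter Topology Set Metric
open scoped InnerProductSpace ContDiff Matrix
open Crest.MathPhysics.MatrixQM (GammaNine)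

namespace Crest.Agent.R330

variable {E F : Type} [NormedAddCommGroup E] [InnerProductSpace ℝ E] [FiniteDimensional ℝ E]
  [MeasurableSpace E] [BorelSpace E]
  [NormedAddCommGroup F] [InnerProductSpace ℂ F] [FiniteDimensional ℂ F]
  {K : Type} [Group K] [TopologicalSpace K] [IsTopologicalGroup K]
  [CompactSpace K] [MeasurableSpace K] [BorelSpace K] {𝔤 : Lie E}

variable (C : Cl (Th E) F) (σ : Spn)

theorem outa_ds {Y Θ : Type} [NormedAddCommGroup Y] [NormedSpace ℝ Y] [NormedAddCommGroup Θ]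
    [InnerProductSpace ℝ Θ] {w : Y → Θ} {x : Y} (hw : DifferentiableAt ℝ w x) (r : ℝ) {A B : ℝ}
    (h1 : ‖w x‖ ≤ A) (h2 : ‖fderiv ℝ w x‖ ≤ B) :
    ‖fderiv ℝ (fun y => ‖w y‖ ^ 2 / r ^ 2 - 1) x‖ ≤ 2 * A * B / r ^ 2 := by
  have h3 : HasFDerivAt (fun y => ‖w y‖ ^ 2 / r ^ 2 - 1)
      ((r ^ 2)⁻¹ • (2 • (innerSL ℝ (w x)).comp (fderiv ℝ w x))) x := by
    have := (hw.hasFDerivAt.norm_sq.const_mul (r ^ 2)⁻¹).sub_const 1
    refine this.congr_of_eventuallyEq (Eventually.of_forall fun y => ?_)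
    simp only [div_eq_inv_mul]
  rw [h3.fderiv, norm_smul, Real.norm_of_nonneg (by positivity), two_smul]
  have h5 : ‖(innerSL ℝ (w x)).comp (fderiv ℝ w x)‖ ≤ A * B := by
    refine (ContinuousLinearMap.opNorm_comp_le _ _).trans ?_
    rw [innerSL_apply_norm]
    exact mul_le_mul h1 h2 (norm_nonneg _) ((norm_nonneg _).trans h1)
  calc _ ≤ (r ^ 2)⁻¹ * (A * B + A * B) :=
        mul_le_mul_of_nonneg_left ((norm_add_le _ _).trans (add_le_add h5 h5)) (by positivity)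
    _ = _ := by ring

theorem outa_scale {Y Θ : Type} [NormedAddCommGroup Y] [NormedSpace ℝ Y] [NormedAddCommGroup Θ]
    [NormedSpace ℝ Θ] {w : Y → Θ} (hw : Differentiable ℝ w) {Λ : ℝ} (hΛ : 0 < Λ) (x : Y) :
    ‖fderiv ℝ (fun y => Λ ^ 2 • w (Λ⁻¹ • y)) x‖ = ‖fderiv ℝ w (Λ⁻¹ • x)‖ * Λ := by
  have h4 : HasFDerivAt (fun y => Λ ^ 2 • w (Λ⁻¹ • y)) (Λ ^ 2 • (fderiv ℝ w (Λ⁻¹ • x)).comp
      (Λ⁻¹ • ContinuousLinearMap.id ℝ Y)) x :=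
    ((hw (Λ⁻¹ • x)).hasFDerivAt.comp x ((hasFDerivAt_id x).const_smul Λ⁻¹)).const_smul (Λ ^ 2)
  rw [h4.fderiv, ContinuousLinearMap.comp_smul, ContinuousLinearMap.comp_id, smul_smul, norm_smul,
    show Λ ^ 2 * Λ⁻¹ = Λ by field_simp, Real.norm_of_nonneg hΛ.le, mul_comm]

theorem outa_grad {φ : ℝ → ℝ} {s : X E → ℝ} {x : X E} (hφ : DifferentiableAt ℝ φ (s x))
    (hs : DifferentiableAt ℝ s x) :
    ‖gradient (fun y => φ (s y)) x‖ = |deriv φ (s x)| * ‖fderiv ℝ s x‖ := by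
  have h := hφ.hasDerivAt.comp_hasFDerivAt x hs.hasFDerivAt
  have e : fderiv ℝ (fun y => φ (s y)) x = deriv φ (s x) • fderiv ℝ s x := h.fderiv
  rw [gradient, LinearIsometryEquiv.norm_map, e, norm_smul, Real.norm_eq_abs]

theorem outa_dw (σ : Spn) (t R η : ℝ) : ∃ M : ℝ, ∀ Λ : ℝ, 1 ≤ Λ → ∀ x : X E, ‖Λ⁻¹ • x 8‖ ≤ R →
    ‖wl 𝔤 σ t Λ x‖ ≤ 2 * η * Λ → ‖fderiv ℝ (wl 𝔤 σ t Λ) x‖ ≤ M * Λ := by
  obtain ⟨C₁, hC₁, hc⟩ := coer1 (𝔤 := 𝔤) σ t R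
  have hw : ContDiff ℝ ∞ (wl 𝔤 σ t 1) := contDiff_wd 𝔤 σ 1 (contDiff_id.const_smul _)
  obtain ⟨M, hM⟩ := (isCompact_closedBall (0 : X E) √(C₁ * ((2 * η) ^ 2 + 1))).exists_bound_of_continuousOn
    (hw.continuous_fderiv (by simp)).continuousOn
  refine ⟨M, fun Λ hΛ x hx hwx => ?_⟩
  have hΛ0 : 0 < Λ := by linarith
  have h1 : ‖wl 𝔤 σ t 1 (Λ⁻¹ • x)‖ ≤ |2 * η| := by
    rw [wl_unscale σ t hΛ0, div_le_iff₀ (by positivity)]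
    refine hwx.trans ((mul_le_mul_of_nonneg_right (le_abs_self _) hΛ0.le).trans ?_)
    exact mul_le_mul_of_nonneg_left (by nlinarith) (abs_nonneg _)
  have h2 : Λ⁻¹ • x ∈ closedBall (0 : X E) √(C₁ * ((2 * η) ^ 2 + 1)) := by
    rw [mem_closedBall_zero_iff]
    refine Real.le_sqrt_of_sq_le ((hc _ hx).trans ?_)
    have := pow_le_pow_left₀ (norm_nonneg _) h1 2
    rw [sq_abs] at this
    gcongr
  have h3 : wl 𝔤 σ t Λ = fun y => Λ ^ 2 • wl 𝔤 σ t 1 (Λ⁻¹ • y) := funext fun y => by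
    rw [← wl_scale, smul_inv_smul₀ hΛ0.ne']
  have h4 := outa_scale (hw.differentiable (by simp)) hΛ0 x
  rw [← h3] at h4
  refine h4.le.trans ?_
  exact mul_le_mul_of_nonneg_right (hM _ h2) hΛ0.le

/-- `exists_fg` of `‖w‖²/(ηΛ)² - 1`; `‖dw(x)‖ ≤ C(‖x‖ + Λ)` and `coer`. -/
theorem wcut [Nontrivial F] (t R : ℝ) {η : ℝ} (hη : 0 < η) : ∃ β : ℝ, ∀ Λ : ℝ, 1 ≤ Λ →
    ∃ f g : X E → ℝ, ContDiff ℝ ∞ f ∧ ContDiff ℝ ∞ g ∧ InvS (flows 𝔤 C σ.G neut) f ∧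
      InvS (flows 𝔤 C σ.G neut) g ∧ (∀ x, f x ^ 2 + g x ^ 2 = 1) ∧
      tsupport f ⊆ {x | ‖wl 𝔤 σ t Λ x‖ ≤ 2 * η * Λ} ∧ tsupport g ⊆ {x | η * Λ ≤ ‖wl 𝔤 σ t Λ x‖} ∧
      ∀ x : X E, ‖Λ⁻¹ • x 8‖ ≤ R → ‖gradient f x‖ ^ 2 + ‖gradient g x‖ ^ 2 ≤ β := by
  obtain ⟨f₀, g₀, b, hf, hg, hfg, hg0, hf0, -, hb, hz⟩ := exists_fg
  obtain ⟨M, hM⟩ := outa_dw (𝔤 := 𝔤) σ t R η
  have hb0 : 0 ≤ b := le_trans (by positivity) (hb 0)
  refine ⟨b * (4 * M / η) ^ 2, fun Λ hΛ => ?_⟩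
  have hΛ0 : 0 < Λ := by linarith
  have hw : ContDiff ℝ ∞ (wl 𝔤 σ t Λ) := contDiff_wd 𝔤 σ Λ (contDiff_id.const_smul _)
  set s : X E → ℝ := fun x => ‖wl 𝔤 σ t Λ x‖ ^ 2 / (η * Λ) ^ 2 - 1 with hs
  have hss : ContDiff ℝ ∞ s := ((hw.norm_sq ℝ).div_const _).sub contDiff_const
  have hinv : InvS (flows 𝔤 C σ.G neut) fun x => ‖wl 𝔤 σ t Λ x‖ :=
    invS_norm (symOK_flows 𝔤 C σ.G (by rintro _ rfl; exact V0_skew))
      (compat_Qd 𝔤 C σ (by rintro _ rfl; rfl) Λ fun ξ v => (map_smul _ _ _).symm)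
  have hsi : InvS (flows 𝔤 C σ.G neut) s := fun p hp x => by
    have := hinv p hp x
    simp only [hs] at this ⊢
    rw [this]
  have hηΛ : 0 < η * Λ := by positivity
  have hle : ∀ x, s x ≤ 1 → ‖wl 𝔤 σ t Λ x‖ ≤ 2 * η * Λ := fun x hx => by
    have h1 : ‖wl 𝔤 σ t Λ x‖ ^ 2 / (η * Λ) ^ 2 ≤ 2 := by
      simp only [hs] at hx
      linarith
    rw [div_le_iff₀ (by positivity)] at h1
    exact le_of_sq_le_sq (by nlinarith [sq_nonneg (η * Λ)]) (by positivity)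
  have hge : ∀ x, 0 ≤ s x → η * Λ ≤ ‖wl 𝔤 σ t Λ x‖ := fun x hx => by
    have h1 : 1 ≤ ‖wl 𝔤 σ t Λ x‖ ^ 2 / (η * Λ) ^ 2 := by
      simp only [hs] at hx
      linarith
    rw [le_div_iff₀ (by positivity), one_mul] at h1
    exact le_of_sq_le_sq h1 (norm_nonneg _)
  refine ⟨fun x => f₀ (s x), fun x => g₀ (s x), hf.comp hss, hg.comp hss,
    fun p hp x => by simp only [hsi p hp x], fun p hp x => by simp only [hsi p hp x],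
    fun x => hfg _, ?_, ?_, fun x hx => ?_⟩
  · refine closure_minimal (fun x hx => hle x ?_) (isClosed_le hw.continuous.norm continuous_const)
    by_contra h
    exact hx (hf0 _ (not_le.1 h).le)
  · refine closure_minimal (fun x hx => hge x ?_) (isClosed_le continuous_const hw.continuous.norm)
    by_contra h
    exact hx (hg0 _ (not_le.1 h).le)
  · have hsd : DifferentiableAt ℝ s x := hss.differentiable (by simp) x
    rw [outa_grad (hf.differentiable (by simp) _) hsd, outa_grad (hg.differentiable (by simp) _) hsd,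
      mul_pow, mul_pow, ← add_mul, sq_abs, sq_abs]
    by_cases h : 1 < s x
    · rw [(hz _ (Or.inr h)).1, (hz _ (Or.inr h)).2]
      simp only [ne_eq, OfNat.ofNat_ne_zero, not_false_eq_true, zero_pow, add_zero, zero_mul]
      positivity
    · have h1 := hle x (not_lt.1 h)
      have h2 := hM Λ hΛ x hx h1
      have h4 : ‖fderiv ℝ s x‖ ≤ 2 * (2 * η * Λ) * (M * Λ) / (η * Λ) ^ 2 :=
        outa_ds (hw.differentiable (by simp) x) _ h1 h2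
      rw [show 2 * (2 * η * Λ) * (M * Λ) / (η * Λ) ^ 2 = 4 * M / η by field_simp; ring] at h4
      exact mul_le_mul (hb _) (pow_le_pow_left₀ (ContinuousLinearMap.opNorm_nonneg _) h4 2) (sq_nonneg _) hb0

theorem outb_num {η a b c Λ τ r W : ℝ} (hη : 0 < η) (hb : 0 < b) (hc : 0 < c) (l1 : 1 ≤ Λ) (l2 : 2 * b * c ≤ Λ)
    (l3 : 4 * (a + b * (c + 1) / 2 + b * (1 + τ)) / η ^ 2 ≤ Λ) (h : r ^ 2 ≤ c * (W ^ 2 / Λ ^ 2 + Λ ^ 2))
    (hW : η * Λ ≤ W) : a * Λ + b * (r + Λ + τ * Λ) ≤ 1 / 2 * W ^ 2 := by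
  have l0 : 0 < Λ := one_pos.trans_le l1
  rw [div_le_iff₀ (by positivity)] at l3
  have h1 : W ^ 2 / Λ ^ 2 ≤ W ^ 2 := div_le_self (sq_nonneg _) (one_le_pow₀ l1)
  have h2 : 2 * Λ * r ≤ c * W ^ 2 + (c + 1) * Λ ^ 2 := by nlinarith [sq_nonneg (r - Λ)]
  have h3 : b * r ≤ W ^ 2 / 4 + b * (c + 1) / 2 * Λ := by
    refine le_of_mul_le_mul_left ?_ (by positivity : 0 < 2 * Λ)
    nlinarith [mul_le_mul_of_nonneg_left h2 hb.le, mul_le_mul_of_nonneg_right l2 (sq_nonneg W)]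
  have h4 : (η * Λ) ^ 2 ≤ W ^ 2 := pow_le_pow_left₀ (by positivity) hW 2
  nlinarith [mul_le_mul_of_nonneg_right l3 l0.le]

/-- `energy_weighted_Qd` with `ϖ = 1`, `τ = 1/2`; `exists_norm_yuk`, `coer`. -/
theorem outer_gap (t R : ℝ) {η : ℝ} (hη : 0 < η) (a : ℝ) : ∀ᶠ Λ : ℝ in atTop,
    Gap (flows 𝔤 C σ.G neut) (Ql 𝔤 C σ t Λ)
      {x | ‖Λ⁻¹ • x 8‖ ≤ R ∧ η * Λ ≤ ‖wl 𝔤 σ t Λ x‖} (a * Λ) := by
  obtain ⟨b, hb, h1⟩ := exists_norm_yuk 𝔤 C σ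
  obtain ⟨c, hc, h2⟩ := coer (𝔤 := 𝔤) σ t R
  filter_upwards [eventually_ge_atTop 1, eventually_ge_atTop (2 * b * c),
    eventually_ge_atTop (4 * (a + b * (c + 1) / 2 + b * (1 + |t|)) / η ^ 2)] with Λ l1 l2 l3 ψ hψ hs
  have l0 : 0 < Λ := one_pos.trans_le l1
  rw [← cls_iff_ds] at hψ
  have hψ' : Cls 𝔤 C σ.G ∅ ψ := ⟨hψ.1, hψ.2.1, fun _ hp => absurd hp (Set.notMem_empty _)⟩
  have hk : Λ = 0 ∨ ∀ x, RotAt C σ.G V0 0 ψ x := Or.inr (hψ.2.2 (V0, 0) rfl)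
  have hf : ContDiff ℝ ∞ fun v : E => (t * Λ) • v := contDiff_id.const_smul _
  have hfs : ∀ y u v : E, ⟪fderiv ℝ (fun v : E => (t * Λ) • v) y u, v⟫_ℝ =
      ⟪u, fderiv ℝ (fun v : E => (t * Λ) • v) y v⟫_ℝ := fun y u v => by
    simp [fderiv_csmul, inner_smul_left, inner_smul_right]
  rw [F_energy 𝔤 C σ Λ 0 hf hfs hψ' hk, mul_zero, zero_mul, add_zero, ← integral_const_mul]
  refine integral_mono ((F_sq hψ.1).const_mul _) ((F_cont 𝔤 C σ Λ 0 _ hf hfs hψ' hk).integrable_of_hasCompactSupport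
    (HasCompactSupport.intro hψ.1.2 fun x hx => F_zero 𝔤 C σ Λ _ _ hx)) fun x => ?_
  by_cases hx : x ∈ tsupport ψ
  swap
  · simp only [F_zero 𝔤 C σ Λ _ _ hx, image_eq_zero_of_notMem_tsupport hx, norm_zero]
    simp
  have h3 := h1 Λ (fun v : E => (t * Λ) • v) x
  have h4 : ‖fderiv ℝ (fun v : E => (t * Λ) • v) (x 8)‖ ≤ |t| * Λ := by
    rw [fderiv_csmul, norm_smul, Real.norm_eq_abs, abs_mul, abs_of_pos l0]
    exact mul_le_of_le_one_right (by positivity) ContinuousLinearMap.norm_id_le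
  rw [abs_of_pos l0] at h3
  have h5 := outb_num hη hb hc l1 l2 l3 (h2 Λ l0 x (hs hx).1) (hs hx).2
  have h6 : |(⟪ψ x, C.iS (yuk 𝔤 σ Λ (fun v : E => (t * Λ) • v) x) (ψ x)⟫_ℂ).re| ≤
      ‖ψ x‖ * (b * (‖x‖ + Λ + |t| * Λ) * ‖ψ x‖) :=
    (Complex.abs_re_le_norm _).trans ((norm_inner_le_norm _ _).trans
      (mul_le_mul_of_nonneg_left ((ContinuousLinearMap.le_opNorm _ _).trans
        (mul_le_mul_of_nonneg_right (h3.trans (by gcongr)) (norm_nonneg _))) (norm_nonneg _)))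
  have h7 : 0 ≤ gsq ψ x := Finset.sum_nonneg fun _ _ => by positivity
  have h8 := mul_le_mul_of_nonneg_right h5 (sq_nonneg ‖ψ x‖)
  have h9 := neg_abs_le (⟪ψ x, C.iS (yuk 𝔤 σ Λ (fun v : E => (t * Λ) • v) x) (ψ x)⟫_ℂ).re
  simp only [edens]
  nlinarith

theorem near_codim [Nontrivial F] (Γ : Grp 𝔤 K) {t : ℝ} {x₀ : X E} (Q : Quad 𝔤 σ t x₀) {w : F}
    (hw : ∀ a, C.vac Q.J a = ⟪w, a⟫_ℂ • w) (hw1 : ‖w‖ = 1) {Ω : Set E} (hΩ : IsCompact Ω)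
    (hu : ∀ x : X E, x 8 ∈ Ω → wl 𝔤 σ t 1 x = 0 → ∃ k, Γ.ax k x = x₀) :
    ∃ c : ℝ, 0 < c ∧ ∀ᶠ Λ : ℝ in atTop,
      Codim (flows 𝔤 C σ.G neut) (Ql 𝔤 C σ t Λ) {x | Λ⁻¹ • x 8 ∈ Ω} (c * Λ) := by
  obtain ⟨c, hc, h1⟩ := Q.inner_codim C Γ hw hw1
  obtain ⟨η, hη, h2⟩ := sub_inn Γ Q hΩ hu
  obtain ⟨R, hR⟩ := hΩ.isBounded.exists_norm_le
  obtain ⟨β, h3⟩ := wcut (𝔤 := 𝔤) C σ t R hη
  refine ⟨c / 2, by positivity, ?_⟩
  filter_upwards [h1, h2, outer_gap (𝔤 := 𝔤) C σ t R hη c, eventually_ge_atTop 1,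
    eventually_ge_atTop (β / c)] with Λ h1 h2 h4 hΛ hΛβ
  obtain ⟨f, g, hf, hg, hfi, hgi, hfg, sf, sg, hβ⟩ := h3 Λ hΛ
  have := glue C (cmap σ.G σ.s) (norm_cmap σ.G σ.unit)
    (contDiff_wd 𝔤 σ Λ (f := fun v => (t * Λ) • v) (contDiff_id.const_smul _)) hf hg hfi hgi hfg
    (S := {x | Λ⁻¹ • x 8 ∈ Ω}) (fun x hx => h2 x hx.1 (sf hx.2))
    (fun x hx => (⟨hR _ hx.1, sg hx.2⟩ : x ∈ {x : X E | ‖Λ⁻¹ • x 8‖ ≤ R ∧ η * Λ ≤ ‖wl 𝔤 σ t Λ x‖}))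
    (fun x hx => hβ x (hR _ hx)) h1 h4
  refine this.mono subset_rfl ?_
  rw [div_le_iff₀ hc] at hΛβ
  linarith

end Crest.Agent.R330

end
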