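import Crest.Agent.R330.L.Defs

/-! # Row 330, L/Grp: orbit averages (owner helper74; statements frozen, plan in `L/Defs.lean`) -/

set_option autoImplicit false
set_option linter.unusedSectionVars false
set_option linter.unusedVariables false

noncomputable section

open MeasureTheory Filter Topology Set Metric
open scoped InnerProductSpace ContDiff Matrix
open Crest.MathPhysics.MatrixQM (GammaNine)

namespace Crest.Agent.R330

variable {E F : Type} [NormedAddCommGroup E] [InnerProductSpace ℝ E] [FiniteDimensional ℝ E]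
  [MeasurableSpace E] [BorelSpace E]
  [NormedAddCommGroup F] [InnerProductSpace ℂ F] [FiniteDimensional ℂ F]
  {K : Type} [Group K] [TopologicalSpace K] [IsTopologicalGroup K]
  [CompactSpace K] [MeasurableSpace K] [BorelSpace K] {𝔤 : Lie E}

namespace Grp

variable (Γ : Grp 𝔤 K)

theorem mB_pos (x₀ : X E) : 0 < Γ.mB x₀ := by
  have := Γ.prob
  have := Γ.pos
  refine ENNReal.toReal_pos (ne_of_gt (((isOpen_lt ((Γ.uc_cont x₀).sub continuous_const).norm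
    (continuous_const (y := (1 / 4 : ℝ)))).measure_pos Γ.μ ⟨1, ?_⟩).trans_le
      (measure_mono fun k hk => mem_ofPred.2 (le_of_lt (mem_ofPred.1 hk))))) (measure_ne_top _ _)
  simp [Γ.ax_one]

theorem meas_le (x x₀ : X E) (r : ℝ) : MeasurableSet {k | ‖Γ.ax k x - x₀‖ ≤ r} :=
  (isClosed_le ((Γ.uc_cont x).sub continuous_const).norm continuous_const).measurableSet

theorem norm_ax_inv (k : K) (x y : X E) : ‖Γ.ax k⁻¹ x - y‖ = ‖x - Γ.ax k y‖ := by
  rw [← (Γ.ax k).norm_map, map_sub, ← Γ.ax_mul, mul_inv_cancel, Γ.ax_one]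

theorem norm_two {k k₁ : K} {x x₀ : X E} (h : ‖Γ.ax k x - x₀‖ ≤ 1) (h₁ : ‖Γ.ax k₁ x - x₀‖ ≤ 1) :
    ‖Γ.ax (k * k₁⁻¹) x₀ - x₀‖ ≤ 2 := by
  have := norm_sub_le_norm_sub_add_norm_sub (Γ.ax (k * k₁⁻¹) x₀) (Γ.ax k x) x₀
  rw [Γ.ax_mul, ← map_sub, LinearIsometry.norm_map, Γ.norm_ax_inv, norm_sub_rev x₀, ← Γ.ax_mul] at this
  linarith

/-- Doubling.  `{k | ‖kx - x₀‖ ≤ 1} ⊆ {k | ‖kx₀ - x₀‖ ≤ 2}·k₁` (right invariance); cover the ball of radius `2`
by `M` balls of radius `1/8`; each gives a left translate of `{k | ‖kx₀ - x₀‖ ≤ 1/4}`. -/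
theorem doubling : ∃ M : ℝ, 1 ≤ M ∧ ∀ x₀ x : X E, Γ.mS x₀ x ≤ M * Γ.mB x₀ := by
  have := Γ.prob
  have := Γ.left
  have := Γ.right
  obtain ⟨T, -, hT, hc⟩ := finite_cover_balls_of_compact (isCompact_closedBall (0 : X E) 2)
    (show (0 : ℝ) < 1 / 8 by norm_num)
  refine ⟨hT.toFinset.card + 1, by simp, fun x₀ x => ?_⟩
  have hm := Γ.mB_pos x₀
  rcases {k | ‖Γ.ax k x - x₀‖ ≤ 1}.eq_empty_or_nonempty with h | ⟨k₁, h₁⟩
  · rw [mS, h, measureReal_empty]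
    positivity
  calc Γ.mS x₀ x ≤ Γ.μ.real (⋃ y ∈ hT.toFinset, {k | Γ.ax (k * k₁⁻¹) x₀ - x₀ ∈ ball y (1 / 8)}) := by
        refine measureReal_mono (fun k hk => ?_) (measure_ne_top _ _)
        simpa using hc (mem_closedBall_zero_iff.2 (Γ.norm_two hk h₁))
    _ ≤ ∑ y ∈ hT.toFinset, Γ.mB x₀ := (measureReal_biUnion_finset_le _ _).trans (Finset.sum_le_sum fun y _ => by
        rcases {k | Γ.ax (k * k₁⁻¹) x₀ - x₀ ∈ ball y (1 / 8)}.eq_empty_or_nonempty with h | ⟨k₂, h₂⟩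
        · rw [h, measureReal_empty]
          exact hm.le
        rw [mB, measureReal_def, measureReal_def, ← measure_preimage_mul Γ.μ (k₂ * k₁⁻¹)⁻¹ {k | _ ≤ _},
          ← measure_preimage_mul_right Γ.μ k₁⁻¹ (_ ⁻¹' _)]
        refine ENNReal.toReal_mono (measure_ne_top _ _) (measure_mono fun k hk => ?_)
        change ‖Γ.ax ((k₂ * k₁⁻¹)⁻¹ * (k * k₁⁻¹)) x₀ - x₀‖ ≤ 1 / 4
        have := dist_triangle_right (Γ.ax (k * k₁⁻¹) x₀ - x₀) (Γ.ax (k₂ * k₁⁻¹) x₀ - x₀) y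
        rw [dist_sub_right, dist_eq_norm] at this
        rw [Γ.ax_mul, Γ.norm_ax_inv]
        linarith [mem_ball.1 hk, mem_ball.1 h₂])
    _ ≤ _ := by
        rw [Finset.sum_const, nsmul_eq_mul]
        linarith

theorem int_le {W : Type} [NormedAddCommGroup W] [NormedSpace ℝ W] {f : K → W} {x₀ x : X E} {b : ℝ}
    (h0 : ∀ k, 1 < ‖Γ.ax k x - x₀‖ → f k = 0) (hb : ∀ k, ‖f k‖ ≤ b) : ‖∫ k, f k ∂Γ.μ‖ ≤ b * Γ.mS x₀ x := by
  have := Γ.prob
  rw [mS, mul_comm, ← smul_eq_mul, ← integral_indicator_const _ (Γ.meas_le x x₀ 1)]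
  refine norm_integral_le_of_norm_le ((integrable_const b).indicator (Γ.meas_le x x₀ 1))
    (Eventually.of_forall fun k => ?_)
  by_cases hk : ‖Γ.ax k x - x₀‖ ≤ 1
  · rw [indicator_of_mem (by exact hk)]
    exact hb k
  · rw [indicator_of_notMem (by exact hk), h0 k (not_le.1 hk), norm_zero]

theorem avg_le {q : X E → ℝ} (hq : Continuous q) {x₀ : X E} (h0 : ∀ x, 1 < ‖x - x₀‖ → q x = 0) {b : ℝ}
    (hb : ∀ x, q x ≤ b) (x : X E) : Γ.avg q x ≤ b * Γ.mS x₀ x := by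
  have := Γ.prob
  rw [mS, mul_comm, ← smul_eq_mul, ← integral_indicator_const _ (Γ.meas_le x x₀ 1)]
  refine integral_mono (Γ.uc_int (hq.comp (Γ.uc_cont x))) ((integrable_const b).indicator (Γ.meas_le x x₀ 1))
    fun k => ?_
  by_cases hk : ‖Γ.ax k x - x₀‖ ≤ 1
  · rw [indicator_of_mem (by exact hk)]
    exact hb _
  · rw [indicator_of_notMem (by exact hk)]
    exact (h0 _ (not_le.1 hk)).le

theorem avg_sq_le {q : X E → ℝ} (hq : Continuous q) {x₀ : X E} (h0 : ∀ x, 1 < ‖x - x₀‖ → q x = 0)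
    (x : X E) : Γ.avg q x ^ 2 ≤ Γ.mS x₀ x * Γ.avg (fun y => q y ^ 2) x := by
  have := discrim_le_zero (a := Γ.mS x₀ x) (b := -2 * Γ.avg q x) (c := Γ.avg (fun y => q y ^ 2) x) fun l => by
    have h1 := Γ.avg_le (q := fun y => 2 * l * q y - q y ^ 2) (by fun_prop) (x₀ := x₀)
      (fun y hy => by simp [h0 y hy]) (b := l * l) (fun y => by nlinarith [sq_nonneg (l - q y)]) x
    have i := hq.comp' (Γ.uc_cont x)
    rw [avg, integral_sub (Γ.uc_int (continuous_const.fun_mul i)) (Γ.uc_int (i.fun_pow 2)), integral_const_mul] at h1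
    simp only [avg]
    linarith
  rw [discrim] at this
  linarith

theorem norm_fderiv_avg_le {p : X E → ℝ} (hp : ContDiff ℝ ∞ p) {x₀ : X E}
    (h0 : ∀ x, 1 < ‖x - x₀‖ → p x = 0) {b : ℝ} (hb : ∀ x, ‖fderiv ℝ p x‖ ≤ b) (x : X E) :
    ‖fderiv ℝ (Γ.avg p) x‖ ≤ b * Γ.mS x₀ x := by
  refine ContinuousLinearMap.opNorm_le_bound _ (mul_nonneg ((norm_nonneg (fderiv ℝ p 0)).trans (hb 0)) measureReal_nonneg)
    fun v => ?_
  rw [Γ.uc_fderiv_avg hp, mul_right_comm]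
  refine Γ.int_le (fun k hk => ?_) fun k => ?_
  · have : p =ᶠ[𝓝 (Γ.ax k x)] fun _ => 0 :=
      mem_of_superset ((isOpen_lt continuous_const (continuous_id.sub continuous_const).norm).mem_nhds hk) h0
    simp [this.fderiv_eq]
  · refine (ContinuousLinearMap.le_opNorm _ _).trans ?_
    rw [LinearIsometry.norm_map]
    exact mul_le_mul_of_nonneg_right (hb _) (norm_nonneg _)

theorem le_avg {q : X E → ℝ} (hq : Continuous q) (hq0 : ∀ x, 0 ≤ q x) {x₀ x : X E} {a : ℝ}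
    (h : ∀ k, ‖Γ.ax k x₀ - x₀‖ ≤ 1 / 4 → a ≤ q (Γ.ax k x)) : a * Γ.mB x₀ ≤ Γ.avg q x := by
  have := Γ.prob
  rw [mB, mul_comm, ← smul_eq_mul, ← integral_indicator_const _ (Γ.meas_le x₀ x₀ _)]
  refine integral_mono ((integrable_const a).indicator (Γ.meas_le x₀ x₀ _)) (Γ.uc_int (hq.comp (Γ.uc_cont x)))
    fun k => ?_
  by_cases hk : ‖Γ.ax k x₀ - x₀‖ ≤ 1 / 4
  · rw [indicator_of_mem (by exact hk)]
    exact h k hk
  · rw [indicator_of_notMem (by exact hk)]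
    exact hq0 _

theorem continuous_avg {q : X E → ℝ} (hq : Continuous q) : Continuous (Γ.avg q) := by
  have := Γ.prob
  unfold avg
  simpa only [Measure.restrict_univ] using continuous_parametric_integral_of_continuous (μ := Γ.μ)
    (f := fun (x : X E) (k : K) => q (Γ.ax k x)) (hq.comp (Γ.continuous_ax.comp continuous_swap)) isCompact_univ

theorem far_ax {x₀ x : X E} (hx : x ∉ closedBall 0 (‖x₀‖ + 1)) (k : K) : 1 < ‖Γ.ax k x - x₀‖ := by
  have := norm_sub_norm_le (Γ.ax k x) x₀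
  rw [LinearIsometry.norm_map] at this
  linarith [not_le.1 (mt mem_closedBall_zero_iff.2 hx)]

theorem hasCompactSupport_avg {q : X E → ℝ} {x₀ : X E} (h0 : ∀ x, 1 < ‖x - x₀‖ → q x = 0) :
    HasCompactSupport (Γ.avg q) :=
  HasCompactSupport.intro (isCompact_closedBall 0 (‖x₀‖ + 1)) fun x hx => by
    simp [avg, h0 _ (Γ.far_ax hx _)]

theorem integral_avg_eq {q : X E → ℝ} (hq : Continuous q) {x₀ : X E}
    (h0 : ∀ x, 1 < ‖x - x₀‖ → q x = 0) : ∫ x, Γ.avg q x = ∫ x, q x := by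
  have := Γ.integral_avg hq (h := (closedBall (0 : X E) (‖x₀‖ + 1)).indicator fun _ => 1)
    ((integrableOn_const measure_closedBall_lt_top.ne).integrable_indicator measurableSet_closedBall)
    (HasCompactSupport.intro (isCompact_closedBall 0 (‖x₀‖ + 1)) fun x hx => indicator_of_notMem hx _)
    fun k x => by simp [indicator]
  convert this.symm using 3 with x x <;> by_cases hx : x ∈ closedBall (0 : X E) (‖x₀‖ + 1)
  · simp only [indicator_of_mem hx, mul_one]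
  · simp [avg, h0 _ (Γ.far_ax hx _)]
  · simp only [indicator_of_mem hx, mul_one]
  · simp [h0 _ (by simpa only [Γ.ax_one] using Γ.far_ax hx 1)]

end Grp

theorem rexp'_add_comm {V : Type} [NormedAddCommGroup V] [InnerProductSpace ℝ V] [FiniteDimensional ℝ V]
    {A B : V →ₗ[ℝ] V} (h : ∀ v, A (B v) = B (A v)) (v : V) : rexp' (A + B) v = rexp' A (rexp' B v) := by
  let : NormedAlgebra ℚ (V →L[ℝ] V) := NormedAlgebra.restrictScalars ℚ ℝ _
  rw [rexp', map_add, NormedSpace.exp_add_of_commute (ContinuousLinearMap.ext h)]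
  rfl

theorem Cl.S_mat_lift (C : Cl (Th E) F) {M : Matrix (Fin 16) (Fin 16) ℝ} (hM : Mᵀ = -M) (ξ : E) :
    Commute (C.S (mat M)) (C.S (lift 16 (𝔤.br ξ))) := by
  have := C.S_lie (isSkew_mat hM) (isSkew_lift (𝔤.isSkew_br ξ))
  rwa [mat_lift, sub_self, C.S_zero, sub_eq_zero] at this

theorem exp_fix {S : F →L[ℂ] F} {w : F} (h : S w = 0) (t : ℝ) : NormedSpace.exp ((t : ℂ) • S) w = w := by
  simpa using ((wtAt_iff_flow (0 : ℝ →ₗ[ℝ] ℝ) S 0 (differentiable_const w)).1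
    (fun x => by simp [WtAt, h]) t 0).symm

namespace Rep

variable {Γ : Grp 𝔤 K} {C : Cl (Th E) F} (ρ : Rep Γ C)

theorem mem_flows (G : GammaNine) (𝒱 : Wts) (k : K) :
    ((Γ.ax k).toContinuousLinearMap, ρ.ρ k) ∈ flows 𝔤 C G 𝒱 := by
  obtain ⟨ξ, h⟩ := Γ.exp_of k
  exact Or.inl ⟨ξ, Prod.ext (ContinuousLinearMap.ext (Γ.ub_flow h 9)) (ρ.spin k ξ h)⟩

theorem norm_rho (k : K) (a : F) : ‖ρ.ρ k a‖ = ‖a‖ := by
  obtain ⟨ξ, h⟩ := Γ.exp_of k
  simpa [ρ.spin k ξ h] using C.norm_exp_S (isSkew_lift (𝔤.isSkew_br ξ)) 1 0 a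

theorem rho_mul (k k' : K) (a : F) : ρ.ρ (k * k') a = ρ.ρ k (ρ.ρ k' a) := by
  rw [map_mul]
  rfl

/-- Compactness; `ρ k = 1` when `act k = 1` (`spin` with `ξ = 0`). -/
theorem rho_near {x₀ : X E} (hfree : ∀ k, Γ.ax k x₀ = x₀ → ∀ v, Γ.act k v = v) (w : F) :
    ∃ r : ℝ, 0 < r ∧ ∀ k, ‖Γ.ax k x₀ - x₀‖ ≤ r → ‖ρ.ρ k w - w‖ ≤ 1 / 2 := by
  obtain ⟨r, hr, h⟩ := (isClosed_le (continuous_const (y := (1 / 2 : ℝ)))
    ((ρ.cont.clm_apply continuous_const).sub (continuous_const (y := w))).norm).isCompact.exists_forall_le'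
    (f := fun k => ‖Γ.ax k x₀ - x₀‖) ((Γ.uc_cont x₀).sub continuous_const).norm.continuousOn (a := 0)
    fun k hk => norm_pos_iff.2 fun h0 => by
      have h1 := ρ.spin k 0 fun v => by rw [map_zero, rexp'_zero, hfree k (sub_eq_zero.1 h0)]
      have h2 : lift 16 (𝔤.br 0) = 0 := by
        ext x i
        simp
      rw [h2, C.S_zero, NormedSpace.exp_zero] at h1
      change 1 / 2 ≤ ‖ρ.ρ k w - w‖ at hk
      norm_num [h1] at hk
  refine ⟨r / 2, by positivity, fun k hk => ?_⟩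
  by_contra h'
  linarith [h k (not_le.1 h').le]

theorem av_fd {u : X E → F} (hu : ContDiff ℝ ∞ u) : ContDiff ℝ ∞ (ρ.av u) ∧ ∀ x v,
    fderiv ℝ (ρ.av u) x v = ∫ k, ρ.ρ k⁻¹ (fderiv ℝ u (Γ.ax k x) (Γ.ax k v)) ∂Γ.μ := by
  have := Γ.prob
  exact R330.contDiff_avg Γ.μ _ Γ.continuous_axL (fun k => (ρ.ρ k⁻¹).restrictScalars ℝ)
    ((ContinuousLinearMap.restrictScalarsL ℂ F F ℝ ℝ).continuous.comp (ρ.cont.comp continuous_inv)) hu

theorem av_core {u : X E → F} (hu : ContDiff ℝ ∞ u) {x₀ : X E} (h0 : ∀ x, 1 < ‖x - x₀‖ → u x = 0) :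
    Core (ρ.av u) ∧ tsupport (ρ.av u) ⊆ {x | ∃ k, ‖Γ.ax k x - x₀‖ ≤ 1} := by
  refine ⟨⟨(ρ.av_fd hu).1, HasCompactSupport.intro (isCompact_closedBall 0 (‖x₀‖ + 1)) fun x hx => by
    simp [av, h0 _ (Γ.far_ax hx _)]⟩, closure_minimal (fun x hx => ?_) ?_⟩
  · by_contra h
    exact hx (by simp [av, fun k => h0 _ (not_le.1 fun h' => h ⟨k, h'⟩)])
  · convert isClosedMap_snd_of_compactSpace _ (isClosed_le (Γ.continuous_ax.sub
      (continuous_const (y := x₀))).norm (continuous_const (y := (1 : ℝ))))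
    ext x
    simp

theorem int_av {f : K → F} (hf : Continuous f) : Integrable (fun k => ρ.ρ k⁻¹ (f k)) Γ.μ := by
  have := Γ.prob
  exact ((ρ.cont.comp continuous_inv).clm_apply hf).integrable_of_hasCompactSupport
    (HasCompactSupport.of_compactSpace _)

theorem av_ax {u : X E → F} (hu : Continuous u) (k : K) (x : X E) :
    ρ.av u (Γ.ax k x) = ρ.ρ k (ρ.av u x) := by
  have := Γ.right
  rw [av, av, ← ContinuousLinearMap.integral_comp_comm _ (ρ.int_av (hu.comp' (Γ.uc_cont x))),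
    eq_comm, ← integral_mul_right_eq_self _ k]
  simp only [Function.comp_apply, Γ.ax_mul, ← ρ.rho_mul, mul_inv_rev, mul_inv_cancel_left]

/-- `e^{sV₀} = e^{sA} e^{s adφ}`, left invariance, `e^{sS(σ V₀)} w = e^{sS(adφ)} w`. -/
theorem av_cls (σ : Spn) {q : X E → ℝ} (hq : ContDiff ℝ ∞ q) {x₀ : X E}
    (h0 : ∀ x, 1 < ‖x - x₀‖ → q x = 0) {φ : E}
    (hi : ∀ (s : ℝ) x, q (rexp' (s • AX 𝔤 φ) x) = q x) {w : F} (hw : C.S (AT 𝔤 σ φ) w = 0) :
    Cls 𝔤 C σ.G neut (ρ.av fun x => (q x : ℂ) • w) := by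
  have hu : ContDiff ℝ ∞ fun x => (q x : ℂ) • w := (Complex.ofRealCLM.contDiff.comp hq).smul contDiff_const
  let : NormedAlgebra ℚ (F →L[ℂ] F) := NormedAlgebra.restrictScalars ℚ ℂ _
  refine (cls_iff_ds 𝔤 C σ.G neut _).2 ⟨(ρ.av_core hu (x₀ := x₀) fun x hx => by simp [h0 x hx]).1, ?_⟩
  rintro _ (⟨ξ, rfl⟩ | ⟨_, rfl, s, rfl⟩) x
  · obtain ⟨k, hk⟩ := Γ.of_exp ξ
    simp only [← Γ.ub_flow hk 9, ← ρ.spin k ξ hk]
    exact ρ.av_ax hu.continuous k x
  have := Γ.left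
  have hM := sig_skew σ.G V0_skew
  obtain ⟨g, hg⟩ := Γ.of_exp (s • φ)
  have h1 : ∀ k, q (Γ.ax k (rexp' (s • mat V0) x)) = q (Γ.ax (g * k) x) := fun k => by
    have e1 := rexp'_intertwine (Γ.ax k).toLinearMap (s • mat V0) (s • mat V0)
      (LinearMap.ext fun y => by simp [Γ.ax_mat]) x
    have e2 : s • mat V0 = s • AX 𝔤 φ + lift 9 (𝔤.br (s • φ)) := by
      rw [map_smul, ga_lift_smul, AX, smul_sub, sub_add_cancel]
    rw [show Γ.ax k (rexp' (s • mat V0) x) = _ from e1, e2, rexp'_add_comm, hi, ← Γ.ub_flow hg 9, Γ.ax_mul]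
    · rfl
    · intro v
      simp only [AX, LinearMap.smul_apply, LinearMap.sub_apply, map_smul, map_sub, ga_lift_smul]
      rw [← LinearMap.comp_apply (mat V0), mat_lift, LinearMap.comp_apply, smul_sub]
  have h2 : NormedSpace.exp ((s : ℂ) • C.S (mat (sig σ.G V0))) w = ρ.ρ g w := by
    have e : C.S (mat (sig σ.G V0)) = C.S (lift 16 (𝔤.br φ)) + C.S (AT 𝔤 σ φ) := by
      rw [AT, C.S_sub, add_sub_cancel]
    rw [ρ.spin g _ hg, map_smul, ga_lift_smul, C.S_smul, e, smul_add, NormedSpace.exp_add_of_commute,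
      mul_apply_eq_comp, exp_fix hw]
    rw [AT, C.S_sub]
    exact (((C.S_mat_lift hM φ).symm.sub_right (Commute.refl _)).smul_left _).smul_right _
  have h3 : ∀ k a, ρ.ρ k (NormedSpace.exp ((s : ℂ) • C.S (mat (sig σ.G V0))) a) =
      NormedSpace.exp ((s : ℂ) • C.S (mat (sig σ.G V0))) (ρ.ρ k a) := fun k a => by
    obtain ⟨ξ, h⟩ := Γ.exp_of k
    rw [ρ.spin k ξ h]
    exact DFunLike.congr_fun (((C.S_mat_lift hM ξ).smul_left (s : ℂ)).exp.symm).eq a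
  simp only [Complex.ofReal_zero, zero_mul, zero_smul, add_zero, av, h1]
  rw [← ContinuousLinearMap.integral_comp_comm _ (ρ.int_av (hu.continuous.comp' (Γ.uc_cont x))),
    eq_comm, ← integral_mul_left_eq_self _ g]
  simp only [Function.comp_apply, map_smul, ← h3, h2, ← ρ.rho_mul, mul_inv_rev, inv_mul_cancel_right]

/-- Covariance of `Q` under the group (`compat_Qd`, `dirac_eq_sum`, `contDiff_avg`). -/
theorem norm_Q_av_le (σ : Spn) (t Λ : ℝ) {u : X E → F} (hu : ContDiff ℝ ∞ u) (x : X E) :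
    ‖Ql 𝔤 C σ t Λ (ρ.av u) x‖ ≤ Γ.avg (fun y => ‖Ql 𝔤 C σ t Λ u y‖) x := by
  have hC := compat_Qd 𝔤 C σ (𝒱 := ∅) (fun p hp => hp.elim) Λ (f := fun v => (t * Λ) • v)
    fun ξ v => (map_smul _ _ _).symm
  have hc := Γ.uc_cont
  have i1 := fun v => ρ.int_av (((hu.continuous_fderiv (by simp)).comp (hc x)).clm_apply (hc v))
  have i2 := ρ.int_av (hu.continuous.comp (hc x))
  have e : Ql 𝔤 C σ t Λ (ρ.av u) x = ∫ k, ρ.ρ k⁻¹ (Ql 𝔤 C σ t Λ u (Γ.ax k x)) ∂Γ.μ := by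
    simp only [Function.comp_apply] at i1 i2
    simp only [Ql, Qd]
    rw [dirac, av, ← ContinuousLinearMap.integral_comp_comm _ i2]
    simp only [(ρ.av_fd hu).2, ← ContinuousLinearMap.integral_comp_comm _ (i1 _), ← integral_smul]
    rw [← integral_finsetSum _ fun i _ => (ContinuousLinearMap.integrable_comp _ (i1 _)).fun_smul _,
      ← integral_add (integrable_finsetSum _ fun i _ => (ContinuousLinearMap.integrable_comp _ (i1 _)).fun_smul _)
        (ContinuousLinearMap.integrable_comp _ i2)]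
    congr 1
    ext k
    obtain ⟨b, hb⟩ := gb_basis (Γ.ax k).toContinuousLinearMap (Γ.ax k).norm_map
    obtain ⟨c1, c2⟩ := hC _ (ρ.mem_flows σ.G ∅ k⁻¹)
    replace c1 := fun y a => DFunLike.congr_fun (c1 (Γ.ax k y)) a
    replace c2 := fun a => DFunLike.congr_fun (c2 (Γ.ax k x)) a
    simp only [mul_apply_eq_comp, LinearIsometry.coe_toContinuousLinearMap, ← Γ.ax_mul,
      inv_mul_cancel, Γ.ax_one] at c1 c2
    rw [dirac_eq_sum _ _ _ _ _ b]
    simp only [hb, LinearIsometry.coe_toContinuousLinearMap, map_add, map_sum, map_smul, c1, c2]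
  rw [e]
  exact (norm_integral_le_integral_norm _).trans_eq (by simp only [ρ.norm_rho, Grp.avg])

theorem av_lower {q : X E → ℝ} (hq : Continuous q) (hq0 : ∀ x, 0 ≤ q x) {x₀ : X E}
    (h0 : ∀ x, 1 < ‖x - x₀‖ → q x = 0) {w : F} (hw : ‖w‖ = 1)
    (hρ : ∀ k, ‖Γ.ax k x₀ - x₀‖ ≤ 2 → ‖ρ.ρ k w - w‖ ≤ 1 / 2) (x : X E) :
    Γ.avg q x / 2 ≤ ‖ρ.av (fun y => (q y : ℂ) • w) x‖ := by
  have := Γ.prob
  by_cases h : ∃ k, ‖Γ.ax k x - x₀‖ ≤ 1
  swap
  · simp [Grp.avg, fun k => h0 _ (not_le.1 fun h' => h ⟨k, h'⟩)]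
  obtain ⟨k₁, h₁⟩ := h
  have hc := hq.comp' (Γ.uc_cont x)
  have i0 := Γ.uc_int hc
  have i1 := ρ.int_av (f := fun k => (q (Γ.ax k x) : ℂ) • w)
    ((Complex.continuous_ofReal.comp' hc).smul continuous_const)
  have h1 : ‖ρ.ρ k₁ (ρ.av (fun y => (q y : ℂ) • w) x) - Γ.avg q x • w‖ ≤ Γ.avg q x / 2 := by
    rw [av, ← ContinuousLinearMap.integral_comp_comm _ i1, Grp.avg, ← integral_smul_const, ← integral_div,
      ← integral_sub (ContinuousLinearMap.integrable_comp _ i1) (i0.smul_const w)]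
    refine norm_integral_le_of_norm_le (i0.div_const 2) (Eventually.of_forall fun k => ?_)
    by_cases hk : ‖Γ.ax k x - x₀‖ ≤ 1
    · rw [← ρ.rho_mul, map_smul, Complex.coe_smul, ← smul_sub, norm_smul, Real.norm_of_nonneg (hq0 _),
        div_eq_mul_one_div]
      exact mul_le_mul_of_nonneg_left (hρ _ (Γ.norm_two h₁ hk)) (hq0 _)
    · simp [h0 _ (not_le.1 hk)]
  have h2 := norm_sub_norm_le (Γ.avg q x • w) (ρ.ρ k₁ (ρ.av (fun y => (q y : ℂ) • w) x))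
  rw [norm_sub_rev, ρ.norm_rho, norm_smul, hw, Real.norm_of_nonneg (Γ.avg_nonneg hq0 x)] at h2
  linarith

end Rep

end Crest.Agent.R330

end
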