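import Crest.Agent.R330.L.Defs

/-! # Row 330, L/Loc: the flat model (owner helper74; statements frozen, plan in `L/Defs.lean`) -/

set_option autoImplicit false
set_option linter.unusedSectionVars false
set_option linter.unusedVariables false

noncomputable section

open MeasureTheory Filter Topology Set Metric
open scoped InnerProductSpace ContDiff Matrix
open Crest.MathPhysics.MatrixQM (GammaNine)

namespace Crest.Agent.R330

variable {Y Θ F : Type} [NormedAddCommGroup Y] [InnerProductSpace ℝ Y] [FiniteDimensional ℝ Y]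
  [MeasurableSpace Y] [BorelSpace Y]
  [NormedAddCommGroup Θ] [InnerProductSpace ℝ Θ] [FiniteDimensional ℝ Θ]
  [NormedAddCommGroup F] [InnerProductSpace ℂ F] [FiniteDimensional ℂ F]

variable {P G : Y →ₗ[ℝ] Y} {g₀ : ℝ}

theorem st_contDiff : ContDiff ℝ ∞ (st : Y → ℝ) :=
  Real.smoothTransition.contDiff.comp (contDiff_const.sub (contDiff_const.mul (contDiff_norm_sq ℝ)))

theorem st_nonneg (z : Y) : 0 ≤ st z := Real.smoothTransition.nonneg _

theorem st_le_one (z : Y) : st z ≤ 1 := Real.smoothTransition.le_one _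

theorem st_eq_one {z : Y} (h : ‖z‖ ≤ 1 / 2) : st z = 1 :=
  Real.smoothTransition.one_of_one_le (by nlinarith [norm_nonneg z])

theorem st_eq_zero {z : Y} (h : 1 / 2 ≤ ‖z‖ ^ 2) : st z = 0 :=
  Real.smoothTransition.zero_of_nonpos (by linarith)

theorem st_anti {z z' : Y} (h : ‖z‖ ≤ ‖z'‖) : st z' ≤ st z :=
  Real.smoothTransition.monotone (by nlinarith [norm_nonneg z])

theorem lin_smooth {Y' : Type} [NormedAddCommGroup Y'] [NormedSpace ℝ Y'] (A : Y →ₗ[ℝ] Y') :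
    ContDiff ℝ ∞ A := (LinearMap.toContinuousLinearMap A).contDiff

theorem lin_fd {Y' : Type} [NormedAddCommGroup Y'] [NormedSpace ℝ Y'] (A : Y →ₗ[ℝ] Y') (x : Y) :
    HasFDerivAt A (LinearMap.toContinuousLinearMap A) x := (LinearMap.toContinuousLinearMap A).hasFDerivAt

theorem stq_contDiff (P : Y →ₗ[ℝ] Y) : ContDiff ℝ ∞ fun z => st (z - P z) :=
  st_contDiff.comp (contDiff_id.sub (lin_smooth P))

theorem OscL.norm_sq (h : OscL P G g₀) (z : Y) : ‖z‖ ^ 2 = ‖P z‖ ^ 2 + ‖z - P z‖ ^ 2 := by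
  have := norm_add_sq_real (P z) (z - P z)
  rwa [add_sub_cancel, h.P_symm, map_sub, h.P_idem, sub_self, inner_zero_right, mul_zero, add_zero] at this

theorem OscL.norm_P_le (h : OscL P G g₀) (z : Y) : ‖P z‖ ≤ ‖z‖ :=
  le_of_sq_le_sq (by rw [h.norm_sq z]; exact le_add_of_nonneg_right (by positivity)) (norm_nonneg _)

theorem OscL.norm_Q_le (h : OscL P G g₀) (z : Y) : ‖z - P z‖ ≤ ‖z‖ :=
  le_of_sq_le_sq (by rw [h.norm_sq z]; exact le_add_of_nonneg_left (by positivity)) (norm_nonneg _)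

theorem OscL.PG (h : OscL P G g₀) (z : Y) : P (G z) = G z :=
  ext_inner_right ℝ fun y => by rw [h.P_symm, h.G_symm, h.GP, h.G_symm]

theorem OscL.norm_G_ge (h : OscL P G g₀) (z : Y) : g₀ * ‖P z‖ ≤ ‖G z‖ := by
  have h1 := h.ge z
  rw [← h.PG, ← h.P_symm] at h1
  replace h1 := h1.trans (real_inner_le_norm _ _)
  rcases (norm_nonneg (P z)).eq_or_lt with h0 | h0
  · rw [← h0, mul_zero]
    exact norm_nonneg _
  · exact le_of_mul_le_mul_right (by linarith) h0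

theorem OscL.inner_le (h : OscL P G g₀) (z : Y) : g₀ * ⟪z, G z⟫_ℝ ≤ ‖G z‖ ^ 2 := by
  have h1 := mul_le_mul_of_nonneg_left (real_inner_le_norm (P z) (G z)) h.pos.le
  have h2 := mul_le_mul_of_nonneg_right (h.norm_G_ge z) (norm_nonneg (G z))
  rw [h.P_symm, h.PG] at h1
  linarith

theorem OscL.inner_nonneg (h : OscL P G g₀) (z : Y) : 0 ≤ ⟪z, G z⟫_ℝ :=
  le_trans (mul_nonneg h.pos.le (sq_nonneg _)) (h.ge z)

theorem OscL.pw_props (h : OscL P G g₀) : ∃ b : ℝ, 0 ≤ b ∧ ∀ x₀ : Y, ContDiff ℝ ∞ (pw P x₀) ∧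
    (∀ x, 0 ≤ pw P x₀ x ∧ pw P x₀ x ≤ 1) ∧ (∀ x, ‖x - x₀‖ ≤ 1 / 2 → pw P x₀ x = 1) ∧
    (∀ x, 1 ≤ ‖x - x₀‖ → pw P x₀ x = 0) ∧ ∀ x, ‖fderiv ℝ (pw P x₀) x‖ ≤ b := by
  have h1 : ContDiff ℝ ∞ fun z => st (z - P z) * st (P z) :=
    (stq_contDiff P).mul (st_contDiff.comp (lin_smooth P))
  have h2 : ∀ z, 1 ≤ ‖z‖ → st (z - P z) * st (P z) = 0 := fun z hz => by
    have := h.norm_sq z
    rcases le_total (1 / 2) (‖P z‖ ^ 2) with a | a
    · rw [st_eq_zero a, mul_zero]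
    · rw [st_eq_zero (by nlinarith), zero_mul]
  have h3 : HasCompactSupport fun z => st (z - P z) * st (P z) :=
    HasCompactSupport.intro (isCompact_closedBall 0 1) fun z hz => h2 z (not_le.1 (mt mem_closedBall_zero_iff.2 hz)).le
  obtain ⟨b, hb⟩ := (h1.continuous_fderiv (by simp)).bounded_above_of_compact_support (h3.fderiv ℝ)
  refine ⟨b, (norm_nonneg _).trans (hb 0), fun x₀ => ⟨h1.comp (contDiff_id.sub contDiff_const),
    fun x => ⟨mul_nonneg (st_nonneg _) (st_nonneg _), mul_le_one₀ (st_le_one _) (st_nonneg _) (st_le_one _)⟩,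
    fun x hx => ?_, fun x hx => h2 _ hx, fun x => ?_⟩⟩
  · rw [pw, st_eq_one ((h.norm_Q_le _).trans hx), st_eq_one ((h.norm_P_le _).trans hx), mul_one]
  · exact (congrArg norm (fderiv_comp_sub (f := fun z => st (z - P z) * st (P z)) x₀)).trans_le (hb _)

theorem OscL.gdir_le (h : OscL P G g₀) (u : Y → F) (x : Y) : gdir P u x ≤ gsq u x := by
  simpa [gdir] using sum_fderiv_map_sq_le u x P 1 fun v => by simpa using h.norm_P_le v

theorem gsq_le_gdir (P : Y →ₗ[ℝ] Y) (u : Y → F) (x : Y) :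
    gsq u x ≤ 2 * gdir P u x + 2 * gdir (LinearMap.id - P) u x := by
  simp only [gsq, gdir, Finset.mul_sum, ← Finset.sum_add_distrib]
  refine Finset.sum_le_sum fun i _ => le_trans (le_of_eq ?_) (fae_add_sq _ _)
  simp

theorem gdir_nonneg (A : Y →ₗ[ℝ] Y) (u : Y → F) (x : Y) : 0 ≤ gdir A u x :=
  Finset.sum_nonneg fun _ _ => by positivity

theorem gsq_nonneg' (u : Y → F) (x : Y) : 0 ≤ gsq u x := Finset.sum_nonneg fun _ _ => by positivity

theorem gdir_cont (A : Y →ₗ[ℝ] Y) {u : Y → F} (hu : ContDiff ℝ 1 u) : Continuous (gdir A u) :=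
  continuous_finsetSum _ fun _ _ => ((hu.continuous_fderiv (by simp)).clm_apply continuous_const).norm.pow 2

theorem gsq_cont {u : Y → F} (hu : ContDiff ℝ 1 u) : Continuous (gsq u) :=
  continuous_finsetSum _ fun _ _ => ((hu.continuous_fderiv (by simp)).clm_apply continuous_const).norm.pow 2

theorem Core.one {u : Y → F} (hu : Core u) : ContDiff ℝ 1 u := hu.1.of_le (by simp)

theorem Core.int_gdir {u : Y → F} (hu : Core u) (A : Y →ₗ[ℝ] Y) {f : Y → ℝ} (hf : Continuous f) :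
    Integrable fun z => f z * gdir A u z :=
  Db_int hu.2 (hf.mul (gdir_cont A hu.one)).continuousOn fun x hx => by
    simp [gdir, fderiv_of_notMem_tsupport ℝ hx]

theorem Core.int_gsq {u : Y → F} (hu : Core u) {f : Y → ℝ} (hf : Continuous f) :
    Integrable fun z => f z * gsq u z := hu.int_gdir LinearMap.id hf

theorem OscL.ex_fd (h : OscL P G g₀) (z : Y) : HasFDerivAt (fun y => Real.exp (⟪y, G y⟫_ℝ / 2))
    (Real.exp (⟪z, G z⟫_ℝ / 2) • innerSL ℝ (G z)) z := by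
  refine ((((hasFDerivAt_id z).inner ℝ (lin_fd G z)).mul_const (2⁻¹ : ℝ)).exp).congr_fderiv ?_
  ext v
  simp only [id, smul_apply, ContinuousLinearMap.comp_apply, fderivInnerCLM_apply,
    ContinuousLinearMap.prod_apply, ContinuousLinearMap.id_apply, LinearMap.coe_toContinuousLinearMap',
    innerSL_apply_apply, smul_eq_mul, ← h.G_symm z v, real_inner_comm (G z) v, div_eq_mul_inv]
  ring

theorem ex_smooth (G : Y →ₗ[ℝ] Y) : ContDiff ℝ ∞ fun y => Real.exp (⟪y, G y⟫_ℝ / 2) :=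
  ((contDiff_id.inner ℝ (lin_smooth G)).div_const 2).exp

theorem OscL.fd_eu (h : OscL P G g₀) {u : Y → F} {z : Y} (hu : DifferentiableAt ℝ u z) (a : Y) :
    fderiv ℝ (fun y => (Real.exp (⟪y, G y⟫_ℝ / 2) : ℂ) • u y) z a =
      (Real.exp (⟪z, G z⟫_ℝ / 2) : ℂ) • (fderiv ℝ u z a + (⟪G z, a⟫_ℝ : ℂ) • u z) := by
  rw [ga_fderiv (h.ex_fd z).differentiableAt hu, (h.ex_fd z).fderiv, smul_add, smul_smul]
  simp

theorem OscL.gst_pt (h : OscL P G g₀) {u : Y → F} {z : Y} (hu : DifferentiableAt ℝ u z) :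
    Real.exp (-⟪z, G z⟫_ℝ) * gdir P (fun y => (Real.exp (⟪y, G y⟫_ℝ / 2) : ℂ) • u y) z =
      gdir P u z + ‖G z‖ ^ 2 * ‖u z‖ ^ 2 + 2 * (⟪u z, fderiv ℝ u z (G z)⟫_ℂ).re := by
  have e1 : Real.exp (-⟪z, G z⟫_ℝ) * Real.exp (⟪z, G z⟫_ℝ / 2) ^ 2 = 1 := by
    rw [sq, ← Real.exp_add, ← Real.exp_add]
    simp
  simp only [gdir, h.fd_eu hu, norm_smul, mul_pow, Complex.norm_real, Real.norm_eq_abs, sq_abs,
    ← Finset.mul_sum]
  rw [← mul_assoc, e1, one_mul]
  simp only [← h.P_symm (G z), h.PG, norm_add_sq (𝕜 := ℂ), Finset.sum_add_distrib, norm_smul, mul_pow,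
    Complex.norm_real, Real.norm_eq_abs, sq_abs, ← Finset.sum_mul, ← Finset.mul_sum]
  rw [OrthonormalBasis.sum_sq_inner_left, add_right_comm]
  congr 2
  conv_rhs => rw [← h.PG, ← (stdOrthonormalBasis ℝ Y).sum_repr' (G z)]
  simp only [map_sum, map_smul, inner_sum, Complex.re_sum]
  refine Finset.sum_congr rfl fun i _ => ?_
  rw [inner_smul_right, ← Complex.coe_smul, inner_smul_right, real_inner_comm]
  simp only [Complex.re_ofReal_mul, RCLike.re_to_complex]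
  exact congrArg _ (inner_re_symm (𝕜 := ℂ) _ _)

/-- Ground state transform: expand the square and use `integral_fderiv_field` for the field `G` and the
function `st (z - P z) ‖u z‖²`. -/
theorem OscL.gst (h : OscL P G g₀) {u : Y → F} (hu : Core u) :
    ∫ z, st (z - P z) * (Real.exp (-⟪z, G z⟫_ℝ) *
        gdir P (fun y => (Real.exp (⟪y, G y⟫_ℝ / 2) : ℂ) • u y) z) =
      ∫ z, st (z - P z) * (gdir P u z + ‖G z‖ ^ 2 * ‖u z‖ ^ 2 -
        LinearMap.trace ℝ Y G * ‖u z‖ ^ 2) := by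
  have hd := hu.one.differentiable (by simp)
  have hg := stq_contDiff P
  have hG := (lin_smooth G).continuous
  have h1 : ContDiff ℝ 1 fun z => st (z - P z) * ‖u z‖ ^ 2 :=
    (hg.of_le (by simp)).mul (by let := InnerProductSpace.rclikeToReal ℂ F; exact hu.one.norm_sq ℝ)
  have h2 : HasCompactSupport fun z => st (z - P z) * ‖u z‖ ^ 2 :=
    hu.2.mono fun x hx h0 => hx (by simp [h0])
  have key := integral_fderiv_field h1 h2 isOpen_univ (subset_univ _)
    ((lin_smooth G).of_le (by simp)).contDiffOn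
  have e : ∀ z, fderiv ℝ (fun z => st (z - P z) * ‖u z‖ ^ 2) z (G z) =
      st (z - P z) * (2 * (⟪u z, fderiv ℝ u z (G z)⟫_ℂ).re) := fun z => by
    obtain ⟨L, hL, hL'⟩ := gE_norm_sq (hd z)
    have := (((st_contDiff.differentiable (by simp)) (z - P z)).hasFDerivAt.comp z
      ((hasFDerivAt_id z).sub (lin_fd P z))).mul hL
    rw [show fderiv ℝ (fun z => st (z - P z) * ‖u z‖ ^ 2) z = _ from this.fderiv]
    simp [hL', h.PG]
  have i1 : Integrable fun z => st (z - P z) * (gdir P u z + ‖G z‖ ^ 2 * ‖u z‖ ^ 2) := by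
    simpa only [mul_add, mul_assoc] using (hu.int_gdir P hg.continuous).fun_add
      (fae_core_int hu (hg.continuous.fun_mul (hG.norm.fun_pow 2)))
  have i2 : Integrable fun z => fderiv ℝ (fun z => st (z - P z) * ‖u z‖ ^ 2) z (G z) :=
    Db_int h2 ((h1.continuous_fderiv (by simp)).clm_apply hG).continuousOn fun x hx => by
      simp [fderiv_of_notMem_tsupport ℝ hx]
  have i3 : Integrable fun z => LinearMap.trace ℝ Y G * (st (z - P z) * ‖u z‖ ^ 2) :=
    (fae_core_int hu hg.continuous).const_mul _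
  simp only [(lin_fd G _).fderiv, LinearMap.coe_toContinuousLinearMap, smul_eq_mul] at key
  simp only [h.gst_pt (hd _), mul_add _ (_ + _), ← e]
  rw [integral_add i1 i2, key, ← sub_eq_add_neg, ← integral_sub i1 i3]
  congr 1
  ext z
  ring

/-- The box. -/
def Box (P : Y →ₗ[ℝ] Y) (R : ℝ) : Set Y := {z | ‖z - P z‖ ≤ 1 ∧ ‖P z‖ ≤ R}

theorem norm_le_of_box {R : ℝ} {z : Y} (hz : z ∈ Box P R) : ‖z‖ ≤ 1 + R := by
  have := norm_add_le (z - P z) (P z)
  rw [sub_add_cancel] at this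
  linarith [hz.1, hz.2]

theorem OscL.isCompact_box (h : OscL P G g₀) (R : ℝ) : IsCompact (Box P R) := by
  have hP := (lin_smooth P).continuous
  exact Metric.isCompact_of_isClosed_isBounded ((isClosed_le (continuous_id.sub hP).norm continuous_const).and
    (isClosed_le hP.norm continuous_const)) ((isBounded_closedBall (x := 0) (r := 1 + R)).subset
      fun z hz => mem_closedBall_zero_iff.2 (norm_le_of_box hz))

theorem int_var {μ : Measure Y} {g : Y → ℝ} {s : Y → ℂ} (i0 : Integrable g μ)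
    (i1 : Integrable (fun y => g y • s y) μ) (i2 : Integrable (fun y => g y * ‖s y‖ ^ 2) μ) :
    ∫ x, ∫ y, g x * g y * ‖s x - s y‖ ^ 2 ∂μ ∂μ =
      2 * (∫ y, g y ∂μ) * (∫ y, g y * ‖s y‖ ^ 2 ∂μ) - 2 * ‖∫ y, g y • s y ∂μ‖ ^ 2 := by
  have e : ∀ x, ∫ y, g x * g y * ‖s x - s y‖ ^ 2 ∂μ = (∫ y, g y ∂μ) * (g x * ‖s x‖ ^ 2) -
      2 * ⟪∫ y, g y • s y ∂μ, g x • s x⟫_ℝ + g x * ∫ y, g y * ‖s y‖ ^ 2 ∂μ := fun x => by
    rw [real_inner_comm, ← integral_inner i1, ← integral_mul_const, ← integral_const_mul, ← integral_const_mul,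
      ← integral_sub (i0.mul_const _) ((i1.const_inner _).const_mul _),
      ← integral_add ((i0.mul_const _).sub' ((i1.const_inner _).const_mul _)) (i2.const_mul _)]
    congr 1
    ext y
    rw [norm_sub_sq_real, real_inner_smul_left, real_inner_smul_right]
    ring
  simp only [e]
  rw [integral_add ((i2.const_mul _).sub' ((i1.const_inner _).const_mul _)) (i0.mul_const _),
    integral_sub (i2.const_mul _) ((i1.const_inner _).const_mul _), integral_const_mul, integral_const_mul,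
    integral_mul_const, integral_inner i1, real_inner_self_eq_norm_sq]
  ring

/-- `poincare_qc` with `A = 1` and the quasi-concave weight `st (z - P z)`. -/
theorem OscL.poinc (h : OscL P G g₀) {R : ℝ} (hR : 0 < R) : ∃ C₁ b : ℝ, 0 ≤ C₁ ∧ 0 ≤ b ∧
    ∀ s : Y → ℂ, ContDiff ℝ 1 s → ∫ z in Box P R, st (z - P z) * ‖s z‖ ^ 2 ≤
      C₁ * (∫ z in Box P R, st (z - P z) * gsq s z) +
        b * ‖∫ z in Box P R, (st (z - P z) : ℂ) * s z‖ ^ 2 := by
  have hK := h.isCompact_box R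
  have hg := (stq_contDiff P).continuous
  have i0 : IntegrableOn (fun z => st (z - P z)) (Box P R) := hg.continuousOn.integrableOn_compact hK
  have hZ : 0 < ∫ z in Box P R, st (z - P z) := by
    rw [setIntegral_pos_iff_support_of_nonneg_ae (Eventually.of_forall fun z => st_nonneg _) i0]
    refine (measure_ball_pos volume 0 (lt_min one_half_pos hR)).trans_le (measure_mono fun z hz => ?_)
    rw [mem_ball_zero_iff, lt_min_iff] at hz
    have h1 := h.norm_Q_le z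
    refine ⟨?_, by linarith, (h.norm_P_le z).trans hz.2.le⟩
    simp [st_eq_one (h1.trans hz.1.le)]
  have hc : Convex ℝ (Box P R) := by
    convert ((convex_closedBall (0 : Y) 1).linear_preimage (LinearMap.id - P)).inter
      ((convex_closedBall (0 : Y) R).linear_preimage P)
    ext z
    simp [Box]
  refine ⟨2 ^ (Module.finrank ℝ Y + 1) * 1 * (2 * (1 + R)) ^ 2 *
    (volume (Box P R ∩ {x | st (x - P x) ≠ 0})).toReal / (2 * ∫ z in Box P R, st (z - P z)),
    1 / ∫ z in Box P R, st (z - P z), by positivity, by positivity, fun s hs => ?_⟩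
  have key := poincare_qc hc hK hg (fun z => st_nonneg _) 1 (fun z => st_le_one _)
    (fun x _ y _ r hr => by
      have e : r • x + (1 - r) • y - P (r • x + (1 - r) • y) = r • (x - P x) + (1 - r) • (y - P y) := by
        simp only [map_add, map_smul, smul_sub]
        abel
      have := norm_add_le (r • (x - P x)) ((1 - r) • (y - P y))
      rw [norm_smul, norm_smul, Real.norm_of_nonneg hr.1, Real.norm_of_nonneg (sub_nonneg.2 hr.2)] at this
      rw [e]
      rcases le_total ‖x - P x‖ ‖y - P y‖ with a | a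
      · exact (min_le_right _ _).trans (st_anti (by nlinarith [hr.1]))
      · exact (min_le_left _ _).trans (st_anti (by nlinarith [hr.2])))
    (ContinuousLinearEquiv.refl ℝ Y) (2 * (1 + R)) (fun x hx y hy _ _ => by
      have := norm_sub_le x y
      simp only [ContinuousLinearEquiv.refl_apply]
      linarith [norm_le_of_box hx, norm_le_of_box hy]) hs
  rw [int_var i0 ((hg.smul hs.continuous).continuousOn.integrableOn_compact hK)
    ((hg.mul (hs.continuous.norm.pow 2)).continuousOn.integrableOn_compact hK)] at key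
  simp only [Complex.real_smul] at key
  rw [div_mul_eq_mul_div, div_mul_eq_mul_div, div_add_div _ _ (by positivity) hZ.ne', le_div_iff₀ (by positivity)]
  have := mul_le_mul_of_nonneg_right key hZ.le
  change _ ≤ _ * (∫ x in Box P R, st (x - P x) * gsq s x) * _ at this
  linarith

theorem gsq_inner_le {w : F} (hw : ‖w‖ = 1) {v : Y → F} {z : Y} (hv : DifferentiableAt ℝ v z) :
    gsq (fun y => ⟪w, v y⟫_ℂ) z ≤ gsq v z := by
  refine Finset.sum_le_sum fun i _ => pow_le_pow_left₀ (norm_nonneg _) ?_ 2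
  have := (((innerSL ℂ w).restrictScalars ℝ).hasFDerivAt.comp z hv.hasFDerivAt).fderiv
  rw [show fderiv ℝ (fun y => ⟪w, v y⟫_ℂ) z = _ from this]
  simpa [hw] using norm_inner_le_norm (𝕜 := ℂ) w (fderiv ℝ v z (stdOrthonormalBasis ℝ Y i))

theorem OscL.gdir_Q (h : OscL P G g₀) {u : Y → F} {z : Y} (hu : DifferentiableAt ℝ u z) :
    gdir (LinearMap.id - P) (fun y => (Real.exp (⟪y, G y⟫_ℝ / 2) : ℂ) • u y) z =
      Real.exp ⟪z, G z⟫_ℝ * gdir (LinearMap.id - P) u z := by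
  have e1 : Real.exp (⟪z, G z⟫_ℝ / 2) ^ 2 = Real.exp ⟪z, G z⟫_ℝ := by
    rw [sq, ← Real.exp_add, add_halves]
  have e2 : ∀ a, ⟪G z, (LinearMap.id - P : Y →ₗ[ℝ] Y) a⟫_ℝ = 0 := fun a => by
    rw [LinearMap.sub_apply, LinearMap.id_apply, h.G_symm, map_sub, h.GP, sub_self, inner_zero_right]
  simp only [gdir, h.fd_eu hu, e2, norm_smul, mul_pow, Complex.norm_real, Real.norm_eq_abs, sq_abs,
    ← Finset.mul_sum, e1, Complex.ofReal_zero, zero_smul, add_zero]

theorem OscL.local_model (h : OscL P G g₀) {w : F} (hw : ‖w‖ = 1) {γ : ℝ} (hγ : 0 < γ) :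
    ∃ c τ : ℝ, 0 < c ∧ 0 < τ ∧ τ < 1 / 2 ∧ ∃ t : Y → F, MemLp t 2 volume ∧ ∃ b : ℝ, 0 ≤ b ∧
      ∀ u : Y → F, Core u → c * ∫ z, st (z - P z) * ‖u z‖ ^ 2 ≤
        (∫ z, st (z - P z) * ldens P G w γ τ 1 0 u z) + b * ‖∫ z, ⟪t z, u z⟫_ℂ‖ ^ 2 := by
  have hg₀ := h.pos
  set T := LinearMap.trace ℝ Y G with hT
  obtain ⟨R, hR, hR'⟩ : ∃ R : ℝ, 0 < R ∧ g₀ * R = 1 + 8 * |T| := ⟨(1 + 8 * |T|) / g₀, by positivity, by field_simp⟩
  obtain ⟨C₁, b, hC₁, hb, hp⟩ := h.poinc hR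
  have hK := h.isCompact_box R
  have hg := (stq_contDiff P).continuous
  have hG := (lin_smooth G).continuous
  have he := ex_smooth G
  obtain ⟨M, hM⟩ := hK.exists_bound_of_continuousOn (f := fun z => Real.exp ⟪z, G z⟫_ℝ) (by fun_prop)
  obtain ⟨κ, hκ, hκ1, hκ2⟩ : ∃ κ : ℝ, 0 < κ ∧ κ ≤ γ ∧ κ * (2 * |M| * C₁ + 1) ≤ 1 / 4 :=
    ⟨min γ (1 / 4 / (2 * |M| * C₁ + 1)), by positivity, min_le_left _ _,
      (le_div_iff₀ (by positivity)).1 (min_le_right _ _)⟩
  obtain ⟨τ, hτ, hτ1, hτ2⟩ : ∃ τ : ℝ, 0 < τ ∧ τ ≤ 1 / 4 ∧ τ * (|T| + 1) ≤ κ / 2 :=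
    ⟨min (1 / 4) (κ / 2 / (|T| + 1)), by positivity, min_le_left _ _,
      (le_div_iff₀ (by positivity)).1 (min_le_right _ _)⟩
  have ht : Continuous fun z => ((st (z - P z) * Real.exp (⟪z, G z⟫_ℝ / 2) : ℝ) : ℂ) • w := by
    have := he.continuous
    fun_prop
  refine ⟨3 / 8 * κ, τ, by positivity, hτ, by linarith, (Box P R).indicator fun z =>
    ((st (z - P z) * Real.exp (⟪z, G z⟫_ℝ / 2) : ℝ) : ℂ) • w, ?_, κ * b, by positivity, fun u hu => ?_⟩
  · obtain ⟨B, hB⟩ := hK.exists_bound_of_continuousOn ht.continuousOn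
    rw [memLp_indicator_iff_restrict hK.measurableSet]
    have : IsFiniteMeasure (volume.restrict (Box P R)) := isFiniteMeasure_restrict.2 hK.measure_lt_top.ne
    exact MemLp.of_bound ht.aestronglyMeasurable B (ae_restrict_of_forall_mem hK.measurableSet hB)
  have hd := hu.one.differentiable (by simp)
  have huc := hu.1.continuous
  have hv : Core fun y => (Real.exp (⟪y, G y⟫_ℝ / 2) : ℂ) • u y :=
    hu.smul_of_contDiffOn isOpen_univ (subset_univ _) he.contDiffOn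
  have hs : ContDiff ℝ 1 fun y => ⟪w, (Real.exp (⟪y, G y⟫_ℝ / 2) : ℂ) • u y⟫_ℂ :=
    ((innerSL ℂ w).restrictScalars ℝ).contDiff.comp hv.one
  have key := hp _ hs
  have hgst := h.gst hu
  have iN := fae_core_int hu hg
  have ia := hu.int_gdir P hg
  have iA := hu.int_gdir (LinearMap.id - P) hg
  have ip : Integrable fun z => st (z - P z) * (‖G z‖ ^ 2 * ‖u z‖ ^ 2) := by
    simpa only [mul_assoc] using fae_core_int hu (hg.fun_mul (hG.norm.fun_pow 2))
  have iX : Integrable fun z => st (z - P z) * (‖u z‖ ^ 2 - ‖⟪w, u z⟫_ℂ‖ ^ 2) :=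
    Db_int hu.2 (by fun_prop) fun x hx => by simp [image_eq_zero_of_notMem_tsupport hx]
  have iD : Integrable fun z => st (z - P z) * (Real.exp (-⟪z, G z⟫_ℝ) *
      gdir P (fun y => (Real.exp (⟪y, G y⟫_ℝ / 2) : ℂ) • u y) z) := by
    simpa only [mul_assoc] using hv.int_gdir P (f := fun z => st (z - P z) * Real.exp (-⟪z, G z⟫_ℝ)) (by fun_prop)
  have iS : IntegrableOn (fun z => st (z - P z) * ‖⟪w, (Real.exp (⟪z, G z⟫_ℝ / 2) : ℂ) • u z⟫_ℂ‖ ^ 2)
      (Box P R) := (hg.fun_mul (hs.continuous.norm.fun_pow 2)).continuousOn.integrableOn_compact hK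
  have hX0 : ∀ z, 0 ≤ ‖u z‖ ^ 2 - ‖⟪w, u z⟫_ℂ‖ ^ 2 := fun z => sub_nonneg.2
    (pow_le_pow_left₀ (norm_nonneg _) (by simpa [hw] using norm_inner_le_norm (𝕜 := ℂ) w (u z)) 2)
  have e0 : ∫ z, ⟪(Box P R).indicator (fun z => ((st (z - P z) * Real.exp (⟪z, G z⟫_ℝ / 2) : ℝ) : ℂ) • w) z,
      u z⟫_ℂ = ∫ z in Box P R, (st (z - P z) : ℂ) * ⟪w, (Real.exp (⟪z, G z⟫_ℝ / 2) : ℂ) • u z⟫_ℂ := by
    rw [← integral_indicator hK.measurableSet]
    congr 1
    ext z
    by_cases hz : z ∈ Box P R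
    · simp only [indicator_of_mem hz, inner_smul_left, inner_smul_right, Complex.conj_ofReal]
      push_cast
      ring
    · simp [hz]
  have e1 : ∫ z in Box P R, st (z - P z) * gsq (fun y => ⟪w, (Real.exp (⟪y, G y⟫_ℝ / 2) : ℂ) • u y⟫_ℂ) z ≤
      2 * |M| * ((∫ z, st (z - P z) * (Real.exp (-⟪z, G z⟫_ℝ) *
        gdir P (fun y => (Real.exp (⟪y, G y⟫_ℝ / 2) : ℂ) • u y) z)) +
        ∫ z, st (z - P z) * gdir (LinearMap.id - P) u z) := by
    rw [← integral_add iD iA, ← integral_const_mul]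
    have i := (iD.fun_add iA).const_mul (2 * |M|)
    refine le_trans (setIntegral_mono_on ((hg.fun_mul (gsq_cont hs)).continuousOn.integrableOn_compact hK)
      i.integrableOn hK.measurableSet fun z hz => ?_) (setIntegral_le_integral i
        (Eventually.of_forall fun z => ?_))
    · have a1 := (gsq_inner_le hw (hv.one.differentiable (by simp) z)).trans (gsq_le_gdir P _ z)
      rw [h.gdir_Q (hd z)] at a1
      have a2 : Real.exp ⟪z, G z⟫_ℝ ≤ |M| := (le_abs_self _).trans ((hM z hz).trans (le_abs_self _))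
      have a3 := gdir_nonneg P (fun y => (Real.exp (⟪y, G y⟫_ℝ / 2) : ℂ) • u y) z
      have a4 := mul_le_mul_of_nonneg_right a2 (gdir_nonneg (LinearMap.id - P) u z)
      have a5 := mul_le_mul_of_nonneg_right a2 (mul_nonneg (Real.exp_pos (-⟪z, G z⟫_ℝ)).le a3)
      rw [← mul_assoc, ← Real.exp_add, add_neg_cancel, Real.exp_zero, one_mul] at a5
      rw [← mul_add, mul_left_comm]
      exact mul_le_mul_of_nonneg_left (by linarith) (st_nonneg _)
    · have := st_nonneg (z - P z)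
      have := gdir_nonneg (LinearMap.id - P) u z
      have := gdir_nonneg P (fun y => (Real.exp (⟪y, G y⟫_ℝ / 2) : ℂ) • u y) z
      change (0 : ℝ) ≤ _
      positivity
  have e2 : ∫ z, st (z - P z) * ‖u z‖ ^ 2 ≤ (∫ z, st (z - P z) * (‖u z‖ ^ 2 - ‖⟪w, u z⟫_ℂ‖ ^ 2)) +
      (∫ z in Box P R, st (z - P z) * ‖⟪w, (Real.exp (⟪z, G z⟫_ℝ / 2) : ℂ) • u z⟫_ℂ‖ ^ 2) +
      (1 + 8 * |T|)⁻¹ * ∫ z, st (z - P z) * (‖G z‖ ^ 2 * ‖u z‖ ^ 2) := by
    have iS' := iS.integrable_indicator hK.measurableSet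
    rw [← integral_indicator hK.measurableSet, ← integral_const_mul, ← integral_add iX iS',
      ← integral_add (iX.fun_add iS') (ip.const_mul _)]
    refine integral_mono iN ((iX.fun_add iS').fun_add (ip.const_mul _)) fun z => ?_
    have a0 := st_nonneg (z - P z)
    have a1 := mul_nonneg a0 (hX0 z)
    by_cases hz : z ∈ Box P R
    · have a2 : ‖⟪w, u z⟫_ℂ‖ ^ 2 ≤ ‖⟪w, (Real.exp (⟪z, G z⟫_ℝ / 2) : ℂ) • u z⟫_ℂ‖ ^ 2 := by
        rw [inner_smul_right, norm_mul, Complex.norm_real, Real.norm_of_nonneg (Real.exp_pos _).le]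
        exact pow_le_pow_left₀ (norm_nonneg _) (le_mul_of_one_le_left (norm_nonneg _)
          (Real.one_le_exp (div_nonneg (h.inner_nonneg z) zero_le_two))) 2
      have a3 := mul_le_mul_of_nonneg_left a2 a0
      have a4 : 0 ≤ (1 + 8 * |T|)⁻¹ * (st (z - P z) * (‖G z‖ ^ 2 * ‖u z‖ ^ 2)) := by positivity
      simp only [indicator_of_mem hz]
      linarith
    · simp only [indicator_of_notMem hz, add_zero]
      by_cases hq : ‖z - P z‖ ≤ 1
      · have a2 : 1 + 8 * |T| ≤ ‖G z‖ := by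
          rw [← hR']
          exact (mul_le_mul_of_nonneg_left (not_le.1 fun h' => hz ⟨hq, h'⟩).le hg₀.le).trans (h.norm_G_ge z)
        have a3 : 1 ≤ (1 + 8 * |T|)⁻¹ * ‖G z‖ ^ 2 := by
          rw [← div_eq_inv_mul, le_div_iff₀ (by positivity)]
          nlinarith [abs_nonneg T]
        have := mul_le_mul_of_nonneg_right a3 (mul_nonneg a0 (sq_nonneg ‖u z‖))
        linarith
      · simp [st_eq_zero (z := z - P z) (by nlinarith [not_le.1 hq])]
  have e3 : ∫ z, st (z - P z) * (gdir P u z + ‖G z‖ ^ 2 * ‖u z‖ ^ 2 - T * ‖u z‖ ^ 2) =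
      (∫ z, st (z - P z) * gdir P u z) + (∫ z, st (z - P z) * (‖G z‖ ^ 2 * ‖u z‖ ^ 2)) -
        T * ∫ z, st (z - P z) * ‖u z‖ ^ 2 := by
    rw [← integral_const_mul, ← integral_add ia ip, ← integral_sub (ia.fun_add ip) (iN.const_mul _)]
    congr 1
    ext z
    ring
  have e4 : ∫ z, st (z - P z) * ldens P G w γ τ 1 0 u z = (1 / 2 - τ) * ((∫ z, st (z - P z) * gdir P u z) +
      ∫ z, st (z - P z) * (‖G z‖ ^ 2 * ‖u z‖ ^ 2)) - T / 2 * (∫ z, st (z - P z) * ‖u z‖ ^ 2) +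
      γ * (∫ z, st (z - P z) * (‖u z‖ ^ 2 - ‖⟪w, u z⟫_ℂ‖ ^ 2)) +
      ∫ z, st (z - P z) * gdir (LinearMap.id - P) u z := by
    have j1 := ((ia.fun_add ip).const_mul (1 / 2 - τ)).sub' (iN.const_mul (T / 2))
    rw [← integral_add ia ip, ← integral_const_mul, ← integral_const_mul, ← integral_const_mul,
      ← integral_sub ((ia.fun_add ip).const_mul _) (iN.const_mul _), ← integral_add j1 (iX.const_mul _),
      ← integral_add (j1.fun_add (iX.const_mul _)) iA]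
    congr 1
    ext z
    simp only [ldens, sub_zero, ← hT]
    ring
  have p1 : 0 ≤ ∫ z, st (z - P z) * gdir P u z :=
    integral_nonneg fun z => mul_nonneg (st_nonneg _) (gdir_nonneg _ _ _)
  have p2 : 0 ≤ ∫ z, st (z - P z) * gdir (LinearMap.id - P) u z :=
    integral_nonneg fun z => mul_nonneg (st_nonneg _) (gdir_nonneg _ _ _)
  have p3 : 0 ≤ ∫ z, st (z - P z) * (‖u z‖ ^ 2 - ‖⟪w, u z⟫_ℂ‖ ^ 2) :=
    integral_nonneg fun z => mul_nonneg (st_nonneg _) (hX0 z)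
  have p4 : 0 ≤ ∫ z, st (z - P z) * ‖u z‖ ^ 2 := integral_nonneg fun z => mul_nonneg (st_nonneg _) (sq_nonneg _)
  have p5 : 0 ≤ ∫ z, st (z - P z) * (Real.exp (-⟪z, G z⟫_ℝ) *
      gdir P (fun y => (Real.exp (⟪y, G y⟫_ℝ / 2) : ℂ) • u y) z) := integral_nonneg fun z =>
    mul_nonneg (st_nonneg _) (mul_nonneg (Real.exp_pos _).le (gdir_nonneg _ _ _))
  rw [e3] at hgst
  rw [e0, e4]
  generalize ∫ z, st (z - P z) * (Real.exp (-⟪z, G z⟫_ℝ) *
      gdir P (fun y => (Real.exp (⟪y, G y⟫_ℝ / 2) : ℂ) • u y) z) = D at *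
  generalize ∫ z, st (z - P z) * gdir P u z = a at *
  generalize ∫ z, st (z - P z) * gdir (LinearMap.id - P) u z = A at *
  generalize ∫ z, st (z - P z) * (‖u z‖ ^ 2 - ‖⟪w, u z⟫_ℂ‖ ^ 2) = X at *
  generalize ∫ z, st (z - P z) * ‖u z‖ ^ 2 = n at *
  generalize ∫ z, st (z - P z) * (‖G z‖ ^ 2 * ‖u z‖ ^ 2) = p at *
  generalize ‖∫ z in Box P R, (st (z - P z) : ℂ) * ⟪w, (Real.exp (⟪z, G z⟫_ℝ / 2) : ℂ) • u z⟫_ℂ‖ ^ 2 = Z at *
  have q1 : T * n ≤ |T| * n := mul_le_mul_of_nonneg_right (le_abs_self T) p4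
  have q2 : (1 + 8 * |T|)⁻¹ * p ≤ D + n / 8 := by
    rw [← div_eq_inv_mul, div_le_iff₀ (by positivity)]
    nlinarith [abs_nonneg T, mul_nonneg (abs_nonneg T) p5]
  have q3 := mul_le_mul_of_nonneg_left e1 hC₁
  have q4 := mul_le_mul_of_nonneg_left (show 7 / 8 * n ≤ X + (2 * |M| * C₁ + 1) * (D + A) + b * Z by
    linarith [key]) hκ.le
  have q5 := mul_le_mul_of_nonneg_right hκ2 (add_nonneg p5 p2)
  have q6 := mul_le_mul_of_nonneg_right hκ1 p3
  have q7 := mul_le_mul_of_nonneg_right hτ1 p5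
  have q8 := mul_le_mul_of_nonneg_right hτ2 p4
  have q9 := mul_le_mul_of_nonneg_left q1 hτ.le
  have q10 := mul_nonneg hτ.le p4
  rw [show a + p = D + T * n by linarith]
  linarith

/-- The anisotropic dilation. -/
def OscL.scl (h : OscL P G g₀) {l : ℝ} (hl : l ≠ 0) : Y ≃ₗ[ℝ] Y :=
  LinearEquiv.ofLinear (LinearMap.id - P + l • P) (LinearMap.id - P + l⁻¹ • P)
    (LinearMap.ext fun z => by simp [h.P_idem, smul_smul, hl])
    (LinearMap.ext fun z => by simp [h.P_idem, smul_smul, hl])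

theorem OscL.scl_P (h : OscL P G g₀) {l : ℝ} (hl : l ≠ 0) (z : Y) : h.scl hl (P z) = l • P z := by
  simp [OscL.scl, h.P_idem]

theorem OscL.P_scl (h : OscL P G g₀) {l : ℝ} (hl : l ≠ 0) (z : Y) : P (h.scl hl z) = l • P z := by
  simp [OscL.scl, h.P_idem]

theorem OscL.Q_scl (h : OscL P G g₀) {l : ℝ} (hl : l ≠ 0) (z : Y) : h.scl hl z - P (h.scl hl z) = z - P z := by
  simp [OscL.scl, h.P_idem]

theorem OscL.scl_Q (h : OscL P G g₀) {l : ℝ} (hl : l ≠ 0) (z : Y) : h.scl hl (z - P z) = z - P z := by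
  simp [OscL.scl, h.P_idem]

theorem exists_jac (S : Y ≃ₗ[ℝ] Y) (x₀ : Y) : ∃ J : ℝ, 0 < J ∧
    (∀ (W : Type) [NormedAddCommGroup W] [NormedSpace ℝ W] (f : Y → W), ∫ ζ, f (x₀ + S ζ) = J • ∫ x, f x) ∧
    ∀ t : Y → F, MemLp t 2 volume → MemLp (fun x => t (S.symm (x - x₀))) 2 volume := by
  have hS := S.isUnit_det'.ne_zero
  refine ⟨|(LinearMap.det (S : Y →ₗ[ℝ] Y))⁻¹|, by positivity, fun W _ _ f => ?_, fun t ht => ?_⟩
  · have := integral_map_equiv (μ := volume) S.toContinuousLinearEquiv.toHomeomorph.toMeasurableEquiv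
      fun y => f (x₀ + y)
    change ∫ y, _ ∂Measure.map (S : Y →ₗ[ℝ] Y) volume = _ at this
    rw [Measure.map_linearMap_addHaar_eq_smul_addHaar volume hS,
      integral_smul_measure, integral_add_left_eq_self, ENNReal.toReal_ofReal (abs_nonneg _)] at this
    exact this.symm
  · have h1 := ht.smul_measure (c := ENNReal.ofReal |(LinearMap.det (S.symm : Y →ₗ[ℝ] Y))⁻¹|) ENNReal.ofReal_ne_top
    rw [← Measure.map_linearMap_addHaar_eq_smul_addHaar volume S.symm.isUnit_det'.ne_zero] at h1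
    exact (h1.comp_of_map (lin_smooth _).continuous.aemeasurable).comp_measurePreserving
      (measurePreserving_sub_right volume x₀)

/-- Change of variables `x = x₀ + (1 - P) ζ + Λ^{-1/2} P ζ`. -/
theorem OscL.local_scaled (h : OscL P G g₀) {w : F} (hw : ‖w‖ = 1) {γ : ℝ} (hγ : 0 < γ) :
    ∃ c τ : ℝ, 0 < c ∧ 0 < τ ∧ τ < 1 / 2 ∧ ∀ (Λ : ℝ) (x₀ : Y), 0 < Λ →
      ∃ t : Y → F, MemLp t 2 volume ∧ ∃ b : ℝ, 0 ≤ b ∧ ∀ u : Y → F, Core u →
        c * Λ * ∫ x, st (x - x₀ - P (x - x₀)) * ‖u x‖ ^ 2 ≤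
          (∫ x, st (x - x₀ - P (x - x₀)) * ldens P G w γ τ Λ x₀ u x) +
            b * ‖∫ x, ⟪t x, u x⟫_ℂ‖ ^ 2 := by
  obtain ⟨c, τ, hc, hτ, hτ', t, ht, b, hb, H⟩ := h.local_model hw hγ
  refine ⟨c, τ, hc, hτ, hτ', fun Λ x₀ hΛ => ?_⟩
  have hl : (√Λ)⁻¹ ≠ 0 := by positivity
  have hl2 : (√Λ)⁻¹ ^ 2 = Λ⁻¹ := by rw [inv_pow, Real.sq_sqrt hΛ.le]
  obtain ⟨J, hJ, hi, hm⟩ := exists_jac (F := F) (h.scl hl) x₀
  refine ⟨_, hm t ht, b * Λ * J, by positivity, fun u hu => ?_⟩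
  have hu' : Core fun ζ => u (x₀ + h.scl hl ζ) :=
    ⟨hu.1.comp (contDiff_const.add (lin_smooth (h.scl hl).toLinearMap)),
      hu.2.comp_homeomorph ((h.scl hl).toContinuousLinearEquiv.toHomeomorph.trans (Homeomorph.addLeft x₀))⟩
  have hf : ∀ ζ a, fderiv ℝ (fun ζ => u (x₀ + h.scl hl ζ)) ζ a = fderiv ℝ u (x₀ + h.scl hl ζ) (h.scl hl a) :=
    fun ζ a => by
      have := (hu.one.differentiable (by simp) (x₀ + h.scl hl ζ)).hasFDerivAt.comp ζ
        ((lin_fd (h.scl hl).toLinearMap ζ).const_add x₀)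
      rw [show fderiv ℝ (fun ζ => u (x₀ + h.scl hl ζ)) ζ = _ from this.fderiv]
      rfl
  have key := H _ hu'
  have e1 := hi ℝ fun x => st (x - x₀ - P (x - x₀)) * ‖u x‖ ^ 2
  have e2 := hi ℝ fun x => Λ⁻¹ * (st (x - x₀ - P (x - x₀)) * ldens P G w γ τ Λ x₀ u x)
  have e3 := hi ℂ fun x => ⟪t ((h.scl hl).symm (x - x₀)), u x⟫_ℂ
  simp only [add_sub_cancel_left, h.Q_scl, LinearEquiv.symm_apply_apply] at e1 e2 e3
  have e4 : ∀ ζ, st (ζ - P ζ) * ldens P G w γ τ 1 0 (fun ζ => u (x₀ + h.scl hl ζ)) ζ =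
      Λ⁻¹ * (st (ζ - P ζ) * ldens P G w γ τ Λ x₀ u (x₀ + h.scl hl ζ)) := fun ζ => by
    have : G (h.scl hl ζ) = (√Λ)⁻¹ • G ζ := by rw [← h.GP, h.P_scl, map_smul, h.GP]
    simp only [ldens, gdir, hf, h.scl_P, LinearMap.sub_apply, LinearMap.id_apply, h.scl_Q, map_smul, norm_smul,
      mul_pow, Real.norm_eq_abs, sq_abs, hl2, ← Finset.mul_sum, add_sub_cancel_left, this, sub_zero]
    field_simp
  simp only [e4] at key
  rw [e1, e2, e3, integral_const_mul, norm_smul, Real.norm_of_nonneg hJ.le, smul_eq_mul, smul_eq_mul] at key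
  have := mul_le_mul_of_nonneg_left key (show 0 ≤ Λ / J by positivity)
  refine le_of_eq_of_le ?_ (this.trans_eq ?_) <;> field_simp

/-- Same change of variables; `1_{‖ζ - Pζ‖ ≤ 1} e^{-g₀‖Pζ‖²} ≤ e^{g₀} e^{-g₀‖ζ‖²}` is integrable. -/
theorem OscL.gauss_ratio (h : OscL P G g₀) : ∃ C : ℝ, 0 ≤ C ∧ ∀ Λ : ℝ, 1 ≤ Λ →
    MeasurableSet (Dset P Λ) ∧ Dset P Λ ⊆ closedBall 0 (1 / 4) ∧ 0 < volume.real (Dset P Λ) ∧
      ∫ z in closedBall (0 : Y) 1, Real.exp (-(Λ * g₀ * ‖P z‖ ^ 2)) ≤ C * volume.real (Dset P Λ) := by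
  have hP := (lin_smooth P).continuous
  have hm : ∀ Λ, MeasurableSet (Dset P Λ) := fun Λ =>
    ((isClosed_le (continuous_id.sub hP).norm continuous_const).and
      (isClosed_le (by fun_prop) continuous_const)).measurableSet
  have hs : ∀ Λ, 1 ≤ Λ → Dset P Λ ⊆ closedBall 0 (1 / 4) := fun Λ hΛ z hz => by
    rw [mem_closedBall_zero_iff]
    refine le_of_sq_le_sq ?_ (by norm_num)
    rw [h.norm_sq]
    nlinarith [hz.1, hz.2, norm_nonneg (z - P z), sq_nonneg ‖P z‖]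
  have h1 : 0 < volume.real (Dset P 1) := by
    refine ENNReal.toReal_pos (ne_of_gt ((measure_ball_pos volume 0 (show (0 : ℝ) < 1 / 8 by norm_num)).trans_le
      (measure_mono fun z hz => ?_))) ((measure_mono (hs 1 le_rfl)).trans_lt measure_closedBall_lt_top).ne
    rw [mem_ball_zero_iff] at hz
    exact ⟨(h.norm_Q_le z).trans hz.le, by nlinarith [h.norm_P_le z, norm_nonneg (P z)]⟩
  have hQ : MeasurableSet {z : Y | ‖z - P z‖ ≤ 1} :=
    (isClosed_le (continuous_id.sub hP).norm continuous_const).measurableSet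
  refine ⟨(∫ z, {z : Y | ‖z - P z‖ ≤ 1}.indicator (fun z => Real.exp (-(g₀ * ‖P z‖ ^ 2))) z) /
    volume.real (Dset P 1), div_nonneg (integral_nonneg fun z => indicator_nonneg
      (fun _ _ => (Real.exp_pos _).le) z) h1.le, fun Λ hΛ => ?_⟩
  have hΛ0 : 0 < Λ := by linarith
  have hl : (√Λ)⁻¹ ≠ 0 := by positivity
  have hl2 : ∀ z, Λ * ‖P (h.scl hl z)‖ ^ 2 = ‖P z‖ ^ 2 := fun z => by
    rw [h.P_scl, norm_smul, mul_pow, Real.norm_eq_abs, sq_abs, inv_pow, Real.sq_sqrt hΛ0.le]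
    field_simp
  obtain ⟨J, hJ, hi, -⟩ := exists_jac (F := ℂ) (h.scl hl) 0
  have e1 := hi ℝ ((Dset P Λ).indicator 1)
  have e2 := hi ℝ ({z : Y | ‖z - P z‖ ≤ 1}.indicator fun z => Real.exp (-(Λ * g₀ * ‖P z‖ ^ 2)))
  rw [show (fun ζ => (Dset P Λ).indicator (1 : Y → ℝ) (0 + h.scl hl ζ)) = (Dset P 1).indicator 1 by
    ext ζ
    simp only [zero_add, indicator, Dset, mem_ofPred_eq, h.Q_scl, hl2, one_mul, Pi.one_apply],
    integral_indicator_one (hm _), integral_indicator_one (hm _), smul_eq_mul] at e1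
  simp only [zero_add, indicator, mem_ofPred_eq, h.Q_scl, mul_right_comm Λ g₀, hl2, smul_eq_mul] at e2
  have h2 : 0 < volume.real (Dset P Λ) := (mul_pos_iff_of_pos_left hJ).1 (e1 ▸ h1)
  refine ⟨hm Λ, hs Λ hΛ, h2, ?_⟩
  have hg := mul_pos hΛ0 h.pos
  have i1 : Integrable ({z : Y | ‖z - P z‖ ≤ 1}.indicator fun z => Real.exp (-(Λ * g₀ * ‖P z‖ ^ 2))) := by
    refine Integrable.mono' (((GaussianFourier.integrable_cexp_neg_mul_sq_norm_add (V := Y) (b := (Λ * g₀ : ℝ))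
      (by simpa using hg) 0 0).norm).const_mul (Real.exp (Λ * g₀)))
      (AEStronglyMeasurable.indicator (by fun_prop) hQ) (Eventually.of_forall fun z => ?_)
    by_cases hz : ‖z - P z‖ ≤ 1
    · rw [indicator_of_mem (by exact hz), Real.norm_of_nonneg (Real.exp_pos _).le, Complex.norm_exp, ← Real.exp_add]
      refine Real.exp_le_exp.2 ?_
      rw [zero_mul, add_zero, ← Complex.ofReal_neg, ← Complex.ofReal_pow, ← Complex.ofReal_mul, Complex.ofReal_re,
        h.norm_sq z]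
      nlinarith [pow_le_one₀ (n := 2) (norm_nonneg _) hz]
    · rw [indicator_of_notMem (by exact hz), norm_zero]
      positivity
  calc _ = ∫ z in closedBall (0 : Y) 1, {z : Y | ‖z - P z‖ ≤ 1}.indicator
        (fun z => Real.exp (-(Λ * g₀ * ‖P z‖ ^ 2))) z :=
        setIntegral_congr_fun measurableSet_closedBall fun z hz =>
          (indicator_of_mem (by exact (h.norm_Q_le z).trans (mem_closedBall_zero_iff.1 hz)) _).symm
    _ ≤ _ := setIntegral_le_integral i1 (Eventually.of_forall fun z => indicator_nonneg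
        (fun _ _ => (Real.exp_pos _).le) z)
    _ = _ := by
      simp only [indicator, mem_ofPred_eq, mul_right_comm Λ g₀, mul_comm g₀, e1, e2]
      rw [mul_div_mul_left _ _ hJ.ne', div_mul_cancel₀ _ h2.ne']

end Crest.Agent.R330

end
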