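import Crest.Agent.R330.L.Exp
import Crest.Agent.R330.L.Loc
import Crest.Agent.R330.L.Grp

/-! # Row 330, L/QM: the quasi-mode (owner helper74; statements frozen, plan in `L/Defs.lean`) -/

set_option autoImplicit false
set_option linter.unusedSectionVars false
set_option linter.unusedVariables false

noncomputable section

open MeasureTheory Filter Topology Set Metric
open scoped InnerProductSpace ContDiff Matrix
open Crest.MathPhysics.MatrixQM (GammaNine)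

namespace Crest.Agent.R330

variable {E F : Type} [NormedAddCommGroup E] [InnerProductSpace ℝ E] [FiniteDimensional ℝ E]
  [MeasurableSpace E] [BorelSpace E]
  [NormedAddCommGroup F] [InnerProductSpace ℂ F] [FiniteDimensional ℂ F]
  {K : Type} [Group K] [TopologicalSpace K] [IsTopologicalGroup K]
  [CompactSpace K] [MeasurableSpace K] [BorelSpace K] {𝔤 : Lie E}

variable {σ : Spn} {t : ℝ} {x₀ : X E} (Q : Quad 𝔤 σ t x₀) (C : Cl (Th E) F)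

theorem Quad.q0_props (Λ : ℝ) : ContDiff ℝ ∞ (q0 Q.P Q.G Λ (Λ • x₀)) ∧
    (∀ x, 0 ≤ q0 Q.P Q.G Λ (Λ • x₀) x) ∧ (∀ x, 1 ≤ ‖x - Λ • x₀‖ → q0 Q.P Q.G Λ (Λ • x₀) x = 0) ∧
    ∀ (s : ℝ) x, q0 Q.P Q.G Λ (Λ • x₀) (rexp' (s • AX 𝔤 (x₀ 8)) x) = q0 Q.P Q.G Λ (Λ • x₀) x := by
  obtain ⟨b, -, hb⟩ := Q.osc.pw_props
  obtain ⟨h1, h2, -, h3, -⟩ := hb (Λ • x₀)
  have cz : ContDiff ℝ ∞ fun x : X E => x - Λ • x₀ := contDiff_id.sub contDiff_const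
  refine ⟨h1.mul (contDiff_const.mul (cz.inner ℝ ((lin_smooth Q.G).comp cz))).exp,
    fun x => mul_nonneg (h2 x).1 (Real.exp_nonneg _), fun x hx => by rw [q0, h3 x hx, zero_mul], fun s x => ?_⟩
  have sk : IsSkew (s • AX 𝔤 (x₀ 8)) := fun u v => by
    simp only [AX, LinearMap.smul_apply, LinearMap.sub_apply, real_inner_smul_left, real_inner_smul_right,
      inner_sub_left, inner_sub_right, isSkew_mat V0_skew u v, isSkew_lift (𝔤.isSkew_br _) u v]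
    ring
  have e0 := rexp'_intertwine (LinearMap.toSpanSingleton ℝ _ x₀) 0 (s • AX 𝔤 (x₀ 8))
    (by ext1; simp [AX_x0 Q.zero]) Λ
  rw [rexp'_zero, LinearMap.toSpanSingleton_apply] at e0
  have eP := rexp'_intertwine Q.P (s • AX 𝔤 (x₀ 8)) (s • AX 𝔤 (x₀ 8))
    (by rw [LinearMap.comp_smul, LinearMap.smul_comp, Q.AP])
  have eG := rexp'_intertwine Q.G (s • AX 𝔤 (x₀ 8)) (s • AX 𝔤 (x₀ 8))
    (by rw [LinearMap.comp_smul, LinearMap.smul_comp, Q.AG])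
  have ei : ∀ u v, ⟪rexp' (s • AX 𝔤 (x₀ 8)) u, rexp' (s • AX 𝔤 (x₀ 8)) v⟫_ℝ = ⟪u, v⟫_ℝ :=
    (⟨(rexp' (s • AX 𝔤 (x₀ 8))).toLinearMap, norm_rexp' sk⟩ : X E →ₗᵢ[ℝ] X E).inner_map_map
  have e1 : rexp' (s • AX 𝔤 (x₀ 8)) x - Λ • x₀ = rexp' (s • AX 𝔤 (x₀ 8)) (x - Λ • x₀) := by
    rw [map_sub, ← e0]
  simp only [q0, pw, st, e1, eP, eG, ei, ← map_sub (rexp' _), norm_rexp' sk]

theorem qma_vac {w : F} (hw : ∀ a, C.vac Q.J a = ⟪w, a⟫_ℂ • w) (hw1 : ‖w‖ = 1) : C.vac Q.J w = w := by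
  rw [hw, inner_self_eq_norm_sq_to_K, hw1]; simp

/-- `S_comm_vac`, `vac_S_vac`, `trJA`. -/
theorem Quad.S_AT {w : F} (hw : ∀ a, C.vac Q.J a = ⟪w, a⟫_ℂ • w) (hw1 : ‖w‖ = 1) :
    C.S (AT 𝔤 σ (x₀ 8)) w = 0 := by
  have sk : IsSkew (AT 𝔤 σ (x₀ 8)) := fun u v => by
    simp only [AT, LinearMap.sub_apply, inner_sub_left, inner_sub_right,
      isSkew_mat (sig_skew σ.G V0_skew) u v, isSkew_lift (𝔤.isSkew_br _) u v]
    ring
  have h1 : C.S _ (C.vac Q.J w) = C.vac Q.J (C.S _ w) := congr($(C.S_comm_vac Q.J_cx sk Q.AJ) w)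
  have h2 : C.vac Q.J (C.S _ (C.vac Q.J w)) = _ := congr($(C.vac_S_vac Q.J_cx sk) w)
  rw [qma_vac Q C hw hw1] at h1 h2
  rw [h1, h2]
  simp [Q.trJA]

/-- `dirac_smul` with a constant vector, `wl_expand`, `ann_vac` with `v = c G z`, `JcG`. -/
theorem Quad.norm_Q_q0 {w : F} (hw : ∀ a, C.vac Q.J a = ⟪w, a⟫_ℂ • w) (hw1 : ‖w‖ = 1) :
    ∃ b : ℝ, 0 ≤ b ∧ ∀ Λ : ℝ, 0 < Λ → ∀ x : X E,
      ‖Ql 𝔤 C σ t Λ (fun y => (q0 Q.P Q.G Λ (Λ • x₀) y : ℂ) • w) x‖ ^ 2 ≤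
        if ‖x - Λ • x₀‖ ≤ 1 then b * Real.exp (-(Λ * Q.g₀ * ‖Q.P (x - Λ • x₀)‖ ^ 2)) else 0 := by
  obtain ⟨b, hb0, hb⟩ := Q.osc.pw_props
  obtain ⟨b', hb', Hb⟩ := exists_norm_wpot 𝔤 σ.G σ.unit
  refine ⟨(b' + b) ^ 2, by positivity, fun Λ hΛ x => ?_⟩
  obtain ⟨h1, h2, -, h3, h4⟩ := hb (Λ • x₀)
  obtain ⟨z, rfl⟩ : ∃ z, x = Λ • x₀ + z := ⟨x - Λ • x₀, by abel⟩
  have dz : HasFDerivAt (fun x : X E => x - Λ • x₀) (ContinuousLinearMap.id ℝ _) (Λ • x₀ + z) :=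
    (hasFDerivAt_id _).sub_const _
  have dp := (h1.differentiable (by simp) (Λ • x₀ + z)).hasGradientAt
  have dq : HasGradientAt (q0 Q.P Q.G Λ (Λ • x₀)) (Real.exp (-(Λ / 2) * ⟪z, Q.G z⟫_ℝ) •
      (gradient (pw Q.P (Λ • x₀)) (Λ • x₀ + z) - (Λ * pw Q.P (Λ • x₀) (Λ • x₀ + z)) • Q.G z)) (Λ • x₀ + z) := by
    refine (dp.hasFDerivAt.mul ((dz.inner ℝ ((lin_fd Q.G _).comp _ dz)).const_mul
      (-(Λ / 2))).exp).congr_fderiv ?_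
    ext v
    simp [← Q.osc.G_symm z v, real_inner_comm (Q.G z) v]
    ring
  have an : C.θ (cmap σ.G σ.s (Q.G z)) w - Complex.I • C.θ (Bl 𝔤 σ t x₀ z) w = 0 := by
    have : C.ann Q.J (cmap σ.G σ.s (Q.G z)) (C.vac Q.J w) = 0 := congr($(C.ann_vac Q.J_cx _) w)
    rwa [qma_vac Q C hw hw1, Cl.ann, Q.JcG] at this
  have e : Ql 𝔤 C σ t Λ (fun y => (q0 Q.P Q.G Λ (Λ • x₀) y : ℂ) • w) (Λ • x₀ + z) =
      (Real.exp (-(Λ / 2) * ⟪z, Q.G z⟫_ℝ) : ℂ) • ((pw Q.P (Λ • x₀) (Λ • x₀ + z) : ℂ) •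
        C.θ (wpot 𝔤 σ.G σ.s z) w - Complex.I • C.θ (cmap σ.G σ.s (gradient (pw Q.P (Λ • x₀)) (Λ • x₀ + z))) w) := by
    have e2 := wl_expand (𝔤 := 𝔤) σ t Λ x₀ z
    rw [Q.zero, smul_zero, zero_add] at e2
    rw [Ql, Qd, dirac_smul _ _ _ dq.differentiableAt (differentiableAt_const w), dq.gradient, dirac]
    rw [show wd 𝔤 σ Λ (fun v => (t * Λ) • v) (Λ • x₀ + z) = _ from e2]
    simp only [fderiv_fun_const, Pi.zero_apply, _root_.zero_apply, map_zero, smul_zero, Finset.sum_const_zero,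
      zero_add, map_add, map_sub, map_smul, _root_.add_apply, _root_.sub_apply, _root_.smul_apply,
      sub_eq_zero.1 an, q0, add_sub_cancel_left, ← Complex.coe_smul, Complex.ofReal_mul]
    match_scalars <;> first | ring1 | (rw [← mul_assoc Complex.I]; ring_nf; simp)
  have ng : ‖gradient (pw Q.P (Λ • x₀)) (Λ • x₀ + z)‖ = ‖fderiv ℝ (pw Q.P (Λ • x₀)) (Λ • x₀ + z)‖ := by
    simp [gradient]
  rw [e, add_sub_cancel_left]
  split_ifs with hz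
  · rw [norm_smul, mul_pow, mul_comm, Complex.norm_real, Real.norm_eq_abs, sq_abs, ← Real.exp_nat_mul]
    gcongr
    · refine (norm_sub_le _ _).trans (add_le_add ?_ ?_) <;> rw [norm_smul]
      · rw [Complex.norm_real, Real.norm_of_nonneg (h2 _).1]
        refine (mul_le_of_le_one_left (norm_nonneg _) (h2 _).2).trans ((C.norm_θ_le _ _).trans ?_)
        rw [hw1, mul_one]
        exact (Hb z 0).1.trans (mul_le_of_le_one_right hb'.le (pow_le_one₀ (norm_nonneg _) hz))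
      · rw [Complex.norm_I, one_mul]
        refine (C.norm_θ_le _ _).trans ?_
        rw [hw1, mul_one, norm_cmap σ.G σ.unit, ng]
        exact h4 _
    · push_cast
      nlinarith [mul_le_mul_of_nonneg_left (Q.osc.ge z) hΛ.le]
  · have ev : pw Q.P (Λ • x₀) =ᶠ[𝓝 (Λ • x₀ + z)] fun _ => 0 := by
      filter_upwards [(isOpen_lt continuous_const (continuous_id.sub continuous_const).norm).mem_nhds
        (show (1 : ℝ) < ‖id (Λ • x₀ + z) - Λ • x₀‖ by simpa using hz)] with y hy using h3 y (le_of_lt hy)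
    simp [ev.gradient_eq, ev.eq_of_nhds]

theorem Quad.qmb_pt (Γ : Grp 𝔤 K) : ∃ a : ℝ, 0 < a ∧ ∀ Λ : ℝ, 1 ≤ Λ → ∀ z ∈ Dset Q.P Λ, ∀ k,
    ‖Γ.ax k (Λ • x₀) - Λ • x₀‖ ≤ 1 / 4 → a ≤ q0 Q.P Q.G Λ (Λ • x₀) (Γ.ax k (Λ • x₀ + z)) := by
  obtain ⟨b, hb, hw⟩ := exists_norm_wpot 𝔤 σ.G σ.unit
  obtain ⟨g, hg, hG⟩ := (LinearMap.toContinuousLinearMap Q.G).bound
  obtain ⟨_, -, hD⟩ := Q.osc.gauss_ratio
  obtain ⟨_, -, hp⟩ := Q.osc.pw_props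
  have hg₀ := Q.osc.pos
  refine ⟨Real.exp (-((g ^ 2 + 8 * b ^ 2) / (2 * Q.g₀))), Real.exp_pos _, fun Λ hΛ z hz k hk => ?_⟩
  have h1 : ‖z‖ ≤ 1 / 4 := mem_closedBall_zero_iff.1 ((hD Λ hΛ).2.1 hz)
  obtain ⟨z', hz'⟩ : ∃ z', z' = Γ.ax k (Λ • x₀ + z) - Λ • x₀ := ⟨_, rfl⟩
  have h2 : ‖z'‖ ≤ 1 / 2 := by
    rw [hz', map_add, add_sub_right_comm]
    refine (norm_add_le _ _).trans ?_
    rw [LinearIsometry.norm_map]
    linarith
  have key : ∀ y : X E, ‖y‖ ≤ 1 / 2 → |‖wl 𝔤 σ t Λ (Λ • x₀ + y)‖ - Λ * ‖Q.G y‖| ≤ b := fun y hy => by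
    rw [wl_expand, Q.zero, smul_zero, zero_add, ← Q.norm_B, ← Real.norm_of_nonneg (zero_le_one.trans hΛ), ← norm_smul,
      Real.norm_of_nonneg (zero_le_one.trans hΛ)]
    refine (abs_norm_sub_norm_le _ _).trans ?_
    rw [add_sub_cancel_left]
    exact (hw y y).1.trans (mul_le_of_le_one_right hb.le (by nlinarith [norm_nonneg y]))
  have h3 := abs_le.1 (key z' h2)
  have h4 := abs_le.1 (key z (by linarith))
  have h5 : Λ • x₀ + z' = Γ.ax k (Λ • x₀ + z) := by rw [hz', add_sub_cancel]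
  rw [h5, norm_wl_ax] at h3
  have h6 : ‖Q.G z‖ ≤ g * ‖Q.P z‖ := by rw [← Q.osc.GP]; exact hG _
  have h7 : Λ * ‖Q.G z'‖ ≤ Λ * (g * ‖Q.P z‖) + 2 * b := by nlinarith [h3.1, h4.2]
  have h8 : Λ * (Λ * ‖Q.G z'‖ ^ 2) ≤ Λ * (g ^ 2 + 8 * b ^ 2) := by
    have h9 := pow_le_pow_left₀ (by positivity) h7 2
    have h10 := mul_le_mul_of_nonneg_left hz.2 (show 0 ≤ Λ * g ^ 2 by positivity)
    nlinarith [sq_nonneg (Λ * (g * ‖Q.P z‖) - 2 * b), sq_nonneg b, mul_nonneg (zero_le_one.trans hΛ) (sq_nonneg g)]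
  replace h8 := le_of_mul_le_mul_left h8 (by linarith)
  rw [q0, (hp _).2.2.1 _ (hz' ▸ h2), one_mul, ← hz', Real.exp_le_exp, neg_mul, neg_le_neg_iff, le_div_iff₀ (by positivity)]
  nlinarith [mul_le_mul_of_nonneg_left (Q.osc.inner_le z') (zero_le_one.trans hΛ)]

/-- `∫ (avg q)² = ∫ q · avg q` (`integral_avg`); for `x - Λx₀ ∈ Dset` and `‖kΛx₀ - Λx₀‖ ≤ 1/4` one has
`pw (kx) = 1` and `Λ‖G(kx - Λx₀)‖ ≤ ‖w(kx)‖ + b = ‖w x‖ + b ≤ C√Λ`. -/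
theorem Quad.avg_q0_lower (Γ : Grp 𝔤 K) : ∃ c : ℝ, 0 < c ∧ ∀ Λ : ℝ, 1 ≤ Λ →
    c * Γ.mB (Λ • x₀) * volume.real (Dset Q.P Λ) ≤ ∫ x, Γ.avg (q0 Q.P Q.G Λ (Λ • x₀)) x ^ 2 := by
  obtain ⟨a, ha, h⟩ := Q.qmb_pt Γ
  obtain ⟨_, -, hD⟩ := Q.osc.gauss_ratio
  refine ⟨a * a, by positivity, fun Λ hΛ => ?_⟩
  obtain ⟨h1, h2, h3, -⟩ := Q.q0_props Λ
  obtain ⟨d1, d2, -, -⟩ := hD Λ hΛ
  have hc := Γ.continuous_avg h1.continuous
  have hs := Γ.hasCompactSupport_avg (x₀ := Λ • x₀) fun x hx => h3 x hx.le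
  have h0 : ∀ x, 0 ≤ Γ.avg (q0 Q.P Q.G Λ (Λ • x₀)) x := fun x => integral_nonneg fun k => h2 _
  have hi : Integrable fun z => q0 Q.P Q.G Λ (Λ • x₀) (Λ • x₀ + z) * Γ.avg (q0 Q.P Q.G Λ (Λ • x₀)) (Λ • x₀ + z) :=
    ((h1.continuous.mul hc).integrable_of_hasCompactSupport hs.mul_left).comp_add_left (Λ • x₀)
  simp only [sq]
  rw [← Γ.integral_avg h1.continuous (hc.integrable_of_hasCompactSupport hs) hs (Γ.avg_ax _),
    ← integral_add_left_eq_self _ (Λ • x₀)]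
  refine le_trans ?_ (setIntegral_le_integral (s := Dset Q.P Λ) hi (ae_of_all _ fun z => mul_nonneg (h2 _) (h0 _)))
  refine setIntegral_ge_of_const_le_real d1 ((measure_mono d2).trans_lt measure_closedBall_lt_top).ne
    (fun z hz => ?_) hi.integrableOn
  have h4 := h Λ hΛ z hz 1 (by simp [Γ.ax_one])
  rw [Γ.ax_one] at h4
  rw [mul_assoc]
  exact mul_le_mul h4 (Γ.le_avg h1.continuous h2 (h Λ hΛ z hz)) (mul_pos ha (Γ.mB_pos _)).le (h2 _)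

theorem Quad.quasi_mode {Γ : Grp 𝔤 K} (ρ : Rep Γ C) {w : F} (hw : ∀ a, C.vac Q.J a = ⟪w, a⟫_ℂ • w)
    (hw1 : ‖w‖ = 1) (hfree : ∀ k, Γ.ax k x₀ = x₀ → ∀ v, Γ.act k v = v) :
    ∃ b : ℝ, ∀ᶠ Λ : ℝ in atTop, ∃ φ, Cls 𝔤 C σ.G neut φ ∧
      tsupport φ ⊆ {x | ∃ k, ‖Γ.ax k x - Λ • x₀‖ ≤ 1} ∧ 0 < ∫ x, ‖φ x‖ ^ 2 ∧
      ∫ x, ‖Ql 𝔤 C σ t Λ φ x‖ ^ 2 ≤ b * ∫ x, ‖φ x‖ ^ 2 := by
  obtain ⟨c, hc, hlow⟩ := Q.avg_q0_lower Γ
  obtain ⟨b, hb, hQ⟩ := Q.norm_Q_q0 C hw hw1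
  obtain ⟨M, hM, hd⟩ := Γ.doubling
  obtain ⟨C₁, hC₁, hD⟩ := Q.osc.gauss_ratio
  obtain ⟨r, hr, hρ⟩ := ρ.rho_near hfree w
  refine ⟨4 * M * b * C₁ / c, ?_⟩
  filter_upwards [eventually_ge_atTop 1, eventually_ge_atTop (2 / r)] with Λ hΛ hΛr
  have hΛ0 : 0 < Λ := by linarith
  obtain ⟨h1, h2, h3, h4⟩ := Q.q0_props Λ
  obtain ⟨-, -, d3, d4⟩ := hD Λ hΛ
  set q := q0 Q.P Q.G Λ (Λ • x₀) with hq
  have h3' : ∀ x, 1 < ‖x - Λ • x₀‖ → q x = 0 := fun x hx => h3 x hx.le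
  have hu : ContDiff ℝ ∞ fun y => (q y : ℂ) • w := (Complex.ofRealCLM.contDiff.comp h1).smul contDiff_const
  have hu0 : ∀ x, 1 < ‖x - Λ • x₀‖ → (q x : ℂ) • w = 0 := fun x hx => by simp [h3' x hx]
  have hu' : Core fun y => (q y : ℂ) • w := ⟨hu, HasCompactSupport.intro (isCompact_closedBall (Λ • x₀) 1) fun x hx =>
    hu0 x (by simpa [dist_eq_norm] using hx)⟩
  obtain ⟨hφ, hsupp⟩ := ρ.av_core hu hu0
  have hl : c * Γ.mB (Λ • x₀) * volume.real (Dset Q.P Λ) ≤ 4 * ∫ x, ‖ρ.av (fun y => (q y : ℂ) • w) x‖ ^ 2 := by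
    rw [← integral_const_mul]
    refine (hlow Λ hΛ).trans (integral_mono_of_nonneg (ae_of_all _ fun x => sq_nonneg _)
      (((hφ.1.continuous.norm.fun_pow 2).integrable_of_hasCompactSupport
        (hφ.2.norm.comp_left (g := fun s : ℝ => s ^ 2) (by simp))).const_mul 4) (ae_of_all _ fun x => ?_))
    have a1 := ρ.av_lower h1.continuous h2 h3' hw1 (fun k hk => hρ k (by
      rw [map_smul, ← smul_sub, norm_smul, Real.norm_of_nonneg hΛ0.le] at hk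
      rw [div_le_iff₀ hr] at hΛr
      exact le_of_mul_le_mul_left (hk.trans hΛr) hΛ0)) x
    have a2 : 0 ≤ Γ.avg q x := integral_nonneg fun k => h2 _
    have a3 := pow_le_pow_left₀ (by positivity) a1 2
    dsimp only
    linarith
  have hm := Γ.mB_pos (Λ • x₀)
  refine ⟨_, ρ.av_cls σ h1 h3' h4 (Q.S_AT C hw hw1), hsupp, ?_, ?_⟩
  · have : 0 < c * Γ.mB (Λ • x₀) * volume.real (Dset Q.P Λ) := by positivity
    linarith
  have hg : Continuous fun y => ‖Ql 𝔤 C σ t Λ (fun y => (q y : ℂ) • w) y‖ :=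
    (Core.dirac C _ (contDiff_wd 𝔤 σ Λ (by fun_prop)) hu').1.continuous.norm
  have hg2 : ∀ x, 1 < ‖x - Λ • x₀‖ → ‖Ql 𝔤 C σ t Λ (fun y => (q y : ℂ) • w) x‖ ^ 2 = 0 := fun x hx =>
    le_antisymm ((hQ Λ hΛ0 x).trans_eq (if_neg hx.not_ge)) (sq_nonneg _)
  have e1 : ∫ x, ‖Ql 𝔤 C σ t Λ (ρ.av fun y => (q y : ℂ) • w) x‖ ^ 2 ≤
      M * Γ.mB (Λ • x₀) * ∫ x, ‖Ql 𝔤 C σ t Λ (fun y => (q y : ℂ) • w) x‖ ^ 2 := by
    rw [← Γ.integral_avg_eq (hg.fun_pow 2) hg2, ← integral_const_mul]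
    refine integral_mono_of_nonneg (ae_of_all _ fun x => sq_nonneg _)
      (((Γ.continuous_avg (hg.fun_pow 2)).integrable_of_hasCompactSupport (Γ.hasCompactSupport_avg hg2)).const_mul _)
      (ae_of_all _ fun x => ?_)
    refine (pow_le_pow_left₀ (norm_nonneg _) (ρ.norm_Q_av_le σ t Λ hu x) 2).trans
      ((Γ.avg_sq_le hg (fun x hx => pow_eq_zero_iff two_ne_zero |>.1 (hg2 x hx)) x).trans ?_)
    exact mul_le_mul_of_nonneg_right (hd _ _) (integral_nonneg fun k => sq_nonneg _)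
  have e2 : ∫ x, ‖Ql 𝔤 C σ t Λ (fun y => (q y : ℂ) • w) x‖ ^ 2 ≤ b * (C₁ * volume.real (Dset Q.P Λ)) := by
    refine le_trans ?_ (mul_le_mul_of_nonneg_left d4 hb)
    rw [← integral_const_mul, ← integral_indicator measurableSet_closedBall, ← integral_add_left_eq_self _ (Λ • x₀)]
    refine integral_mono_of_nonneg (ae_of_all _ fun x => sq_nonneg _)
      ((integrable_indicator_iff measurableSet_closedBall).2 (ContinuousOn.integrableOn_compact (isCompact_closedBall _ _)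
        (Continuous.continuousOn (by have := (lin_smooth Q.P).continuous; fun_prop)))) (ae_of_all _ fun x => ?_)
    simpa only [add_sub_cancel_left, indicator, mem_closedBall_zero_iff] using hQ Λ hΛ0 (Λ • x₀ + x)
  refine e1.trans ((mul_le_mul_of_nonneg_left e2 (by positivity)).trans ?_)
  rw [div_mul_eq_mul_div, le_div_iff₀ hc]
  nlinarith [mul_le_mul_of_nonneg_left hl (show 0 ≤ M * b * C₁ by positivity)]

end Crest.Agent.R330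

end
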