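import Crest.Agent.R330.L.Class
import Crest.Agent.R330.L.Outer
import Crest.Agent.R330.L.QM
import Crest.Agent.R330.L.Far

/-! # Row 330, L/Main: assembly (owner helper74; statements frozen, plan in `L/Defs.lean`) -/

set_option autoImplicit false
set_option linter.unusedSectionVars false
set_option linter.unusedVariables false

noncomputable section

open MeasureTheory Filter Topology Set Metric
open scoped InnerProductSpace ContDiff Matrix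
open Crest.MathPhysics.MatrixQM (GammaNine)

namespace Crest.Agent.R330

variable {E F : Type} [NormedAddCommGroup E] [InnerProductSpace ℝ E] [FiniteDimensional ℝ E]
  [MeasurableSpace E] [BorelSpace E]
  [NormedAddCommGroup F] [InnerProductSpace ℂ F] [FiniteDimensional ℂ F]
  {K : Type} [Group K] [TopologicalSpace K] [IsTopologicalGroup K]
  [CompactSpace K] [MeasurableSpace K] [BorelSpace K] {𝔤 : Lie E}

theorem large_lambda' [Nontrivial F] (C : Cl (Th E) F) (σ : Spn) {N : ℕ} (hN : 2 ≤ N)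
    (M : MatSys N 𝔤) (Γ : Grp 𝔤 K)
    (ρ : Rep Γ C) (hirr : C.Irr) : ∃ Λ : ℝ, 0 < Λ ∧ ∃ Fn : E → ℝ, ContDiff ℝ ∞ Fn ∧
      HasCompactSupport Fn ∧ (∀ ξ v, Fn (rexp' (𝔤.br ξ) v) = Fn v) ∧
      NonTriv (WK (flows 𝔤 C σ.G neut) (Qd 𝔤 C σ Λ (gradient Fn))) ∧
      AtMostOne (WK (flows 𝔤 C σ.G neut) (Qd 𝔤 C σ Λ (gradient Fn))) := by
  have hN1 : 1 ≤ N := by omega
  obtain ⟨φ₀, hφ₀⟩ := exists_phi0 M
  obtain ⟨r, hr, huniq⟩ := x0_uniq hN M Γ σ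
  have hℓ : 0 < r / 4 := by positivity
  obtain ⟨f, g, Fh, β, hf, hg, hFh, hFc, hfi, hgi, hFi, hfg, hβ, sf, sg, hFq⟩ := exists_cut Γ φ₀ hℓ
  obtain ⟨c₁, t, hc₁, ht, hfar⟩ := far_gap C σ hN1 M Γ hφ₀ hℓ hFh hFc
  obtain ⟨x₀, hx₀⟩ := exists_x0 M t
  have h8 : x₀ 8 = φ₀ := M.injective (hx₀.h8.trans hφ₀.symm)
  obtain ⟨Q⟩ := hx₀.quad hN1 ht σ
  obtain ⟨w, hw1, hw⟩ := C.vac_rank_one Q.J_cx hirr
  obtain ⟨c₂, hc₂, hnear⟩ := near_codim C σ Γ Q hw hw1 (Γ.isCompact_nbhd φ₀ r)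
    fun x hx => huniq t x₀ ht hx₀ x (h8 ▸ hx)
  obtain ⟨b, hqm⟩ := Q.quasi_mode C ρ hw hw1 (hx₀.free ht Γ)
  obtain ⟨B, -, hFs⟩ := Fs_props hFh hFc
  have hc : 0 < min c₁ c₂ := lt_min hc₁ hc₂
  obtain ⟨Λ, hfar, hnear, ⟨φ, hφ, sφ, hφ0, hq⟩, hΛ1, hΛr, hΛb⟩ := (hfar.and (hnear.and (hqm.and
    ((eventually_ge_atTop 1).and ((eventually_gt_atTop r⁻¹).and
      (eventually_gt_atTop ((max b 0 + β / 2) / min c₁ c₂))))))).exists
  have hΛ : 0 < Λ := by linarith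
  obtain ⟨hF1, hF2, -, -⟩ := hFs t Λ ht hΛ
  have hF3 : ∀ ξ v, Fs Fh t Λ (rexp' (𝔤.br ξ) v) = Fs Fh t Λ v := fun ξ v => by
    simp only [Fs, ← map_smul, hFi]
  have hgr : ContDiff ℝ ∞ (gradient (Fs Fh t Λ)) :=
    (InnerProductSpace.toDual ℝ E).symm.toContinuousLinearEquiv.contDiff.comp
      (hF1.fderiv_right (m := ∞) (by simp))
  have hw' := contDiff_wd 𝔤 σ Λ hgr
  have hU : IsOpen {v : E | infDist v (Γ.orb φ₀) < 4 * (r / 4)} :=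
    isOpen_lt (continuous_infDist_pt _) continuous_const
  have hwd : ∀ x : X E, infDist (Λ⁻¹ • x 8) (Γ.orb φ₀) < r →
      wl 𝔤 σ t Λ x = wd 𝔤 σ Λ (gradient (Fs Fh t Λ)) x := fun x hx => by
    simp only [wd]
    rw [gradient_Fs hU hFq t hΛ (show infDist _ _ < _ by linarith)]
  have hd : Continuous fun x : X E => infDist (Λ⁻¹ • x 8) (Γ.orb φ₀) :=
    (continuous_infDist_pt _).comp (by fun_prop)
  obtain ⟨a1, a2, a3⟩ := lift_cut (𝔤 := 𝔤) C σ hf hfi hΛ1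
  obtain ⟨b1, b2, b3⟩ := lift_cut (𝔤 := 𝔤) C σ hg hgi hΛ1
  have hnear1 : Codim (flows 𝔤 C σ.G neut) (dirac C (cmap σ.G σ.s) (wl 𝔤 σ t Λ))
      {x | infDist (Λ⁻¹ • x 8) (Γ.orb φ₀) < r} (min c₁ c₂ * Λ) := by
    refine hnear.mono (fun x hx => ?_) (mul_le_mul_of_nonneg_right (min_le_right _ _) hΛ.le)
    simp only [mem_ofPred_eq] at hx ⊢
    exact hx.le
  have hnear' := hnear1.congr (w' := wd 𝔤 σ Λ (gradient (Fs Fh t Λ))) hwd
  have hall := glue C (cmap σ.G σ.s) (norm_cmap σ.G σ.unit) hw' a1 b1 a2 b2 (fun x => hfg _)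
    (S := univ) (β := β)
    (fun x hx => by
      have : x ∈ {x : X E | infDist (Λ⁻¹ • x 8) (Γ.orb φ₀) ≤ 7 / 2 * (r / 4)} :=
        closure_minimal (fun y hy => sf _ hy) (isClosed_le hd continuous_const) hx.2
      change infDist _ _ < r
      have : infDist (Λ⁻¹ • x 8) (Γ.orb φ₀) ≤ 7 / 2 * (r / 4) := this
      linarith)
    (fun x hx => closure_minimal (fun y hy => sg _ hy) (isClosed_le continuous_const hd) hx.2)
    (fun x _ => by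
      refine le_trans ?_ (hβ (Λ⁻¹ • x 8))
      gcongr
      · exact a3 x
      · exact b3 x)
    hnear' (hfar.mono (mul_le_mul_of_nonneg_right (min_le_left _ _) hΛ.le))
  rw [div_lt_iff₀ hc] at hΛb
  have ha : max b 0 < min c₁ c₂ * Λ - β / 2 := by linarith
  have ha0 : 0 < min c₁ c₂ * Λ - β / 2 := lt_of_le_of_lt (le_max_right _ _) ha
  have hS := symOK_flows 𝔤 C σ.G neut_ok
  have hC := compat_Qd 𝔤 C σ (𝒱 := neut) (fun p hp => by rw [show p = (V0, 0) from hp]) Λ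
    (gradient_equivariant 𝔤 (hF1.differentiable (by simp)) hF3)
  refine ⟨Λ, hΛ, Fs Fh t Λ, hF1, hF2, hF3, ?_, ?_⟩
  · refine nonTriv_of_codim C _ hw' hS hC (isPar_par C σ.G)
      (par_comm_flows 𝔤 C σ.G neut (isPar_par C σ.G)) ha0 hall
      ((cls_iff_ds 𝔤 C σ.G neut φ).1 hφ) ?_
    rw [← dirac_congr C _ (w := wl 𝔤 σ t Λ) fun x hx => hwd x ?_]
    · exact hq.trans_lt (mul_lt_mul_of_pos_right ((le_max_left _ _).trans_lt ha) hφ0)
    · obtain ⟨k, hk⟩ := sφ hx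
      rw [← Γ.infDist_act φ₀ k]
      have h1 : φ₀ ∈ Γ.orb φ₀ := ⟨1, by simp⟩
      refine (infDist_le_dist_of_mem h1).trans_lt ?_
      have h2 : ‖(Γ.ax k x - Λ • x₀) 8‖ ≤ 1 := (PiLp.norm_apply_le _ _).trans hk
      have h3 : Γ.act k (Λ⁻¹ • x 8) - φ₀ = Λ⁻¹ • (Γ.ax k x - Λ • x₀) 8 := by
        simp [Grp.ax, smul_sub, smul_smul, inv_mul_cancel₀ hΛ.ne', h8]
      rw [dist_eq_norm, h3, norm_smul, Real.norm_eq_abs, abs_of_pos (inv_pos.2 hΛ)]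
      calc Λ⁻¹ * ‖(Γ.ax k x - Λ • x₀) 8‖ ≤ Λ⁻¹ * 1 := by gcongr
        _ < r := by rw [mul_one]; exact inv_lt_of_inv_lt₀ hr hΛr
  · obtain ⟨s, hs, b', -, hlow⟩ := hall
    rw [show Qd 𝔤 C σ Λ (gradient (Fs Fh t Λ)) =
      dirac C (cmap σ.G σ.s) (wd 𝔤 σ Λ (gradient (Fs Fh t Λ))) from rfl, wk_eq_sk C _ hw' hS hC]
    exact atMostOne_of_codim C _ hw' hs ha0 fun ψ hψ => hlow ψ hψ (subset_univ _)

end Crest.Agent.R330

end
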