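import Crest.Agent.R330.L.Spin

/-! # Row 330, L/Exp: expansions around the vacuum (owner helper74; statements frozen, plan in `L/Defs.lean`) -/

set_option autoImplicit false
set_option linter.unusedSectionVars false
set_option linter.unusedVariables false

noncomputable section

open MeasureTheory Filter Topology Set Metric
open scoped InnerProductSpace ContDiff Matrix
open Crest.MathPhysics.MatrixQM (GammaNine)

namespace Crest.Agent.R330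

variable {E F : Type} [NormedAddCommGroup E] [InnerProductSpace ℝ E] [FiniteDimensional ℝ E]
  [MeasurableSpace E] [BorelSpace E]
  [NormedAddCommGroup F] [InnerProductSpace ℂ F] [FiniteDimensional ℂ F]
  {K : Type} [Group K] [TopologicalSpace K] [IsTopologicalGroup K]
  [CompactSpace K] [MeasurableSpace K] [BorelSpace K] {𝔤 : Lie E}

theorem fderiv_csmul (r : ℝ) (a : E) :
    fderiv ℝ (fun v : E => r • v) a = r • ContinuousLinearMap.id ℝ E :=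
  ((hasFDerivAt_id a).const_smul r).fderiv

theorem Bl_apply (σ : Spn) (t : ℝ) (x₀ z : X E) : Bl 𝔤 σ t x₀ z =
    fderiv ℝ (wpot 𝔤 σ.G σ.s) x₀ z + cmap σ.G σ.s (mat V0 z) + tens σ.s' (t • z 8) := by
  have := db_fderiv 𝔤 σ 1 (f := fun v => (t * 1) • v) (x := x₀) (by fun_prop) z
  rw [fderiv_csmul] at this
  simpa [Bl, wl] using this

theorem wl_expand (σ : Spn) (t Λ : ℝ) (x₀ z : X E) : wl 𝔤 σ t Λ (Λ • x₀ + z) =
    Λ ^ 2 • wl 𝔤 σ t 1 x₀ + Λ • Bl 𝔤 σ t x₀ z + wpot 𝔤 σ.G σ.s z := by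
  simp only [Bl_apply, wd, wpot_add, wpot_smul, fderiv_wpot_ga, map_add, map_smul, LinearMap.smul_apply,
    PiLp.add_apply, PiLp.smul_apply, smul_add, tens_add', tens_smul']
  module

theorem wl_scale (σ : Spn) (t Λ : ℝ) (x : X E) : wl 𝔤 σ t Λ (Λ • x) = Λ ^ 2 • wl 𝔤 σ t 1 x := by
  have := wl_expand (𝔤 := 𝔤) σ t Λ x 0
  simpa [wpot, da_tens_zero'] using this

theorem yuk_expand (σ : Spn) (t Λ : ℝ) (x₀ z : X E) :
    yuk 𝔤 σ Λ (fun v => (t * Λ) • v) (Λ • x₀ + z) =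
      Λ • yuk 𝔤 σ 1 (fun v => (t * 1) • v) x₀ + yuk 𝔤 σ 0 (fun _ => 0) z := by
  have h1 : ∀ L L' : E →ₗ[ℝ] E, lift 16 (L + L') = lift 16 L + lift 16 L' := fun L L' => by
    ext x i
    simp
  have h0 : lift 16 (0 : E →ₗ[ℝ] E) = 0 := by
    ext x i
    simp
  simp only [yuk, fderiv_csmul, PiLp.add_apply, PiLp.smul_apply, map_add, map_smul, h1, ga_lift_smul,
    LinearMap.comp_add, LinearMap.comp_smul, Finset.sum_add_distrib, ← Finset.smul_sum,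
    ContinuousLinearMap.toLinearMap_smul, fderiv_fun_const, Pi.zero_apply, ContinuousLinearMap.toLinearMap_zero,
    h0, LinearMap.comp_zero]
  module

theorem AX_x0 {σ : Spn} {t : ℝ} {x₀ : X E} (h : wl 𝔤 σ t 1 x₀ = 0) : AX 𝔤 (x₀ 8) x₀ = 0 := by
  have := adjoint_cmap_wd 𝔤 σ 1 (fun v => (t * 1) • v) x₀
  rw [show wd 𝔤 σ 1 (fun v => (t * 1) • v) x₀ = 0 from h, map_zero, one_smul] at this
  exact this.symm

theorem gau_apply (x₀ : X E) (ξ : E) : gau 𝔤 x₀ ξ = lift 9 (𝔤.br ξ) x₀ := rfl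

theorem Bl_gau {σ : Spn} {t : ℝ} {x₀ : X E} (h : wl 𝔤 σ t 1 x₀ = 0) (ξ : E) :
    Bl 𝔤 σ t x₀ (gau 𝔤 x₀ ξ) = 0 := by
  have := congrArg (lift 16 (𝔤.br ξ)) h
  rw [map_zero] at this
  rw [← this, Bl_apply, wl, wd, map_add, map_add, ← ga_B_self, ga_B_gauge, fderiv_wpot_ga, gau_apply,
    lift_tens, one_smul, mul_one, map_smul, add_comm (ga_B 𝔤 σ.G σ.s x₀ _)]
  congr 2
  rw [cmap, gb_mat_mul, gb_mat_mul]
  exact LinearMap.congr_fun (mat_lift _ _) _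

theorem V0_comm (φ : E) (z : X E) : mat V0 (AX 𝔤 φ z) = AX 𝔤 φ (mat V0 z) := by
  simp only [AX, LinearMap.sub_apply, map_sub]
  congr 1
  exact LinearMap.congr_fun (mat_lift _ _) _

theorem AX_eight (φ : E) (z : X E) : AX 𝔤 φ z 8 = -𝔤.br φ (z 8) := by
  simp [AX, db_V0]

theorem Bl_AX {σ : Spn} {t : ℝ} {x₀ : X E} (h : wl 𝔤 σ t 1 x₀ = 0) :
    Bl 𝔤 σ t x₀ ∘ₗ AX 𝔤 (x₀ 8) = AT 𝔤 σ (x₀ 8) ∘ₗ Bl 𝔤 σ t x₀ := by
  refine LinearMap.ext fun z => ?_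
  have h1 := fderiv_wpot_V0 (𝔤 := 𝔤) σ x₀ z
  have h2 := fderiv_wpot_br (𝔤 := 𝔤) σ (x₀ 8) x₀ z
  rw [← sub_eq_zero.1 (AX_x0 h)] at h2
  simp only [LinearMap.comp_apply, Bl_apply, map_add]
  rw [V0_comm, AX_eight, ← LinearMap.comp_apply (cmap σ.G σ.s), cmap_AX, LinearMap.comp_apply]
  congr 2
  · rw [AT, AX, LinearMap.sub_apply, LinearMap.sub_apply, map_sub, ← h1, ← h2]
    abel
  · rw [AT, LinearMap.sub_apply, mat_tens, lift_tens, σ.sig_s', da_tens_zero, zero_sub, map_smul, smul_neg,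
      da_tens_neg']

theorem adjoint_cmap_Bl (σ : Spn) (t : ℝ) (x₀ z : X E) :
    LinearMap.adjoint (cmap σ.G σ.s) (Bl 𝔤 σ t x₀ z) = AX 𝔤 (x₀ 8) z - gau 𝔤 x₀ (z 8) := by
  have := congrArg (LinearMap.adjoint (cmap σ.G σ.s)) (wl_expand (𝔤 := 𝔤) σ t 1 x₀ z)
  rw [one_pow, one_smul, one_smul, one_smul, map_add, map_add, adjoint_cmap_wd, adjoint_cmap_wd,
    adjoint_cmap_wpot 𝔤 σ.G σ.unit σ.h8] at this
  rw [← sub_eq_zero, ← sub_eq_zero.2 this.symm]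
  ext i
  simp only [AX, gau_apply, LinearMap.sub_apply, LinearMap.neg_apply, PiLp.sub_apply, PiLp.add_apply,
    PiLp.neg_apply, map_add, one_smul, lift_apply, LinearMap.add_apply]
  abel

theorem AX_gau {σ : Spn} {t : ℝ} {x₀ : X E} (h : wl 𝔤 σ t 1 x₀ = 0) (ξ : E) :
    AX 𝔤 (x₀ 8) (gau 𝔤 x₀ ξ) = -gau 𝔤 x₀ (𝔤.br (x₀ 8) ξ) := by
  rw [AX, LinearMap.sub_apply, gau_apply, ← LinearMap.comp_apply, mat_lift, LinearMap.comp_apply,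
    sub_eq_zero.1 (AX_x0 h)]
  ext i
  simp [gau_apply, 𝔤.jac (x₀ 8) ξ]

theorem norm_wl_ax (Γ : Grp 𝔤 K) (σ : Spn) (t Λ : ℝ) (k : K) (x : X E) :
    ‖wl 𝔤 σ t Λ (Γ.ax k x)‖ = ‖wl 𝔤 σ t Λ x‖ :=
  Γ.norm_wd_ax σ Λ (fun k v => (map_smul _ _ _).symm) k x

theorem inner_br_le (σ : Spn) (x : X E) (φ : E) {i j : Fin 9} (hi : i ≠ 8) (hj : j ≠ 8) :
    |⟪x j, 𝔤.br φ (x i)⟫_ℝ| ≤ ‖φ‖ * (2 * ‖wpot 𝔤 σ.G σ.s (zp x)‖) := by
  rw [real_inner_comm, 𝔤.inv]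
  refine (abs_real_inner_le_norm _ _).trans (mul_le_mul_of_nonneg_left ?_ (norm_nonneg _))
  have h1 := norm_wpot_sq 𝔤 σ.G σ.unit (zp x)
  have h2 : ‖𝔤.br (zp x i) (zp x j)‖ ^ 2 ≤ ∑ i, ∑ j, ‖𝔤.br (zp x i) (zp x j)‖ ^ 2 :=
    (Finset.single_le_sum (f := fun j => ‖𝔤.br (zp x i) (zp x j)‖ ^ 2) (fun _ _ => by positivity)
      (Finset.mem_univ j)).trans (Finset.single_le_sum (f := fun i => ∑ j, ‖𝔤.br (zp x i) (zp x j)‖ ^ 2)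
        (fun _ _ => by positivity) (Finset.mem_univ i))
  rw [zp_apply, zp_apply, if_neg hi, if_neg hj] at h2
  exact le_of_sq_le_sq (by nlinarith [sq_nonneg ‖wpot 𝔤 σ.G σ.s (zp x)‖]) (by positivity)

theorem norm_tens_s' (σ : Spn) (e : E) : ‖tens σ.s' e‖ = ‖e‖ := by
  rw [← sq_eq_sq₀ (norm_nonneg _) (norm_nonneg _), ← real_inner_self_eq_norm_sq, inner_tens, σ.s'_unit,
    one_mul, real_inner_self_eq_norm_sq]

/-- Coercivity for bounded `φ`: `‖V₀x‖² = ⟪V₀x, V₀x - adφ x⟫ + ⟪V₀x, adφ x⟫` and the last term is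
`Σ V_ij ⟪φ, ⟦x_i, x_j⟧⟫ = O(‖φ‖ ‖wpot (zp x)‖)` (`norm_wd_sq`, `norm_wpot_sq`). -/
theorem coer1 (σ : Spn) (t R : ℝ) : ∃ C₁ : ℝ, 0 < C₁ ∧ ∀ x : X E, ‖x 8‖ ≤ R →
    ‖x‖ ^ 2 ≤ C₁ * (‖wl 𝔤 σ t 1 x‖ ^ 2 + 1) := by
  refine ⟨1 + 48 * |R| + 96 * |t| * R ^ 2 + R ^ 2, by positivity, fun x hx => ?_⟩
  have hR : 0 ≤ R := (norm_nonneg _).trans hx
  rw [abs_of_nonneg hR]
  have h1 := norm_wd_sq 𝔤 σ 1 (fun v => (t * 1) • v) x
  rw [one_smul, mul_one] at h1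
  have h0 : ‖wl 𝔤 σ t 1 x‖ = ‖wd 𝔤 σ 1 (fun v => t • v) x‖ := by simp only [wl, mul_one]
  rw [h0]
  generalize ‖wd 𝔤 σ 1 (fun v => t • v) x‖ = w at h1 h0
  have hw : 0 ≤ w := h0 ▸ norm_nonneg _
  have h2 : ‖wpot 𝔤 σ.G σ.s (zp x)‖ ≤ w + |t| * R := by
    have a1 : ‖wpot 𝔤 σ.G σ.s (zp x) + tens σ.s' (t • x 8)‖ ≤ w :=
      le_of_sq_le_sq (by rw [h1]; exact le_add_of_nonneg_left (by positivity)) hw
    have a2 := norm_sub_le (wpot 𝔤 σ.G σ.s (zp x) + tens σ.s' (t • x 8)) (tens σ.s' (t • x 8))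
    rw [add_sub_cancel_right, norm_tens_s', norm_smul, Real.norm_eq_abs] at a2
    have := mul_le_mul_of_nonneg_left hx (abs_nonneg t)
    linarith
  have h3 : ⟪mat V0 x, lift 9 (𝔤.br (x 8)) x⟫_ℝ ≤ 48 * R * (w + |t| * R) := by
    have b : ∀ i j : Fin 9, i ≠ 8 → j ≠ 8 → |⟪x j, 𝔤.br (x 8) (x i)⟫_ℝ| ≤ R * (2 * (w + |t| * R)) :=
      fun i j hi hj => (inner_br_le σ x _ hi hj).trans (by gcongr)
    have b01 := abs_le.1 (b 0 1 (by decide) (by decide))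
    have b10 := abs_le.1 (b 1 0 (by decide) (by decide))
    have b23 := abs_le.1 (b 2 3 (by decide) (by decide))
    have b32 := abs_le.1 (b 3 2 (by decide) (by decide))
    have b45 := abs_le.1 (b 4 5 (by decide) (by decide))
    have b54 := abs_le.1 (b 5 4 (by decide) (by decide))
    have b67 := abs_le.1 (b 6 7 (by decide) (by decide))
    have b76 := abs_le.1 (b 7 6 (by decide) (by decide))
    rw [db_V0, PiLp.inner_apply, db_sum9]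
    simp [real_inner_smul_left]
    linarith [b01.1, b10.2, b23.1, b32.2, b45.2, b54.1, b67.2, b76.1]
  have h4 : 4 * ‖x‖ ^ 2 ≤ ‖mat V0 x‖ ^ 2 + 4 * ‖x 8‖ ^ 2 := by
    rw [db_V0, PiLp.norm_sq_eq_of_L2, PiLp.norm_sq_eq_of_L2, db_sum9, db_sum9]
    simp [norm_smul, mul_pow]
    nlinarith [sq_nonneg ‖x 2‖, sq_nonneg ‖x 3‖, sq_nonneg ‖x 6‖, sq_nonneg ‖x 7‖]
  have h5 := norm_sub_sq_real (mat V0 x) (lift 9 (𝔤.br (x 8)) x)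
  have h6 : ‖x 8‖ ^ 2 ≤ R ^ 2 := by gcongr
  have h7 : 0 ≤ |t| * R ^ 2 * (1 + w ^ 2) := by positivity
  have h8 : 0 ≤ R * (w - 1) ^ 2 := by positivity
  have h9 : 0 ≤ R * w ^ 2 := by positivity
  have h10 : 0 ≤ R ^ 2 * w ^ 2 := by positivity
  have h11 : 0 ≤ |t| * R ^ 2 * w ^ 2 := by positivity
  nlinarith [sq_nonneg ‖lift 9 (𝔤.br (x 8)) x‖, sq_nonneg ‖wpot 𝔤 σ.G σ.s (zp x) + tens σ.s' (t • x 8)‖,
    sq_nonneg w]

theorem wl_unscale (σ : Spn) (t : ℝ) {Λ : ℝ} (hΛ : 0 < Λ) (x : X E) :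
    ‖wl 𝔤 σ t 1 (Λ⁻¹ • x)‖ = ‖wl 𝔤 σ t Λ x‖ / Λ ^ 2 := by
  have := wl_scale (𝔤 := 𝔤) σ t Λ (Λ⁻¹ • x)
  rw [smul_inv_smul₀ hΛ.ne'] at this
  rw [this, norm_smul, Real.norm_of_nonneg (by positivity)]
  field_simp

theorem coer (σ : Spn) (t R : ℝ) : ∃ C₁ : ℝ, 0 < C₁ ∧ ∀ Λ : ℝ, 0 < Λ → ∀ x : X E, ‖Λ⁻¹ • x 8‖ ≤ R →
    ‖x‖ ^ 2 ≤ C₁ * (‖wl 𝔤 σ t Λ x‖ ^ 2 / Λ ^ 2 + Λ ^ 2) := by
  obtain ⟨C₁, h1, h⟩ := coer1 (𝔤 := 𝔤) σ t R
  refine ⟨C₁, h1, fun Λ hΛ x hx => ?_⟩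
  have := h (Λ⁻¹ • x) hx
  rw [wl_unscale σ t hΛ, norm_smul, Real.norm_of_nonneg (by positivity)] at this
  calc ‖x‖ ^ 2 = Λ ^ 2 * (Λ⁻¹ * ‖x‖) ^ 2 := by field_simp
    _ ≤ Λ ^ 2 * (C₁ * ((‖wl 𝔤 σ t Λ x‖ / Λ ^ 2) ^ 2 + 1)) := by gcongr
    _ = _ := by field_simp

theorem Quad.norm_P_le {σ : Spn} {t : ℝ} {x₀ : X E} (Q : Quad 𝔤 σ t x₀) (z : X E) :
    Q.g₀ * ‖Q.P z‖ ≤ ‖Bl 𝔤 σ t x₀ z‖ := by
  have h := Q.osc.ge z
  rw [← Q.osc.GP, ← Q.osc.G_symm] at h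
  replace h := h.trans (real_inner_le_norm _ _)
  rw [Q.norm_B]
  rcases (norm_nonneg (Q.P z)).eq_or_lt with h0 | h0
  · rw [← h0, mul_zero]
    exact norm_nonneg _
  · exact le_of_mul_le_mul_right (by linarith) h0

/-- Compactness (`coer1`) brings `x` close to the orbit; for the nearest orbit point `kx - x₀` is orthogonal
to the gauge directions, so `P z = z`, and `w(x₀ + z) = Bz + wpot z`. -/
theorem near_orbit (Γ : Grp 𝔤 K) {σ : Spn} {t : ℝ} {x₀ : X E} (Q : Quad 𝔤 σ t x₀) {Ω : Set E}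
    (hΩ : IsCompact Ω) (hu : ∀ x : X E, x 8 ∈ Ω → wl 𝔤 σ t 1 x = 0 → ∃ k, Γ.ax k x = x₀) :
    ∃ C₂ δ : ℝ, 0 < C₂ ∧ 0 < δ ∧ ∀ x : X E, x 8 ∈ Ω → ‖wl 𝔤 σ t 1 x‖ ≤ δ →
      ∃ k, ‖Γ.ax k x - x₀‖ ≤ C₂ * ‖wl 𝔤 σ t 1 x‖ := by
  obtain ⟨b, hb, hw⟩ := exists_norm_wpot 𝔤 σ.G σ.unit
  obtain ⟨R, hR⟩ := hΩ.isBounded.exists_norm_le
  obtain ⟨C₁, hC₁, hc⟩ := coer1 (𝔤 := 𝔤) σ t R
  have hg := Q.osc.pos
  have hcw : Continuous (wl 𝔤 σ t 1) := (contDiff_wd 𝔤 σ 1 (contDiff_id.const_smul _)).continuous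
  have hS : IsCompact {x : X E | x 8 ∈ Ω ∧ ‖wl 𝔤 σ t 1 x‖ ≤ 1 ∧ ∀ k, Q.g₀ / (2 * b) ≤ ‖Γ.ax k x - x₀‖} := by
    refine Metric.isCompact_of_isClosed_isBounded ((hΩ.isClosed.preimage (by fun_prop)).inter
      ((isClosed_le hcw.norm continuous_const).inter ?_))
      ((isBounded_closedBall (x := 0) (r := √(C₁ * 2))).subset fun x hx => ?_)
    · change IsClosed {x : X E | ∀ k, _}
      rw [ofPred_forall]
      exact isClosed_iInter fun k => isClosed_le continuous_const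
        ((Γ.ax k).continuous.sub continuous_const).norm
    · rw [mem_closedBall_zero_iff]
      refine Real.le_sqrt_of_sq_le ((hc x (hR _ hx.1)).trans ?_)
      have := pow_le_one₀ (n := 2) (norm_nonneg _) hx.2.1
      gcongr
      linarith
  obtain ⟨δ, hδ, hδ'⟩ := hS.exists_forall_le' (f := fun x => ‖wl 𝔤 σ t 1 x‖) hcw.norm.continuousOn (a := 0)
    fun x hx => norm_pos_iff.2 fun h0 => by
      obtain ⟨k, hk⟩ := hu x hx.1 h0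
      have := hx.2.2 k
      rw [hk, sub_self, norm_zero] at this
      exact absurd this (not_le.2 (by positivity))
  refine ⟨2 / Q.g₀, min (δ / 2) 1, by positivity, by positivity, fun x hx hxw => ?_⟩
  obtain ⟨k, -, hk⟩ := isCompact_univ.exists_isMinOn univ_nonempty
    (f := fun k => ‖Γ.ax k x - x₀‖) ((Γ.uc_cont x).sub continuous_const).norm.continuousOn
  refine ⟨k, ?_⟩
  have h1 : ‖Γ.ax k x - x₀‖ ≤ Q.g₀ / (2 * b) := by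
    by_contra h
    have := hδ' x ⟨hx, hxw.trans (min_le_right _ _), fun k' => (not_le.1 h).le.trans (hk (mem_univ k'))⟩
    have := hxw.trans (min_le_left _ _)
    linarith
  have h2 : ∀ ξ, ⟪Γ.ax k x - x₀, gau 𝔤 x₀ ξ⟫_ℝ = 0 := fun ξ => by
    have hd := ((hasDerivAt_rexp' (lift 9 (𝔤.br ξ)) (Γ.ax k x) 0).sub_const x₀).norm_sq
    have hm : IsLocalMin (fun s : ℝ => ‖rexp' (s • lift 9 (𝔤.br ξ)) (Γ.ax k x) - x₀‖ ^ 2) 0 :=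
      Eventually.of_forall fun s => by
        obtain ⟨k', hk'⟩ := Γ.exists_ax_flow (s • ξ)
        simp only [zero_smul, rexp'_zero]
        rw [← ga_lift_smul, ← map_smul, ← hk', ← Γ.ax_mul]
        exact pow_le_pow_left₀ (norm_nonneg _) (hk (mem_univ _)) 2
    have := hm.hasDerivAt_eq_zero hd
    have sk := isSkew_lift (n := 9) (𝔤.isSkew_br ξ)
    have e := Cl.a1c_skew_self sk (Γ.ax k x - x₀)
    rw [zero_smul, rexp'_zero] at this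
    rw [map_sub, inner_sub_left, real_inner_comm, real_inner_comm (Γ.ax k x - x₀)] at e
    rw [gau_apply]
    linarith
  have h3 := wl_expand (𝔤 := 𝔤) σ t 1 x₀ (Γ.ax k x - x₀)
  rw [← norm_wl_ax Γ σ t 1 k x]
  rw [one_smul, add_sub_cancel, Q.zero, smul_zero, zero_add, one_smul] at h3
  generalize Γ.ax k x - x₀ = z at h1 h2 h3
  have h4 : Q.P z = z := by
    rw [eq_comm, ← sub_eq_zero, ← inner_self_eq_zero (𝕜 := ℝ), inner_sub_left, Q.osc.P_symm, map_sub,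
      Q.osc.P_idem, sub_self, inner_zero_right, sub_zero, Q.gauge, h2]
  have h5 := Q.norm_P_le z
  have h6 := norm_sub_le (Bl 𝔤 σ t x₀ z + wpot 𝔤 σ.G σ.s z) (wpot 𝔤 σ.G σ.s z)
  rw [add_sub_cancel_right, ← h3] at h6
  rw [h4] at h5
  rw [le_div_iff₀ (by positivity)] at h1
  rw [div_mul_eq_mul_div, le_div_iff₀ hg]
  nlinarith [(hw z z).1, norm_nonneg z]

theorem sub_inn (Γ : Grp 𝔤 K) {σ : Spn} {t : ℝ} {x₀ : X E} (Q : Quad 𝔤 σ t x₀) {Ω : Set E}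
    (hΩ : IsCompact Ω) (hu : ∀ x : X E, x 8 ∈ Ω → wl 𝔤 σ t 1 x = 0 → ∃ k, Γ.ax k x = x₀) :
    ∃ η : ℝ, 0 < η ∧ ∀ᶠ Λ : ℝ in atTop, ∀ x : X E, Λ⁻¹ • x 8 ∈ Ω → ‖wl 𝔤 σ t Λ x‖ ≤ 2 * η * Λ →
      x ∈ Γ.Inn Q.P (Λ • x₀) := by
  obtain ⟨C₂, δ, hC, hδ, h⟩ := near_orbit Γ Q hΩ hu
  obtain ⟨b, hb, hw⟩ := exists_norm_wpot 𝔤 σ.G σ.unit
  have hg := Q.osc.pos
  obtain ⟨η, hη, h1, h2⟩ : ∃ η : ℝ, 0 < η ∧ η ≤ 1 / (8 * C₂) ∧ η ≤ Q.g₀ / 16 :=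
    ⟨min _ _, by positivity, min_le_left _ _, min_le_right _ _⟩
  refine ⟨η, hη, ?_⟩
  filter_upwards [eventually_gt_atTop 0, eventually_ge_atTop (2 * η / δ), eventually_ge_atTop (8 * b / Q.g₀)]
    with Λ hΛ hΛ1 hΛ2 x hx hxw
  have h3 : ‖wl 𝔤 σ t 1 (Λ⁻¹ • x)‖ ≤ 2 * η / Λ := by
    rw [wl_unscale σ t hΛ, div_le_div_iff₀ (by positivity) hΛ]
    nlinarith
  rw [div_le_iff₀ hδ] at hΛ1
  rw [div_le_iff₀ hg] at hΛ2
  rw [le_div_iff₀ (by positivity)] at h1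
  constructor
  · obtain ⟨k, hk⟩ := h (Λ⁻¹ • x) hx (h3.trans (by rw [div_le_iff₀ hΛ]; linarith))
    refine ⟨k, ?_⟩
    rw [← smul_inv_smul₀ hΛ.ne' x, map_smul, ← smul_sub, norm_smul, Real.norm_of_nonneg hΛ.le]
    calc Λ * ‖Γ.ax k (Λ⁻¹ • x) - x₀‖ ≤ Λ * (C₂ * (2 * η / Λ)) := by
          gcongr
          exact hk.trans (by gcongr)
      _ = 2 * η * C₂ := by field_simp
      _ ≤ 1 / 4 := by linarith
  · intro hz
    have h4 := wl_expand (𝔤 := 𝔤) σ t Λ x₀ (x - Λ • x₀)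
    rw [add_sub_cancel, Q.zero, smul_zero, zero_add] at h4
    generalize x - Λ • x₀ = z at hz h4
    have h5 := Q.norm_P_le z
    have h6 := norm_sub_le (Λ • Bl 𝔤 σ t x₀ z + wpot 𝔤 σ.G σ.s z) (wpot 𝔤 σ.G σ.s z)
    rw [add_sub_cancel_right, ← h4, norm_smul, Real.norm_of_nonneg hΛ.le] at h6
    have h7 : ‖wpot 𝔤 σ.G σ.s z‖ ≤ b := (hw z z).1.trans
      (mul_le_of_le_one_right hb.le (pow_le_one₀ (norm_nonneg _) hz))
    have h8 := mul_le_mul_of_nonneg_left h5 hΛ.le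
    have h9 := mul_le_mul_of_nonneg_left h2 hΛ.le
    exact le_of_mul_le_mul_left (a := Λ * Q.g₀) (by linarith) (by positivity)

end Crest.Agent.R330

end
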