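import Crest.Agent.R330.L.Quad
import Crest.Agent.R330.L.Exp

/-! # Row 330, L/MkQuad: construction of the quadratic model (owner helper74; statements frozen, plan in `L/Defs.lean`) -/

set_option autoImplicit false
set_option linter.unusedSectionVars false
set_option linter.unusedVariables false

noncomputable section

open MeasureTheory Filter Topology Set Metric
open scoped InnerProductSpace ContDiff Matrix
open Crest.MathPhysics.MatrixQM (GammaNine)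

namespace Crest.Agent.R330

variable {E F : Type} [NormedAddCommGroup E] [InnerProductSpace ℝ E] [FiniteDimensional ℝ E]
  [MeasurableSpace E] [BorelSpace E]
  [NormedAddCommGroup F] [InnerProductSpace ℂ F] [FiniteDimensional ℂ F]
  {K : Type} [Group K] [TopologicalSpace K] [IsTopologicalGroup K]
  [CompactSpace K] [MeasurableSpace K] [BorelSpace K] {𝔤 : Lie E}

theorem quad_of_split {σ : Spn} {t : ℝ} {x₀ : X E} (h0 : wl 𝔤 σ t 1 x₀ = 0)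
    (hinj : ∀ y : X E, (∀ ξ, ⟪y, gau 𝔤 x₀ ξ⟫_ℝ = 0) → Bl 𝔤 σ t x₀ y = 0 → y = 0)
    (hker : trf ind0 (AT 𝔤 σ (x₀ 8)) = 2 * (trf ind0 (AX 𝔤 (x₀ 8)) - trf ind0 (𝔤.br (x₀ 8))))
    (htr : trf Real.sqrt (AT 𝔤 σ (x₀ 8)) =
      2 * (trf Real.sqrt (AX 𝔤 (x₀ 8)) - trf Real.sqrt (𝔤.br (x₀ 8))))
    {Y : Type} [NormedAddCommGroup Y] [InnerProductSpace ℝ Y] [FiniteDimensional ℝ Y]
    (ι : Y →ₗ[ℝ] X E) (π : X E →ₗ[ℝ] Y) (hπ : LinearMap.adjoint ι = π) (πι : ∀ y, π (ι y) = y)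
    (og : ∀ y ξ, ⟪gau 𝔤 x₀ ξ, ι y⟫_ℝ = 0) (β : X E →ₗ[ℝ] E) (hg : ∀ ξ, β (gau 𝔤 x₀ ξ) = ξ)
    (hβ : ∀ z, z - ι (π z) = gau 𝔤 x₀ (β z)) : Nonempty (Quad 𝔤 σ t x₀) := by
  have iπ : ∀ x y, ⟪π x, y⟫_ℝ = ⟪x, ι y⟫_ℝ := fun x y => by rw [← hπ, LinearMap.adjoint_inner_left]
  have iπ' : ∀ x y, ⟪y, π x⟫_ℝ = ⟪ι y, x⟫_ℝ := fun x y => by rw [← hπ, LinearMap.adjoint_inner_right]
  have nι : ∀ y, ‖ι y‖ = ‖y‖ := fun y => by
    rw [← sq_eq_sq₀ (norm_nonneg _) (norm_nonneg _), ← real_inner_self_eq_norm_sq, ← iπ, πι,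
      real_inner_self_eq_norm_sq]
  have πg : ∀ ξ, π (gau 𝔤 x₀ ξ) = 0 := fun ξ => ext_inner_right ℝ fun y => by
    rw [iπ, og, inner_zero_left]
  have sX := isSkew_AX (𝔤 := 𝔤) (x₀ 8)
  have ιA : ∀ y, ι (π (AX 𝔤 (x₀ 8) (ι y))) = AX 𝔤 (x₀ 8) (ι y) := fun y => by
    rw [eq_comm, ← sub_eq_zero, ← inner_self_eq_zero (𝕜 := ℝ)]
    nth_rw 1 [hβ]
    rw [inner_sub_right, og, sub_zero, ← neg_eq_zero, ← sX, AX_gau h0, inner_neg_left, og, neg_zero]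
  have πA : ∀ z, π (AX 𝔤 (x₀ 8) (ι (π z))) = π (AX 𝔤 (x₀ 8) z) := fun z => by
    rw [eq_comm, ← sub_eq_zero, ← map_sub, ← map_sub, hβ, AX_gau h0, map_neg, πg, neg_zero]
  have Bπ : ∀ z, Bl 𝔤 σ t x₀ (ι (π z)) = Bl 𝔤 σ t x₀ z := fun z => by
    rw [eq_comm, ← sub_eq_zero, ← map_sub, hβ, Bl_gau h0]
  have sY : IsSkew (π ∘ₗ AX 𝔤 (x₀ 8) ∘ₗ ι) := fun u v => by
    simp only [LinearMap.comp_apply, iπ, iπ']
    exact sX _ _
  have htrf : ∀ f, trf f (AX 𝔤 (x₀ 8)) - trf f (𝔤.br (x₀ 8)) =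
      trf f (π ∘ₗ AX 𝔤 (x₀ 8) ∘ₗ ι) := fun f => by
    have h1 := trace_fc_proj f sX.nsq_symm sY.nsq_symm ι π (LinearMap.ext πι)
      (nsq_intertwine (LinearMap.ext ιA))
    have h2 := trace_fc_proj f sX.nsq_symm (𝔤.isSkew_br (x₀ 8)).nsq_symm (gau 𝔤 x₀) β (LinearMap.ext hg)
      (LinearMap.ext fun ξ => by simp [AX_gau h0])
    rw [trf, trf, trf, ← h1, ← h2, sub_eq_iff_eq_add, ← map_add, ← LinearMap.comp_add]
    congr 1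
    refine LinearMap.ext fun x => ?_
    rw [LinearMap.comp_apply]
    congr 1
    exact eq_add_of_sub_eq' (hβ x)
  rw [htrf] at hker htr
  have e1 : ∀ y, ‖(cmap σ.G σ.s ∘ₗ ι) y‖ = ‖y‖ := fun y => by
    rw [LinearMap.comp_apply, norm_cmap σ.G σ.unit, nι]
  have e2 : Function.Injective (Bl 𝔤 σ t x₀ ∘ₗ ι) := (injective_iff_map_eq_zero _).2 fun y hy => by
    rw [← πι y, hinj (ι y) (fun ξ => by rw [real_inner_comm, og]) hy, map_zero]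
  have e3 : (cmap σ.G σ.s ∘ₗ ι) ∘ₗ (π ∘ₗ AX 𝔤 (x₀ 8) ∘ₗ ι) = AT 𝔤 σ (x₀ 8) ∘ₗ (cmap σ.G σ.s ∘ₗ ι) :=
    LinearMap.ext fun y => by
      simp only [LinearMap.comp_apply, ιA]
      exact LinearMap.congr_fun (cmap_AX σ _) _
  have e4 : (Bl 𝔤 σ t x₀ ∘ₗ ι) ∘ₗ (π ∘ₗ AX 𝔤 (x₀ 8) ∘ₗ ι) = AT 𝔤 σ (x₀ 8) ∘ₗ (Bl 𝔤 σ t x₀ ∘ₗ ι) :=
    LinearMap.ext fun y => by
      simp only [LinearMap.comp_apply, ιA]
      exact LinearMap.congr_fun (Bl_AX h0) _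
  have e5 : LinearMap.adjoint (cmap σ.G σ.s ∘ₗ ι) ∘ₗ (Bl 𝔤 σ t x₀ ∘ₗ ι) = π ∘ₗ AX 𝔤 (x₀ 8) ∘ₗ ι :=
    LinearMap.ext fun y => by
      simp only [LinearMap.adjoint_comp, hπ, LinearMap.comp_apply, adjoint_cmap_Bl, map_sub, πg, sub_zero]
  obtain ⟨G, J, Ξ, g₀, γ, hg₀, hγ, h1, h2, h3, h4, h5, h6, h7, h8, h9, h10, h11, h12, h13⟩ :=
    quad_abs _ _ _ _ e1 e2 sY (isSkew_AT σ _) e3 e4 e5 hker htr
  replace h4 := LinearMap.congr_fun h4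
  simp only [LinearMap.comp_apply] at h3 h4 h11
  refine ⟨⟨ι ∘ₗ π, ι ∘ₗ G ∘ₗ π, J, Ξ, β, g₀, γ, h0,
    ⟨hg₀, fun u v => ?_, fun z => ?_, fun u v => ?_, fun z => ?_, fun z => ?_⟩, hγ, fun z => ?_, hβ, h5, h6, h7,
    h8, ?_, ?_, fun z => ?_, LinearMap.ext fun z => ?_, LinearMap.ext fun z => ?_, h12, h13⟩⟩ <;>
    try simp only [LinearMap.comp_apply]
  · rw [← iπ', iπ]
  · rw [πι]
  · rw [← iπ', ← iπ, h1]
  · rw [πι]
  · rw [← iπ, nι]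
    exact h2 _
  · rw [← Bπ, h3, nι]
  · have := dwd_skew 𝔤 σ 1 (f := fun v => (t * 1) • v) (x := x₀) (by fun_prop) fun u v => by
      simp [fderiv_csmul, real_inner_smul_left, real_inner_smul_right]
    rw [one_smul] at this
    rw [← h9, eq_sub_iff_add_eq, AT, ← this]
    refine LinearMap.ext fun v => ?_
    simp only [LinearMap.adjoint_comp, hπ, LinearMap.comp_apply, LinearMap.sub_apply, Bπ]
    congr 2
    refine ext_inner_right ℝ fun z => ?_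
    rw [← iπ', iπ, LinearMap.adjoint_inner_left, LinearMap.adjoint_inner_left, Bπ]
    rfl
  · rw [h10, LinearMap.trace_comp_comm']
    congr 2
    exact LinearMap.ext fun y => by simp [πι]
  · rw [h11, Bπ]
  · rw [← ιA, πA]
  · rw [← ιA, h4, πA]

theorem exists_split {U V : Type} [NormedAddCommGroup V] [InnerProductSpace ℝ V] [FiniteDimensional ℝ V]
    [AddCommGroup U] [Module ℝ U] (g : U →ₗ[ℝ] V) (hg : Function.Injective g) :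
    (∀ y, LinearMap.adjoint (LinearMap.range g)ᗮ.subtype ((LinearMap.range g)ᗮ.subtype y) = y) ∧
    (∀ y ξ, ⟪g ξ, (LinearMap.range g)ᗮ.subtype y⟫_ℝ = 0) ∧ ∃ β : V →ₗ[ℝ] U, (∀ ξ, β (g ξ) = ξ) ∧
      ∀ z, z - (LinearMap.range g)ᗮ.subtype (LinearMap.adjoint (LinearMap.range g)ᗮ.subtype z) = g (β z) := by
  have og : ∀ y ξ, ⟪g ξ, (LinearMap.range g)ᗮ.subtype y⟫_ℝ = 0 := fun y ξ => y.2 _ ⟨ξ, rfl⟩
  obtain ⟨l, hl⟩ := g.exists_leftInverse_of_injective (LinearMap.ker_eq_bot.2 hg)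
  replace hl : ∀ ξ, l (g ξ) = ξ := LinearMap.congr_fun hl
  refine ⟨fun y => ext_inner_right ℝ fun y' => LinearMap.adjoint_inner_left _ _ _, og,
    l ∘ₗ (LinearMap.id - (LinearMap.range g)ᗮ.subtype ∘ₗ LinearMap.adjoint (LinearMap.range g)ᗮ.subtype),
    fun ξ => ?_, fun z => ?_⟩
  · have : LinearMap.adjoint (LinearMap.range g)ᗮ.subtype (g ξ) = 0 := ext_inner_right ℝ fun y => by
      rw [LinearMap.adjoint_inner_left, og, inner_zero_left]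
    simp [this, hl]
  · have : z - (LinearMap.range g)ᗮ.subtype (LinearMap.adjoint (LinearMap.range g)ᗮ.subtype z) ∈
        (LinearMap.range g)ᗮᗮ := fun y hy => by
      have := LinearMap.adjoint_inner_right (LinearMap.range g)ᗮ.subtype ⟨y, hy⟩ z
      rw [inner_sub_right]
      exact sub_eq_zero.2 this.symm
    obtain ⟨ξ, hξ⟩ := (Submodule.orthogonal_orthogonal (LinearMap.range g)).le this
    simp only [LinearMap.comp_apply, LinearMap.sub_apply, LinearMap.id_apply]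
    rw [← hξ, hl]

theorem exists_quad {σ : Spn} {t : ℝ} {x₀ : X E} (h0 : wl 𝔤 σ t 1 x₀ = 0)
    (hfree : Function.Injective (gau 𝔤 x₀))
    (hinj : ∀ y : X E, (∀ ξ, ⟪y, gau 𝔤 x₀ ξ⟫_ℝ = 0) → Bl 𝔤 σ t x₀ y = 0 → y = 0)
    (hker : trf ind0 (AT 𝔤 σ (x₀ 8)) = 2 * (trf ind0 (AX 𝔤 (x₀ 8)) - trf ind0 (𝔤.br (x₀ 8))))
    (htr : trf Real.sqrt (AT 𝔤 σ (x₀ 8)) =
      2 * (trf Real.sqrt (AX 𝔤 (x₀ 8)) - trf Real.sqrt (𝔤.br (x₀ 8)))) :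
    Nonempty (Quad 𝔤 σ t x₀) := by
  obtain ⟨h1, h2, β, h3, h4⟩ := exists_split (gau 𝔤 x₀) hfree
  exact quad_of_split h0 hinj hker htr _ _ rfl h1 h2 β h3 h4

end Crest.Agent.R330

end
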