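import Crest.Agent.R330.L.Defs

/-! # Row 330, L/Spin: spinor identities (owner helper74; statements frozen, plan in `L/Defs.lean`) -/

set_option autoImplicit false
set_option linter.unusedSectionVars false
set_option linter.unusedVariables false

noncomputable section

open MeasureTheory Filter Topology Set Metric
open scoped InnerProductSpace ContDiff Matrix
open Crest.MathPhysics.MatrixQM (GammaNine)

namespace Crest.Agent.R330

variable {E F : Type} [NormedAddCommGroup E] [InnerProductSpace ℝ E] [FiniteDimensional ℝ E]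
  [MeasurableSpace E] [BorelSpace E]
  [NormedAddCommGroup F] [InnerProductSpace ℂ F] [FiniteDimensional ℂ F]
  {K : Type} [Group K] [TopologicalSpace K] [IsTopologicalGroup K]
  [CompactSpace K] [MeasurableSpace K] [BorelSpace K] {𝔤 : Lie E}

theorem zp_apply (x : X E) (i : Fin 9) : zp x i = if i = 8 then 0 else x i := by
  simp only [mat_apply, Matrix.sub_apply, Matrix.one_apply, Matrix.single_apply, sub_smul, ite_smul,
    one_smul, zero_smul, Finset.sum_sub_distrib, Finset.sum_ite_eq, Finset.mem_univ, if_true]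
  by_cases hi : i = 8
  · subst hi
    simp
  · simp [hi, Ne.symm hi]

theorem wpot_split (σ : Spn) (x : X E) :
    wpot 𝔤 σ.G σ.s x = wpot 𝔤 σ.G σ.s (zp x) - cmap σ.G σ.s (lift 9 (𝔤.br (x 8)) x) := by
  have e : ∀ i j, tens ((σ.G.γ i * σ.G.γ j) *ᵥ σ.s) (𝔤.br (x i) (x j)) =
      tens ((σ.G.γ i * σ.G.γ j) *ᵥ σ.s) (𝔤.br (zp x i) (zp x j)) -
        (if i = 8 then tens (σ.G.γ j *ᵥ σ.s) (𝔤.br (x 8) (x j)) else 0) -
        (if j = 8 then tens (σ.G.γ i *ᵥ σ.s) (𝔤.br (x 8) (x i)) else 0) := fun i j => by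
    rw [zp_apply, zp_apply]
    by_cases hi : i = 8 <;> by_cases hj : j = 8
    · simp [hi, hj, da_br_self, da_tens_zero']
    · subst hi
      rw [da_swap σ.G j 8, if_neg hj, zero_smul, zero_sub, Matrix.neg_mulVec, ← Matrix.mulVec_mulVec, σ.h8]
      simp [hj, da_tens_zero', da_tens_neg]
    · subst hj
      rw [← Matrix.mulVec_mulVec, σ.h8, 𝔤.anti (x i)]
      simp [hi, da_tens_zero', da_tens_neg']
    · simp [hi, hj]
  rw [wpot, wpot, da_cmap]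
  simp only [e, Finset.sum_sub_distrib, Finset.sum_ite_irrel, Finset.sum_ite_eq', Finset.mem_univ, if_true,
    Finset.sum_const_zero, lift_apply]
  module

theorem Spn.h37 (σ : Spn) : (σ.G.γ 3 * σ.G.γ 7) *ᵥ σ.s = -((σ.G.γ 2 * σ.G.γ 6) *ᵥ σ.s) := by
  have := congrArg ((σ.G.γ 3 * σ.G.γ 6) *ᵥ ·) (σ.h67.trans σ.h23.symm)
  simp (disch := decide) only [Matrix.mulVec_mulVec, mul_assoc, a2b_sw, a2b_sw', a2b_sq, a2b_sq', mul_neg,
    neg_neg, Matrix.neg_mulVec] at this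
  exact this

theorem Spn.h36 (σ : Spn) : (σ.G.γ 3 * σ.G.γ 6) *ᵥ σ.s = (σ.G.γ 2 * σ.G.γ 7) *ᵥ σ.s := by
  have := congrArg ((σ.G.γ 3 * σ.G.γ 7) *ᵥ ·) (σ.h67.trans σ.h23.symm)
  simp (disch := decide) only [Matrix.mulVec_mulVec, mul_assoc, a2b_sw, a2b_sw', a2b_sq, a2b_sq', mul_neg,
    neg_neg, Matrix.neg_mulVec, mul_one, neg_inj] at this
  exact this

theorem tens_add' {n : ℕ} (u : Fin n → ℝ) (a b : E) : tens u (a + b) = tens u a + tens u b :=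
  (da_tensL u).map_add a b

theorem tens_sub' {n : ℕ} (u : Fin n → ℝ) (a b : E) : tens u (a - b) = tens u a - tens u b :=
  (da_tensL u).map_sub a b

theorem tens_smul' {n : ℕ} (u : Fin n → ℝ) (r : ℝ) (a : E) : tens u (r • a) = r • tens u a :=
  (da_tensL u).map_smul r a

/-- `γ³γ⁷ s = -γ²γ⁶ s`, `γ³γ⁶ s = γ²γ⁷ s`. -/
theorem wpot_four (σ : Spn) {x : X E} (h0 : x 0 = 0) (h1 : x 1 = 0) (h4 : x 4 = 0) (h5 : x 5 = 0)
    (h8 : x 8 = 0) :
    wpot 𝔤 σ.G σ.s x = tens σ.s' (𝔤.br (x 2) (x 3) + 𝔤.br (x 6) (x 7)) +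
      tens ((σ.G.γ 2 * σ.G.γ 6) *ᵥ σ.s) (𝔤.br (x 2) (x 6) - 𝔤.br (x 3) (x 7)) +
      tens ((σ.G.γ 2 * σ.G.γ 7) *ᵥ σ.s) (𝔤.br (x 2) (x 7) + 𝔤.br (x 3) (x 6)) := by
  rw [wpot]
  simp only [db_sum9, h0, h1, h4, h5, h8, map_zero, LinearMap.zero_apply, da_tens_zero', da_br_self,
    add_zero, zero_add]
  rw [𝔤.anti (x 3) (x 2), 𝔤.anti (x 6) (x 2), 𝔤.anti (x 6) (x 3), 𝔤.anti (x 7) (x 2),
    𝔤.anti (x 7) (x 3), 𝔤.anti (x 7) (x 6)]
  simp (disch := decide) only [a2b_sw, Matrix.neg_mulVec, da_tens_neg, da_tens_neg', neg_neg, σ.h23, σ.h67,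
    σ.h37, σ.h36, tens_add', tens_sub', Spn.s']
  module

theorem gg_dot (G : GammaNine) {u : Fin 16 → ℝ} (hu : u ⬝ᵥ u = 1) (i j k : Fin 9) :
    ((G.γ i * G.γ j) *ᵥ u) ⬝ᵥ ((G.γ i * G.γ k) *ᵥ u) = if j = k then 1 else 0 := by
  rw [← Matrix.mulVec_mulVec, a2b_dot, Matrix.mulVec_mulVec, a2b_sq', da_orth G hu]

/-- The three spinors are orthonormal. -/
theorem tens_three_eq_zero (σ : Spn) {a b c : E}
    (h : tens σ.s' a + tens ((σ.G.γ 2 * σ.G.γ 6) *ᵥ σ.s) b + tens ((σ.G.γ 2 * σ.G.γ 7) *ᵥ σ.s) c = 0) :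
    a = 0 ∧ b = 0 ∧ c = 0 := by
  rw [Spn.s', ← σ.h23] at h
  have := fun (k : Fin 9) (e : E) => congrArg (⟪tens ((σ.G.γ 2 * σ.G.γ k) *ᵥ σ.s) e, ·⟫_ℝ) h
  simp only [inner_add_right, inner_tens, gg_dot σ.G σ.unit, inner_zero_right] at this
  exact ⟨by simpa using this 3 a, by simpa using this 6 b, by simpa using this 7 c⟩

theorem cmap_AX (σ : Spn) (φ : E) : cmap σ.G σ.s ∘ₗ AX 𝔤 φ = AT 𝔤 σ φ ∘ₗ cmap σ.G σ.s := by
  rw [AX, AT, LinearMap.comp_sub, LinearMap.sub_comp, ga_cmap_rot σ.G V0_skew σ.sig_s, cmap, mat_lift]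

theorem fderiv_wpot_ga (G : GammaNine) (u : Fin 16 → ℝ) (x z : X E) :
    fderiv ℝ (wpot 𝔤 G u) x z = ga_B 𝔤 G u x z + ga_B 𝔤 G u z x := by
  rw [da_fderiv, da_B_apply, da_B_apply]
  rfl

/-- Infinitesimal gauge invariance of the polarised potential (Jacobi). -/
theorem fderiv_wpot_br (σ : Spn) (ξ : E) (x z : X E) :
    fderiv ℝ (wpot 𝔤 σ.G σ.s) (lift 9 (𝔤.br ξ) x) z + fderiv ℝ (wpot 𝔤 σ.G σ.s) x (lift 9 (𝔤.br ξ) z) =
      lift 16 (𝔤.br ξ) (fderiv ℝ (wpot 𝔤 σ.G σ.s) x z) := by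
  simp only [fderiv_wpot_ga, map_add, ga_B_gauge]
  abel

/-- Infinitesimal rotation invariance of the polarised potential (`sig_comm`, `sig_s`). -/
theorem fderiv_wpot_V0 (σ : Spn) (x z : X E) :
    fderiv ℝ (wpot 𝔤 σ.G σ.s) (mat V0 x) z + fderiv ℝ (wpot 𝔤 σ.G σ.s) x (mat V0 z) =
      mat (sig σ.G V0) (fderiv ℝ (wpot 𝔤 σ.G σ.s) x z) := by
  simp only [fderiv_wpot_ga, map_add, ga_B_rot 𝔤 σ.G V0_skew σ.sig_s]
  abel

theorem isSkew_ml {n : ℕ} {V : Matrix (Fin n) (Fin n) ℝ} (hV : Vᵀ = -V) (φ : E) :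
    IsSkew (mat V - lift n (𝔤.br φ)) := fun u v => by
  simp only [LinearMap.sub_apply, inner_sub_left, inner_sub_right]
  rw [isSkew_mat hV, isSkew_lift (𝔤.isSkew_br φ)]
  ring

theorem isSkew_AX (φ : E) : IsSkew (AX 𝔤 φ) := isSkew_ml V0_skew φ

theorem isSkew_AT (σ : Spn) (φ : E) : IsSkew (AT 𝔤 σ φ) := isSkew_ml (sig_skew σ.G V0_skew) φ

end Crest.Agent.R330

end
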