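import Crest.Agent.R330.L.Quad
import Crest.Agent.R330.L.Spin

/-! # Row 330, L/Tr: traces of the unbroken generator (owner helper74; statements frozen, plan in `L/Defs.lean`) -/

set_option autoImplicit false
set_option linter.unusedSectionVars false
set_option linter.unusedVariables false

noncomputable section

open MeasureTheory Filter Topology Set Metric
open scoped InnerProductSpace ContDiff Matrix
open Crest.MathPhysics.MatrixQM (GammaNine)

namespace Crest.Agent.R330

variable {E F : Type} [NormedAddCommGroup E] [InnerProductSpace ℝ E] [FiniteDimensional ℝ E]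
  [MeasurableSpace E] [BorelSpace E]
  [NormedAddCommGroup F] [InnerProductSpace ℂ F] [FiniteDimensional ℂ F]
  {K : Type} [Group K] [TopologicalSpace K] [IsTopologicalGroup K]
  [CompactSpace K] [MeasurableSpace K] [BorelSpace K] {𝔤 : Lie E}

open L1B

theorem trf_spec {n N : ℕ} {τ : Type} [Fintype τ] [DecidableEq τ] (S : Spec n τ) (hN : 0 < N)
    (M : MatSys N 𝔤) {φ : E} {u : Fin N → ℝ} (hφ : M.m φ = Matrix.diagonal fun a => (u a : ℂ))
    {V : Matrix (Fin n) (Fin n) ℝ} (hV : Vᵀ = -V) {lam : τ → ℝ} (hb : ∀ t, lam (S.bar t) = -lam t)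
    (hE : S.Eig V fun t => Complex.I * lam t) (f : ℝ → ℝ) :
    trf f (mat V - lift n (𝔤.br φ)) =
      (∑ a, ∑ b, ∑ t, f ((u a - u b - lam t) ^ 2)) - ∑ t, f (lam t ^ 2) := by
  obtain ⟨G, hG, htr⟩ := exists_op M S hN (fun o => f ((u o.2.1 - u o.2.2 - lam o.1) ^ 2))
    (fun t a b => by simp only [hb]; congr 1; ring) (fun t => f (lam t ^ 2)) fun t a => by simp
  have hs := (isSkew_ml (𝔤 := 𝔤) hV φ).nsq_symm
  have h1 : ∀ x o, cp M S ((mat V - lift n (𝔤.br φ) : T n E →ₗ[ℝ] T n E) x) o =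
      (-Complex.I * ((u o.2.1 - u o.2.2 - lam o.1 : ℝ) : ℂ)) • cp M S x o := fun x o => by
    rw [LinearMap.sub_apply, cp_sub, cp_mat hE, cp_br hφ, ← sub_smul]
    congr 1
    push_cast
    ring
  rw [trf, ext_eig hs (L := fc f _) (L' := G) fun v μ hv => ?_, htr, sum_om]
  rw [fc_eig _ hs hv, ← sub_eq_zero, ← norm_eq_zero, ← sq_eq_zero_iff, norm_cp M S]
  refine Finset.sum_eq_zero fun o _ => ?_
  have h2 := congrArg (fun x => cp M S x o) hv
  simp only [LinearMap.neg_apply, LinearMap.comp_apply] at h2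
  rw [← neg_one_smul ℝ, cp_smul, cp_smul, h1, h1, smul_smul, smul_smul, ← sub_eq_zero, ← sub_smul,
    smul_eq_zero] at h2
  rw [cp_sub, cp_smul, hG]
  rcases h2 with h2 | h2
  · have : μ = (u o.2.1 - u o.2.2 - lam o.1) ^ 2 := by
      apply Complex.ofReal_injective
      rw [← sub_eq_zero.1 h2]
      push_cast
      linear_combination (-(u o.2.1 - u o.2.2 - lam o.1 : ℂ) ^ 2) * Complex.I_mul_I
    simp [this]
  · simp [h2]

theorem trf_AX (φ : E) (f : ℝ → ℝ) :
    trf f (AX 𝔤 φ) = trf f (mat V8 - lift 8 (𝔤.br φ)) + trf f (𝔤.br φ) := by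
  let π : X E →ₗ[ℝ] T 8 E := ⟨⟨fun x => WithLp.toLp 2 fun i => x i.castSucc, fun x y => rfl⟩, fun r x => rfl⟩
  let ι : E →ₗ[ℝ] X E := ⟨⟨fun v => asm8 0 v, fun p q => ext9 (fun i => by simp) (by simp)⟩,
    fun r p => ext9 (fun i => by simp) (by simp)⟩
  have hV8 : V8ᵀ = -V8 := by
    ext i j
    exact congrFun (congrFun V0_skew i.castSucc) j.castSucc
  have hs := (isSkew_AX (𝔤 := 𝔤) φ).nsq_symm
  have h1 := trace_fc_proj f hs (isSkew_ml (𝔤 := 𝔤) hV8 φ).nsq_symm inc π
    (LinearMap.ext fun x => by ext i; simp [π, inc]) (nsq_intertwine (LinearMap.ext fun Z =>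
      ext9 (fun i => by simp [inc, AX, mat, lift, sum9, V8]) (by simp [inc, AX, mat, lift, V0_row])))
  have h2 := trace_fc_proj f hs (𝔤.isSkew_br φ).nsq_symm ι (ga_proj 8)
    (LinearMap.ext fun x => rfl) (by
      have := nsq_intertwine (A := -𝔤.br φ) (A' := AX 𝔤 φ) (L := ι) (LinearMap.ext fun Z =>
        ext9 (fun i => by simp [ι, AX, mat, lift, sum9, V0_row])
          (by simp [ι, AX, mat, lift, V0_row]))
      simpa only [LinearMap.neg_comp, LinearMap.comp_neg, neg_neg] using this)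
  rw [trf, trf, trf, ← h1, ← h2, ← map_add, ← LinearMap.comp_add]
  congr 1
  refine LinearMap.ext fun x => ?_
  rw [LinearMap.comp_apply]
  congr 1
  exact ext9 (fun i => by simp [ι, π, inc]) (by simp [ι, π, inc, ga_proj_apply])

theorem chain_sub {N : ℕ} (a b : Fin N) : chain N a - chain N b = 4 * (((b : ℕ) : ℝ) - (a : ℕ)) := by
  simp only [chain]
  ring

theorem cnt_odd {N : ℕ} (a b : Fin N) (k : ℤ) : ind0 ((chain N a - chain N b - (4 * k + 2)) ^ 2) = 0 := by
  rw [ind0, if_neg]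
  rw [sq_eq_zero_iff, chain_sub]
  intro h
  have : (4 * ((b : ℕ) - (a : ℕ)) - (4 * k + 2) : ℤ) = 0 := by exact_mod_cast h
  omega

theorem cnt_zero (N : ℕ) : ∑ a, ∑ b, ind0 ((chain N a - chain N b - 0) ^ 2) = N := by
  have : ∀ a b : Fin N, ind0 ((chain N a - chain N b - 0) ^ 2) = if a = b then 1 else 0 := fun a b => by
    rw [ind0, chain_sub]
    refine if_congr ?_ rfl rfl
    rw [sq_eq_zero_iff, sub_zero, mul_eq_zero, sub_eq_zero, Nat.cast_inj, Fin.val_inj, eq_comm (a := b)]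
    simp
  simp only [this]
  simp

theorem cnt_four {N : ℕ} (hN : 1 ≤ N) : ∑ a, ∑ b, ind0 ((chain N a - chain N b - 4) ^ 2) = N - 1 := by
  have : ∀ a b : Fin N, ind0 ((chain N a - chain N b - 4) ^ 2) =
      if (b : ℕ) = a + 1 then 1 else 0 := fun a b => by
    rw [ind0, chain_sub]
    refine if_congr ?_ rfl rfl
    rw [sq_eq_zero_iff]
    constructor
    · intro h
      have : (4 * ((b : ℕ) - (a : ℕ)) - 4 : ℤ) = 0 := by exact_mod_cast h
      omega
    · intro h
      simp [h]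
  simp only [this]
  obtain ⟨n, rfl⟩ := Nat.exists_eq_add_of_le' hN
  rw [Fin.sum_univ_castSucc, Finset.sum_eq_zero (s := Finset.univ) (fun b _ => if_neg (by simp; omega))]
  have : ∀ i : Fin n, ∑ b : Fin (n + 1), (if (b : ℕ) = (i.castSucc : ℕ) + 1 then (1 : ℝ) else 0) = 1 :=
    fun i => by
      rw [Finset.sum_eq_single i.succ (fun b _ hb => if_neg fun h => hb (Fin.ext (by simpa using h)))
        (by simp)]
      simp
  simp only [this]
  simp

theorem trf_chain {N : ℕ} (hN : 1 ≤ N) (M : MatSys N 𝔤) (σ : Spn) {φ : E} (hφ : M.m φ = dch N) :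
    trf ind0 (AT 𝔤 σ φ) = 2 * (trf ind0 (AX 𝔤 φ) - trf ind0 (𝔤.br φ)) ∧
      trf Real.sqrt (AT 𝔤 σ φ) = 2 * (trf Real.sqrt (AX 𝔤 φ) - trf Real.sqrt (𝔤.br φ)) := by
  obtain ⟨S, lam, χ, hb, -, -, hE, hs⟩ := exists_specF σ
  obtain ⟨S', lam', s, hb', -, hE', -, hs'⟩ := exists_specB
  have hV8 : V8ᵀ = -V8 := by
    ext i j
    exact congrFun (congrFun V0_skew i.castSucc) j.castSucc
  simp only [trf_AX, AT, add_sub_cancel_right, trf_spec S hN M hφ (sig_skew σ.G V0_skew) hb hE,
    trf_spec S' hN M hφ hV8 hb' hE']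
  constructor
  · simp only [fun a b => hs fun r => ind0 ((chain N a - chain N b - r) ^ 2),
      fun a b => hs' fun r => ind0 ((chain N a - chain N b - r) ^ 2), hs fun r => ind0 (r ^ 2),
      hs' fun r => ind0 (r ^ 2)]
    have e1 := fun a b : Fin N => cnt_odd a b 0
    have e2 := fun a b : Fin N => cnt_odd a b 1
    have e3 := fun a b : Fin N => cnt_odd a b (-1)
    have e4 := fun a b : Fin N => cnt_odd a b (-2)
    have e5 : ∑ a, ∑ b, ind0 ((chain N a - chain N b - -4) ^ 2) = N - 1 := by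
      rw [← cnt_four hN, Finset.sum_comm]
      refine Finset.sum_congr rfl fun a _ => Finset.sum_congr rfl fun b _ => ?_
      congr 1
      ring
    norm_num only [Int.cast_zero, Int.cast_one, Int.cast_neg, Int.cast_ofNat] at e1 e2 e3 e4
    simp only [e1, e2, e3, e4, Finset.sum_add_distrib, ← Finset.mul_sum, cnt_zero, cnt_four hN, e5]
    norm_num [ind0]
    ring
  · simp only [fun a b => hs fun r => √((chain N a - chain N b - r) ^ 2),
      fun a b => hs' fun r => √((chain N a - chain N b - r) ^ 2), hs fun r => √(r ^ 2),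
      hs' fun r => √(r ^ 2)]
    simp only [Real.sqrt_sq_eq_abs]
    have := Ecoul_chain hN
    rw [Ecoul_eq, TB, TF] at this
    simp only [mul_one, sub_neg_eq_add, sub_zero, Finset.sum_add_distrib, ← Finset.mul_sum] at this ⊢
    norm_num only [abs_zero, abs_neg, Nat.abs_ofNat]
    linarith

end Crest.Agent.R330

end
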