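import Crest.Agent.R330.L.Dict
import Crest.Agent.R330.L.Tr
import Crest.Agent.R330.L.MkQuad

/-! # Row 330, L/Class: the classical vacuum (owner helper74; statements frozen, plan in `L/Defs.lean`) -/

set_option autoImplicit false
set_option linter.unusedSectionVars false
set_option linter.unusedVariables false

noncomputable section

open MeasureTheory Filter Topology Set Metric
open scoped InnerProductSpace ContDiff Matrix
open Crest.MathPhysics.MatrixQM (GammaNine)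

namespace Crest.Agent.R330

variable {E F : Type} [NormedAddCommGroup E] [InnerProductSpace ℝ E] [FiniteDimensional ℝ E]
  [MeasurableSpace E] [BorelSpace E]
  [NormedAddCommGroup F] [InnerProductSpace ℂ F] [FiniteDimensional ℂ F]
  {K : Type} [Group K] [TopologicalSpace K] [IsTopologicalGroup K]
  [CompactSpace K] [MeasurableSpace K] [BorelSpace K] {𝔤 : Lie E}

variable {N : ℕ} {M : MatSys N 𝔤} {t : ℝ} {x₀ : X E}

theorem cla_herm (N : ℕ) : (dch N).IsHermitian := by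
  unfold dch
  rw [Matrix.isHermitian_diagonal_iff]
  intro a
  exact Complex.conj_ofReal _

theorem cla_lnk_trace (α : Fin N → ℝ) : (lnk α).trace = 0 := by
  simp [Matrix.trace, lnk]

theorem cla_inj (M : MatSys N 𝔤) : Function.Injective M.m := by
  refine (injective_iff_map_eq_zero _).2 fun v hv => ?_
  have := M.inner v v
  rw [hv] at this
  simpa using this

theorem cla_cz_zero (M : MatSys N 𝔤) : M.cz 0 0 = 0 := by simp [MatSys.cz]

theorem cla_cz_act (M : MatSys N 𝔤) (Γ : Grp 𝔤 K) {k : K} {U : Matrix (Fin N) (Fin N) ℂ}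
    (hk : ∀ v, M.m (Γ.act k v) = U * M.m v * star U) (a b : E) :
    M.cz (Γ.act k a) (Γ.act k b) = U * M.cz a b * star U := by
  simp only [MatSys.cz, hk, mul_add, add_mul, Matrix.mul_smul, Matrix.smul_mul]

theorem cla_br_self (v : E) : 𝔤.br v v = 0 := by
  have h := 𝔤.anti v v
  have h2 : (2 : ℝ) • 𝔤.br v v = 0 := by rw [two_smul]; nth_rewrite 1 [h]; simp
  exact (smul_eq_zero.1 h2).resolve_left two_ne_zero

theorem cla_alp (ht : 0 < t) : ∀ a : Fin N, (a : ℕ) + 1 < N → alp N t a ≠ 0 :=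
  fun a ha => (alp_pos ht a ha).ne'

theorem exists_phi0 (M : MatSys N 𝔤) : ∃ φ₀, M.m φ₀ = dch N := by
  exact M.surj _ (cla_herm N) (dch_trace N)

theorem exists_x0 (M : MatSys N 𝔤) (t : ℝ) : ∃ x₀, IsX0 M t x₀ := by
  obtain ⟨φ, hφ⟩ := exists_phi0 M
  obtain ⟨a, b, hab⟩ := M.cz_surj (cla_lnk_trace (alp N t))
  exact ⟨WithLp.toLp 2 ![0, 0, a, b, 0, 0, 0, 0, φ], hφ, hab, rfl, rfl, rfl, rfl, rfl, rfl⟩

theorem IsX0.zero (h : IsX0 M t x₀) (ht : 0 < t) (σ : Spn) : wl 𝔤 σ t 1 x₀ = 0 := by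
  have h23 : M.cz (x₀ 2) (x₀ 3) = lnk (alp N t) := h.h23
  rw [M.wl_eq_zero_iff σ t h.h0 h.h1 h.h4 h.h5, M.AX_eq_zero_iff, h.h0, h.h1, h.h4, h.h5, h.h6, h.h7, h23,
    cla_cz_zero, h.h8]
  refine ⟨⟨by simp, dch_lnk _, by simp, by simp, cla_br_self _⟩, by simp, ?_⟩
  rw [lnk_D N ht]
  simp

theorem IsX0.free (h : IsX0 M t x₀) (ht : 0 < t) (Γ : Grp 𝔤 K) (k : K) (hk : Γ.ax k x₀ = x₀) (v : E) :
    Γ.act k v = v := by
  obtain ⟨u, hu⟩ := M.exists_unitary Γ k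
  have e : ∀ i, Γ.act k (x₀ i) = x₀ i := fun i => by rw [← Γ.ub_apply, hk]
  have h23 : M.cz (x₀ 2) (x₀ 3) = lnk (alp N t) := h.h23
  have h1 := hu (x₀ 8)
  have h2 := cla_cz_act M Γ hu (x₀ 2) (x₀ 3)
  rw [e, h.h8] at h1
  rw [e, e, h23] at h2
  have hs : star (u : Matrix (Fin N) (Fin N) ℂ) * u = 1 := u.2.1
  have hs' : (u : Matrix (Fin N) (Fin N) ℂ) * star (u : Matrix (Fin N) (Fin N) ℂ) = 1 := u.2.2
  obtain ⟨c, hc⟩ := commutant (cla_alp ht) (T := (u : Matrix (Fin N) (Fin N) ℂ))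
    (by conv_rhs => rw [h1, mul_assoc, hs, mul_one]) (by conv_rhs => rw [h2, mul_assoc, hs, mul_one])
  apply cla_inj M
  rw [hu]
  have : (u : Matrix (Fin N) (Fin N) ℂ) * M.m v = M.m v * u := by rw [hc]; simp
  rw [this, mul_assoc, hs', mul_one]

theorem IsX0.gau_inj (hN : 1 ≤ N) (h : IsX0 M t x₀) (ht : 0 < t) : Function.Injective (gau 𝔤 x₀) := by
  refine (injective_iff_map_eq_zero _).2 fun ξ hξ => ?_
  have e : ∀ i, M.m ξ * M.m (x₀ i) = M.m (x₀ i) * M.m ξ := fun i => by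
    have h1 : 𝔤.br ξ (x₀ i) = 0 := congrArg (fun y : X E => y i) hξ
    have h2 := M.br ξ (x₀ i)
    rw [h1, map_zero] at h2
    exact sub_eq_zero.1 ((smul_eq_zero.1 h2.symm).resolve_left Complex.I_ne_zero)
  obtain ⟨c, hc⟩ := commutant (cla_alp ht) (T := M.m ξ) (by rw [← h.h8]; exact e 8)
    (by rw [← h.h23, mul_add, add_mul, Matrix.mul_smul, Matrix.smul_mul, e, e])
  have h3 := M.traceless ξ
  rw [hc, Matrix.trace_smul, Matrix.trace_one, smul_eq_mul, Fintype.card_fin] at h3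
  have hc0 : c = 0 := (mul_eq_zero.1 h3).resolve_right (by exact_mod_cast (by omega : N ≠ 0))
  apply cla_inj M
  rw [hc, hc0, zero_smul, map_zero]

/-- `cᵀBy = 0` gives `AX y = gau (y 8)`; `AX` preserves the orthogonal complement of the gauge directions
(`AX_gau`), so both vanish; then `two_zero`, `wl_expand`, `wpot_split`, `wpot_four`, `lower_zero`. -/
theorem IsX0.inj (hN : 1 ≤ N) (h : IsX0 M t x₀) (ht : 0 < t) (σ : Spn) (y : X E)
    (hy : ∀ ξ, ⟪y, gau 𝔤 x₀ ξ⟫_ℝ = 0) (hB : Bl 𝔤 σ t x₀ y = 0) : y = 0 := by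
  have h0 := h.zero ht σ
  have cz0 : ∀ {a b : E}, M.cz a b = 0 → a = 0 ∧ b = 0 := fun e => M.cz_inj (e.trans (by simp [MatSys.cz]))
  have e1 := adjoint_cmap_Bl (𝔤 := 𝔤) σ t x₀ y
  rw [hB, map_zero, eq_comm, sub_eq_zero] at e1
  have e2 : gau 𝔤 x₀ (y 8) = 0 := by
    rw [← inner_self_eq_zero (𝕜 := ℝ)]
    nth_rewrite 1 [← e1]
    rw [isSkew_AX, AX_gau h0, inner_neg_right, hy, neg_zero, neg_zero]
  have y8 : y 8 = 0 := h.gau_inj hN ht (e2.trans (map_zero _).symm)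
  rw [e2] at e1
  obtain ⟨a01, a23, a45, a67, -⟩ := (M.AX_eq_zero_iff _ y).1 e1
  rw [h.h8] at a01 a23 a45 a67
  obtain ⟨y0, y1⟩ := cz0 (two_zero (u := chain N) (by simp) (Or.inl rfl) (by simpa [dch] using a01))
  obtain ⟨y4, y5⟩ := cz0 (two_zero (u := chain N) (by simp) (Or.inr rfl) (by simpa [dch] using a45))
  have e3 : wpot 𝔤 σ.G σ.s (zp (x₀ + y)) - wpot 𝔤 σ.G σ.s (zp x₀) - wpot 𝔤 σ.G σ.s y = 0 := by
    have b1 := wpot_add 𝔤 σ.G σ.s x₀ y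
    rw [wpot_split σ (x₀ + y), wpot_split σ x₀, PiLp.add_apply, y8, add_zero, map_add (lift 9 _), map_add (cmap _ _)] at b1
    rw [Bl_apply, y8, smul_zero, da_tens_zero', add_zero, sub_eq_zero.1 e1] at hB
    rw [← hB, ← sub_eq_zero, ← sub_eq_zero.2 b1]
    abel
  rw [wpot_four σ (x := zp (x₀ + y)) (by rw [zp_apply]; simp [h.h0, y0]) (by rw [zp_apply]; simp [h.h1, y1])
      (by rw [zp_apply]; simp [h.h4, y4]) (by rw [zp_apply]; simp [h.h5, y5]) (by rw [zp_apply]; simp),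
    wpot_four σ (x := zp x₀) (by rw [zp_apply]; simp [h.h0]) (by rw [zp_apply]; simp [h.h1])
      (by rw [zp_apply]; simp [h.h4]) (by rw [zp_apply]; simp [h.h5]) (by rw [zp_apply]; simp),
    wpot_four σ y0 y1 y4 y5 y8] at e3
  obtain ⟨d1, f1, f2⟩ := tens_three_eq_zero σ (a := 𝔤.br (x₀ 2) (y 3) + 𝔤.br (y 2) (x₀ 3))
    (b := 𝔤.br (x₀ 2) (y 6) - 𝔤.br (x₀ 3) (y 7)) (c := 𝔤.br (x₀ 2) (y 7) + 𝔤.br (x₀ 3) (y 6)) (by
      rw [← e3]
      simp only [zp_apply, Fin.reduceEq, if_false, PiLp.add_apply, h.h6, h.h7, zero_add, map_add, LinearMap.add_apply,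
        map_zero, sub_zero, add_zero, tens_add', tens_sub', da_tens_zero']
      abel)
  have g1 : 𝔤.br (x₀ 2) (y 2) + 𝔤.br (x₀ 3) (y 3) = 0 := ext_inner_left ℝ fun ξ => by
    have := hy ξ
    rw [gau_apply, real_inner_comm, PiLp.inner_apply, db_sum9] at this
    simpa [y0, y1, y4, y5, y8, h.h6, h.h7, 𝔤.inv, inner_add_right] using this
  have hα : ∀ a : Fin N, (a : ℕ) + 1 < N → alp N t a ≠ 0 := fun a ha => (alp_pos ht a ha).ne'
  have com : ∀ c d : E, 𝔤.br (x₀ 2) c - 𝔤.br (x₀ 3) d = 0 → 𝔤.br (x₀ 2) d + 𝔤.br (x₀ 3) c = 0 →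
      lnk (alp N t) * M.cz c d = M.cz c d * lnk (alp N t) := fun c d b1 b2 => by
    have := M.cz_F (x₀ 2) (x₀ 3) c d
    rw [b1, b2, show M.cz 0 0 = 0 by simp [MatSys.cz], show M.cz (x₀ 2) (x₀ 3) = lnk (alp N t) from h.h23, eq_comm,
      smul_eq_zero, sub_eq_zero] at this
    exact this.resolve_left Complex.I_ne_zero
  obtain ⟨y6, y7⟩ := cz0 (lower_zero hα a67 (com _ _ f1 f2))
  have a23' : dch N * M.cz (y 2) (-y 3) - M.cz (y 2) (-y 3) * dch N = (-4 : ℂ) • M.cz (y 2) (-y 3) := by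
    have := congrArg Matrix.conjTranspose a23
    rw [Matrix.conjTranspose_sub, Matrix.conjTranspose_mul, Matrix.conjTranspose_mul, Matrix.conjTranspose_smul,
      M.cz_conjTranspose, show (dch N)ᴴ = dch N from h.h8 ▸ M.herm (x₀ 8)] at this
    rw [← neg_sub, this, ← neg_smul]
    simp
  obtain ⟨y2, y3⟩ := cz0 (lower_zero hα a23' (com _ _ (by rw [map_neg, sub_neg_eq_add, g1])
    (by rw [map_neg, 𝔤.anti (x₀ 3), ← neg_add, d1, neg_zero])))
  rw [neg_eq_zero] at y3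
  ext i
  fin_cases i <;> assumption

theorem x0_uniq (hN : 2 ≤ N) (M : MatSys N 𝔤) (Γ : Grp 𝔤 K) (σ : Spn) : ∃ r : ℝ, 0 < r ∧
    ∀ (t : ℝ) (x₀ : X E), 0 < t → IsX0 M t x₀ → ∀ x : X E, infDist (x 8) (Γ.orb (x₀ 8)) ≤ r →
      wl 𝔤 σ t 1 x = 0 → ∃ k, Γ.ax k x = x₀ := by
  obtain ⟨r, hr, hr2, H⟩ := zero_matrix hN
  refine ⟨r, hr, fun t x₀ ht h x hx hw => ?_⟩
  obtain ⟨k, u, hk, hu0, hu⟩ := M.diag_near Γ h.h8 (x 8)
  have hur : ∑ a, (u a - chain N a) ^ 2 ≤ r ^ 2 := hu.trans (pow_le_pow_left₀ infDist_nonneg hx 2)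
  have hu4 : ∑ a, (u a - chain N a) ^ 2 ≤ 1 / 4 := hur.trans (by nlinarith)
  set y := Γ.ax k x with hy
  have hy8 : M.m (y 8) = Matrix.diagonal (fun a => (u a : ℂ)) := hk
  have hwy : wl 𝔤 σ t 1 y = 0 := by rw [← norm_eq_zero, hy, norm_wl_ax, hw, norm_zero]
  obtain ⟨a1, a2, a3, a4, -⟩ := (M.AX_eq_zero_iff _ _).1 (AX_x0 hwy)
  rw [hy8] at a1 a2 a3 a4
  obtain ⟨z0, z1⟩ := M.cz_inj ((two_zero hu4 (Or.inl rfl) (by exact_mod_cast a1)).trans (cla_cz_zero M).symm)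
  obtain ⟨z4, z5⟩ := M.cz_inj ((two_zero hu4 (Or.inr rfl) (by exact_mod_cast a3)).trans (cla_cz_zero M).symm)
  obtain ⟨-, b1, b2⟩ := (M.wl_eq_zero_iff σ t z0 z1 z4 z5).1 hwy
  rw [hy8] at b2
  obtain ⟨c1, c2, U, c3, c4⟩ := H t ht u hu0 hur _ _ a2 a4 b1 b2
  obtain ⟨z6, z7⟩ := M.cz_inj (c2.trans (cla_cz_zero M).symm)
  obtain ⟨k', hk'⟩ := M.exists_act Γ U
  have d1 : Γ.act k' (y 8) = x₀ 8 := by
    apply cla_inj M
    rw [hk', hy8, c1, h.h8]
    exact c3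
  have h23 : M.cz (x₀ 2) (x₀ 3) = lnk (alp N t) := h.h23
  obtain ⟨d2, d3⟩ := M.cz_inj ((cla_cz_act M Γ hk' (y 2) (y 3)).trans (c4.trans h23.symm))
  refine ⟨k' * k, ?_⟩
  rw [Γ.ax_mul, ← hy]
  ext i
  rw [Γ.ub_apply]
  fin_cases i
  · exact (congrArg _ z0).trans ((map_zero _).trans h.h0.symm)
  · exact (congrArg _ z1).trans ((map_zero _).trans h.h1.symm)
  · exact d2
  · exact d3
  · exact (congrArg _ z4).trans ((map_zero _).trans h.h4.symm)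
  · exact (congrArg _ z5).trans ((map_zero _).trans h.h5.symm)
  · exact (congrArg _ z6).trans ((map_zero _).trans h.h6.symm)
  · exact (congrArg _ z7).trans ((map_zero _).trans h.h7.symm)
  · exact d1

theorem IsX0.quad (hN : 1 ≤ N) (h : IsX0 M t x₀) (ht : 0 < t) (σ : Spn) :
    Nonempty (Quad 𝔤 σ t x₀) :=
  exists_quad (h.zero ht σ) (h.gau_inj hN ht) (h.inj hN ht σ) (trf_chain hN M σ h.h8).1
    (trf_chain hN M σ h.h8).2

end Crest.Agent.R330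

end
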