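import Crest.Agent.R330.IL1
import Crest.Agent.R330.IU
import Crest.Agent.R330.IFA

/-!
# Row 330, block L: definitions and plan (owner helper74; statements in `R330/L/*.lean` are frozen)

No gauge fixing and no Piola identity.  All scales are those of the unscaled model with `ε = Λ`:
near the chain `f = tΛ·id`, `x = Λx₀ + z`, `w(x) = ΛBz + wpot z` and `𝒴(x) = Λ𝒴₀ + O(|z|)` exactly.
* `Glue`: IMS gluing of a codimension one bound (`Codim`) and a gap (`Gap`); `Codim` + a quasi-mode give a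
  zero mode (parity trick + `duality`).
* `Far`: cut in `φ` at distance `~ ℓΛ` from the chain orbit; `coulomb` outside.
* `Outer`: cut at `|w| ~ ηΛ`; the potential wins outside; inside we are within `1/4` of the orbit `KΛx₀`.
* `Inner`: weight `p = pw P (Λx₀)` (bump of size one at `Λx₀`), `N = avg p` satisfies `m ≤ N ≤ Mm`,
  `|∇N| ≤ CMm` by the doubling property of orbits (`Grp`); `energy_weighted_Qd`, `integral_avg`, then the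
  flat model `local_scaled` (`Loc`: ground state transform + Poincaré); the gradient along the gauge
  directions is `O(1/Λ)` by the Gauss law.
* `QM`: the quasi-mode `∫ρ(k⁻¹)(p e^{-Λh} w)(kx)dk` has energy `O(1)`.
* `Fc`, `Quad`, `MkQuad`, `Tr`, `Spin`, `Class`: linear algebra of the quadratic model, the classical vacuum.
-/

set_option autoImplicit false
set_option linter.unusedSectionVars false
set_option linter.unusedVariables false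

noncomputable section

open MeasureTheory Filter Topology Set Metric
open scoped InnerProductSpace ContDiff Matrix
open Crest.MathPhysics.MatrixQM (GammaNine)

namespace Crest.Agent.R330

section Fc

variable {V : Type} [NormedAddCommGroup V] [InnerProductSpace ℝ V] [FiniteDimensional ℝ V]

open Classical in
/-- Functional calculus of a symmetric map. -/
def fc (f : ℝ → ℝ) (T : V →ₗ[ℝ] V) : V →ₗ[ℝ] V :=
  if h : T.IsSymmetric then (h.eigenvectorBasis rfl).toBasis.constr ℝ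
    (fun i => f (h.eigenvalues rfl i) • h.eigenvectorBasis rfl i) else 0

/-- `tr f(-A²)`. -/
def trf (f : ℝ → ℝ) (A : V →ₗ[ℝ] V) : ℝ := LinearMap.trace ℝ V (fc f (-(A ∘ₗ A)))

/-- Indicator of `0`. -/
def ind0 (μ : ℝ) : ℝ := if μ = 0 then 1 else 0

/-- Oscillator data: an orthogonal projection `P` and a frequency `G > 0` on its range. -/
structure OscL (P G : V →ₗ[ℝ] V) (g₀ : ℝ) : Prop where
  pos : 0 < g₀
  P_symm : P.IsSymmetric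
  P_idem : ∀ z, P (P z) = P z
  G_symm : G.IsSymmetric
  GP : ∀ z, G (P z) = G z
  ge : ∀ z, g₀ * ‖P z‖ ^ 2 ≤ ⟪z, G z⟫_ℝ

/-- Bump: `1` for `‖z‖ ≤ 1/2`, `0` for `‖z‖² ≥ 1/2`. -/
def st (z : V) : ℝ := Real.smoothTransition (2 - 4 * ‖z‖ ^ 2)

/-- The localising weight. -/
def pw (P : V →ₗ[ℝ] V) (x₀ x : V) : ℝ := st (x - x₀ - P (x - x₀)) * st (P (x - x₀))

/-- The scalar part of the quasi-mode. -/
def q0 (P G : V →ₗ[ℝ] V) (Λ : ℝ) (x₀ x : V) : ℝ :=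
  pw P x₀ x * Real.exp (-(Λ / 2) * ⟪x - x₀, G (x - x₀)⟫_ℝ)

/-- The core of the Gaussian. -/
def Dset (P : V →ₗ[ℝ] V) (Λ : ℝ) : Set V := {z | ‖z - P z‖ ≤ 1 / 8 ∧ Λ * ‖P z‖ ^ 2 ≤ 1 / 64}

end Fc

section Gen

variable {Y Θ F : Type} [NormedAddCommGroup Y] [InnerProductSpace ℝ Y] [FiniteDimensional ℝ Y]
  [MeasurableSpace Y] [BorelSpace Y]
  [NormedAddCommGroup Θ] [InnerProductSpace ℝ Θ] [FiniteDimensional ℝ Θ]
  [NormedAddCommGroup F] [InnerProductSpace ℂ F] [FiniteDimensional ℂ F]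

/-- Gradient along the range of `A`. -/
def gdir (A : Y →ₗ[ℝ] Y) (u : Y → F) (x : Y) : ℝ :=
  ∑ i, ‖fderiv ℝ u x (A (stdOrthonormalBasis ℝ Y i))‖ ^ 2

/-- Energy density of the flat model. -/
def ldens (P G : Y →ₗ[ℝ] Y) (w : F) (γ τ Λ : ℝ) (x₀ : Y) (u : Y → F) (x : Y) : ℝ :=
  (1 / 2 - τ) * gdir P u x + (1 / 2 - τ) * Λ ^ 2 * ‖G (x - x₀)‖ ^ 2 * ‖u x‖ ^ 2 -
    Λ * (LinearMap.trace ℝ Y G / 2) * ‖u x‖ ^ 2 + Λ * γ * (‖u x‖ ^ 2 - ‖⟪w, u x⟫_ℂ‖ ^ 2) +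
    Λ * gdir (LinearMap.id - P) u x

/-- Spectral gap `a` for states supported in `S`. -/
def Gap (𝒮 : Syms Y F) (Q : (Y → F) → Y → F) (S : Set Y) (a : ℝ) : Prop :=
  ∀ ψ, DS 𝒮 ψ → tsupport ψ ⊆ S → a * ∫ x, ‖ψ x‖ ^ 2 ≤ ∫ x, ‖Q ψ x‖ ^ 2

/-- Codimension one lower bound for states supported in `S`. -/
def Codim (𝒮 : Syms Y F) (Q : (Y → F) → Y → F) (S : Set Y) (a : ℝ) : Prop :=
  ∃ t : Y → F, MemLp t 2 volume ∧ ∃ b : ℝ, 0 ≤ b ∧ ∀ ψ, DS 𝒮 ψ → tsupport ψ ⊆ S →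
    a * ∫ x, ‖ψ x‖ ^ 2 ≤ (∫ x, ‖Q ψ x‖ ^ 2) + b * ‖∫ x, ⟪t x, ψ x⟫_ℂ‖ ^ 2

end Gen

section Model

variable {E F : Type} [NormedAddCommGroup E] [InnerProductSpace ℝ E] [FiniteDimensional ℝ E]
  [MeasurableSpace E] [BorelSpace E]
  [NormedAddCommGroup F] [InnerProductSpace ℂ F] [FiniteDimensional ℂ F]
  {K : Type} [Group K] [TopologicalSpace K] [IsTopologicalGroup K]
  [CompactSpace K] [MeasurableSpace K] [BorelSpace K] {𝔤 : Lie E}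

/-- The potential near the chain: `f = tΛ · id`. -/
abbrev wl (𝔤 : Lie E) (σ : Spn) (t Λ : ℝ) : X E → Th E := wd 𝔤 σ Λ fun v => (t * Λ) • v

/-- The supercharge near the chain. -/
abbrev Ql (𝔤 : Lie E) (C : Cl (Th E) F) (σ : Spn) (t Λ : ℝ) : (X E → F) → X E → F :=
  Qd 𝔤 C σ Λ fun v => (t * Λ) • v

/-- The linearised potential. -/
def Bl (𝔤 : Lie E) (σ : Spn) (t : ℝ) (x₀ : X E) : X E →ₗ[ℝ] Th E :=
  (fderiv ℝ (wl 𝔤 σ t 1) x₀).toLinearMap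

/-- The unbroken generator on configurations. -/
def AX (𝔤 : Lie E) (φ : E) : X E →ₗ[ℝ] X E := mat V0 - lift 9 (𝔤.br φ)

/-- The unbroken generator on fermion labels. -/
def AT (𝔤 : Lie E) (σ : Spn) (φ : E) : Th E →ₗ[ℝ] Th E := mat (sig σ.G V0) - lift 16 (𝔤.br φ)

/-- Gauge directions at `x₀`. -/
def gau (𝔤 : Lie E) (x₀ : X E) : E →ₗ[ℝ] X E where
  toFun ξ := lift 9 (𝔤.br ξ) x₀
  map_add' a b := by ext i; simp
  map_smul' r a := by ext i; simp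

/-- Kills the component `8`. -/
abbrev zp (x : X E) : X E := mat (1 - Matrix.single 8 8 1) x

/-- Rotation of the plane. -/
def J2 : Matrix (Fin 2) (Fin 2) ℝ := !![0, -1; 1, 0]

/-- The generator on one plane of weight `r`. -/
def Apl (𝔤 : Lie E) (φ : E) (r : ℝ) : T 2 E →ₗ[ℝ] T 2 E := r • mat J2 - lift 2 (𝔤.br φ)

/-- The quadratic model at a zero `x₀` of the potential. -/
structure Quad (𝔤 : Lie E) (σ : Spn) (t : ℝ) (x₀ : X E) where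
  P : X E →ₗ[ℝ] X E
  G : X E →ₗ[ℝ] X E
  J : Th E →ₗ[ℝ] Th E
  Ξ : Th E →ₗ[ℝ] Th E
  β : X E →ₗ[ℝ] E
  g₀ : ℝ
  γ : ℝ
  zero : wl 𝔤 σ t 1 x₀ = 0
  osc : OscL P G g₀
  γ_pos : 0 < γ
  norm_B : ∀ z, ‖Bl 𝔤 σ t x₀ z‖ = ‖G z‖
  gauge : ∀ z, z - P z = gau 𝔤 x₀ (β z)
  J_cx : IsCx J
  Ξ_symm : ∀ u v, ⟪Ξ u, v⟫_ℝ = ⟪u, Ξ v⟫_ℝ
  ΞJ : Ξ ∘ₗ J = J ∘ₗ Ξ
  Ξ_ge : ∀ v, γ * ‖v‖ ^ 2 ≤ ⟪v, Ξ v⟫_ℝ
  yuk_eq : yuk 𝔤 σ 1 (fun v => (t * 1) • v) x₀ = J ∘ₗ Ξ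
  tr : LinearMap.trace ℝ (Th E) Ξ = 2 * LinearMap.trace ℝ (X E) G
  JcG : ∀ z, J (cmap σ.G σ.s (G z)) = Bl 𝔤 σ t x₀ z
  AP : AX 𝔤 (x₀ 8) ∘ₗ P = P ∘ₗ AX 𝔤 (x₀ 8)
  AG : AX 𝔤 (x₀ 8) ∘ₗ G = G ∘ₗ AX 𝔤 (x₀ 8)
  AJ : AT 𝔤 σ (x₀ 8) ∘ₗ J = J ∘ₗ AT 𝔤 σ (x₀ 8)
  trJA : LinearMap.trace ℝ (Th E) (J ∘ₗ AT 𝔤 σ (x₀ 8)) = 0

/-- Orbit of an element of the Lie algebra. -/
def Grp.orb (Γ : Grp 𝔤 K) (φ : E) : Set E := range fun k => Γ.act k φ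

/-- Measure of the approximate stabiliser. -/
def Grp.mB (Γ : Grp 𝔤 K) (x₀ : X E) : ℝ := Γ.μ.real {k | ‖Γ.ax k x₀ - x₀‖ ≤ 1 / 4}

/-- Measure of the group elements moving `x` into the unit ball at `x₀`. -/
def Grp.mS (Γ : Grp 𝔤 K) (x₀ x : X E) : ℝ := Γ.μ.real {k | ‖Γ.ax k x - x₀‖ ≤ 1}

/-- The inner region. -/
def Grp.Inn (Γ : Grp 𝔤 K) (P : X E →ₗ[ℝ] X E) (x₀ : X E) : Set (X E) :=
  {x | (∃ k, ‖Γ.ax k x - x₀‖ ≤ 1 / 4) ∧ (‖x - x₀‖ ≤ 1 → ‖P (x - x₀)‖ ≤ 1 / 4)}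

/-- Twisted average. -/
def Rep.av {Γ : Grp 𝔤 K} {C : Cl (Th E) F} (ρ : Rep Γ C) (u : X E → F) (x : X E) : F :=
  ∫ k, ρ.ρ k⁻¹ (u (Γ.ax k x)) ∂Γ.μ

/-- The rescaled deformation `tΛ³F̂(v/Λ)`. -/
def Fs (Fh : E → ℝ) (t Λ : ℝ) (v : E) : ℝ := t * Λ ^ 3 * Fh (Λ⁻¹ • v)

/-- Link matrix `Σ α_a E_{a,a+1}`. -/
def lnk {N : ℕ} (α : Fin N → ℝ) : Matrix (Fin N) (Fin N) ℂ :=
  Matrix.of fun a b => if (b : ℕ) = a + 1 then (α a : ℂ) else 0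

/-- The vacuum links `α_a² = 2t Σ_{c ≤ a} u_c`. -/
def alp (N : ℕ) (t : ℝ) (a : Fin N) : ℝ := √(2 * t * ∑ c ∈ Finset.Iic a, chain N c)

/-- The diagonal chain matrix. -/
def dch (N : ℕ) : Matrix (Fin N) (Fin N) ℂ := Matrix.diagonal fun a => (chain N a : ℂ)

/-- The classical vacuum. -/
structure IsX0 {N : ℕ} (M : MatSys N 𝔤) (t : ℝ) (x₀ : X E) : Prop where
  h8 : M.m (x₀ 8) = dch N
  h23 : M.m (x₀ 2) + Complex.I • M.m (x₀ 3) = lnk (alp N t)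
  h0 : x₀ 0 = 0
  h1 : x₀ 1 = 0
  h4 : x₀ 4 = 0
  h5 : x₀ 5 = 0
  h6 : x₀ 6 = 0
  h7 : x₀ 7 = 0

end Model

end Crest.Agent.R330

end
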