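import Crest.Agent.R330.L.Defs

/-! # Row 330, L/Mtx: matrix lemmas for the chain (owner helper74; statements frozen, plan in `L/Defs.lean`) -/

set_option autoImplicit false
set_option linter.unusedSectionVars false
set_option linter.unusedVariables false

noncomputable section

open MeasureTheory Filter Topology Set Metric
open scoped InnerProductSpace ContDiff Matrix
open Crest.MathPhysics.MatrixQM (GammaNine)

namespace Crest.Agent.R330
theorem mtxa_sum {N : ℕ} (a : Fin N) :
    ∑ c ∈ Finset.Iic a, chain N c = 2 * (((a : ℕ) : ℝ) + 1) * ((N : ℝ) - 1 - (a : ℕ)) := by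
  have h1 : ∑ c ∈ Finset.Iic a, chain N c =
      ∑ c ∈ Finset.range ((a : ℕ) + 1), 4 * (((N : ℝ) - 1) / 2 - (c : ℕ)) := by
    rw [Nat.range_succ_eq_Iic, ← Fin.map_valEmbedding_Iic, Finset.sum_map]
    rfl
  rw [h1]
  generalize (a : ℕ) = k
  induction k with
  | zero => simp; ring
  | succ k ih => rw [Finset.sum_range_succ, ih]; push_cast; ring

theorem mtxa_lnk_mul {N : ℕ} (α : Fin N → ℝ) (T : Matrix (Fin N) (Fin N) ℂ) (a b : Fin N) :
    (lnk α * T) a b = if h : (a : ℕ) + 1 < N then (α a : ℂ) * T ⟨a + 1, h⟩ b else 0 := by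
  rw [Matrix.mul_apply]
  split_ifs with h
  · rw [Finset.sum_eq_single ⟨a + 1, h⟩]
    · simp [lnk]
    · intro c _ hc
      have : (c : ℕ) ≠ a + 1 := fun e => hc (Fin.ext e)
      simp [lnk, this]
    · simp
  · refine Finset.sum_eq_zero fun c _ => ?_
    have : (c : ℕ) ≠ a + 1 := fun e => h (e ▸ c.2)
    simp [lnk, this]

theorem mtxa_mul_lnk {N : ℕ} (α : Fin N → ℝ) (T : Matrix (Fin N) (Fin N) ℂ) (a b : Fin N) :
    (T * lnk α) a b = if h : 0 < (b : ℕ) then
      T a ⟨b - 1, by have := b.2; omega⟩ * (α ⟨b - 1, by have := b.2; omega⟩ : ℂ) else 0 := by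
  rw [Matrix.mul_apply]
  split_ifs with h
  · rw [Finset.sum_eq_single ⟨b - 1, by have := b.2; omega⟩]
    · have : (b : ℕ) = b - 1 + 1 := by omega
      simp only [lnk, Matrix.of_apply]
      rw [if_pos this]
    · intro c _ hc
      have : (b : ℕ) ≠ c + 1 := fun e => hc (Fin.ext (by simp; omega))
      simp [lnk, this]
    · simp
  · refine Finset.sum_eq_zero fun c _ => ?_
    have : (b : ℕ) ≠ c + 1 := by omega
    simp [lnk, this]


theorem alp_pos {N : ℕ} {t : ℝ} (ht : 0 < t) (a : Fin N) (ha : (a : ℕ) + 1 < N) : 0 < alp N t a := by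
  unfold alp
  rw [Real.sqrt_pos, mtxa_sum]
  have h : ((a : ℕ) : ℝ) + 1 < N := by exact_mod_cast ha
  have h2 : 0 < (N : ℝ) - 1 - (a : ℕ) := by linarith
  positivity

theorem dch_trace (N : ℕ) : (dch N).trace = 0 := by
  rw [dch, Matrix.trace_diagonal]
  have h : ∑ a, chain N a = 0 := by
    rcases N with _ | n
    · simp
    · have h1 := mtxa_sum (Fin.last n)
      have h2 : Finset.Iic (Fin.last n) = Finset.univ := by
        ext c; simp [Fin.le_last]
      rw [h2] at h1
      rw [h1]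
      simp
  exact_mod_cast h
theorem mtxa_alp_sq {N : ℕ} {t : ℝ} (ht : 0 < t) (a : Fin N) :
    alp N t a * alp N t a = 2 * t * (2 * (((a : ℕ) : ℝ) + 1) * ((N : ℝ) - 1 - (a : ℕ))) := by
  unfold alp
  rw [mtxa_sum, Real.mul_self_sqrt]
  have h : ((a : ℕ) : ℝ) + 1 ≤ N := by exact_mod_cast a.2
  have h2 : 0 ≤ (N : ℝ) - 1 - (a : ℕ) := by linarith
  positivity


theorem lnk_D (N : ℕ) {t : ℝ} (ht : 0 < t) :
    lnk (alp N t) * (lnk (alp N t))ᴴ - (lnk (alp N t))ᴴ * lnk (alp N t) = ((2 * t : ℝ) : ℂ) • dch N := by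
  ext a b
  rw [Matrix.sub_apply, mtxa_lnk_mul, mtxa_mul_lnk]
  simp only [Matrix.conjTranspose_apply, lnk, Matrix.of_apply, Matrix.smul_apply, dch, smul_eq_mul]
  by_cases hab : a = b
  · subst hab
    rw [Matrix.diagonal_apply_eq]
    have e1 : (if h : (a : ℕ) + 1 < N then (alp N t a : ℂ) *
        star (if (a : ℕ) + 1 = a + 1 then (alp N t a : ℂ) else 0) else 0) =
        ((2 * t * (2 * (((a : ℕ) : ℝ) + 1) * ((N : ℝ) - 1 - (a : ℕ))) : ℝ) : ℂ) := by
      split_ifs with h h'
      · rw [Complex.star_def, Complex.conj_ofReal, ← Complex.ofReal_mul, mtxa_alp_sq ht]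
      · exact absurd rfl h'
      · have h1 : N = a + 1 := by have := a.2; omega
        have h2 : (N : ℝ) = (a : ℕ) + 1 := by exact_mod_cast h1
        rw [h2]; simp
    have e2 : (if h : 0 < (a : ℕ) then
        star (if (a : ℕ) = a - 1 + 1 then (alp N t ⟨a - 1, by have := a.2; omega⟩ : ℂ) else 0) *
          (alp N t ⟨a - 1, by have := a.2; omega⟩ : ℂ) else 0) =
        ((2 * t * (2 * ((a : ℕ) : ℝ) * ((N : ℝ) - (a : ℕ))) : ℝ) : ℂ) := by
      split_ifs with h h'
      · rw [Complex.star_def, Complex.conj_ofReal, ← Complex.ofReal_mul, mtxa_alp_sq ht]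
        have h1 : (((a : ℕ) - 1 : ℕ) : ℝ) = (a : ℕ) - 1 := by
          rw [Nat.cast_sub h]; simp
        simp only [h1]
        congr 1
        ring
      · omega
      · have h1 : (a : ℕ) = 0 := by omega
        rw [h1]; simp
    rw [e1, e2]
    unfold chain
    push_cast
    ring
  · have hab' : (a : ℕ) ≠ b := fun e => hab (Fin.ext e)
    rw [Matrix.diagonal_apply_ne _ hab, mul_zero]
    have e1 : (if h : (a : ℕ) + 1 < N then (alp N t a : ℂ) *
        star (if (a : ℕ) + 1 = b + 1 then (alp N t b : ℂ) else 0) else 0) = 0 := by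
      split_ifs with h h'
      · omega
      · simp
      · rfl
    have e2 : (if h : 0 < (b : ℕ) then
        star (if (a : ℕ) = b - 1 + 1 then (alp N t ⟨b - 1, by have := b.2; omega⟩ : ℂ) else 0) *
          (alp N t ⟨b - 1, by have := b.2; omega⟩ : ℂ) else 0) = 0 := by
      split_ifs with h h'
      · omega
      · simp
      · rfl
    rw [e1, e2, sub_zero]

theorem dch_lnk {N : ℕ} (α : Fin N → ℝ) : dch N * lnk α - lnk α * dch N = (4 : ℂ) • lnk α := by
  ext a b
  simp only [dch, Matrix.sub_apply, Matrix.diagonal_mul, Matrix.mul_diagonal, Matrix.smul_apply,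
    smul_eq_mul, lnk, Matrix.of_apply]
  split_ifs with h
  · unfold chain
    rw [h]
    push_cast
    ring
  · simp

theorem commutant {N : ℕ} {α : Fin N → ℝ} (hα : ∀ a : Fin N, (a : ℕ) + 1 < N → α a ≠ 0)
    {T : Matrix (Fin N) (Fin N) ℂ} (h1 : T * dch N = dch N * T) (h2 : T * lnk α = lnk α * T) :
    ∃ c : ℂ, T = c • (1 : Matrix (Fin N) (Fin N) ℂ) := by
  have hd : ∀ a b, a ≠ b → T a b = 0 := by
    intro a b hab
    by_contra h
    have e := congrFun (congrFun h1 a) b
    simp only [dch, Matrix.diagonal_mul, Matrix.mul_diagonal] at e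
    have e2 : (chain N b : ℂ) = chain N a := mul_left_cancel₀ h (by linear_combination e)
    have e3 : chain N b = chain N a := by exact_mod_cast e2
    unfold chain at e3
    have e4 : ((a : ℕ) : ℝ) = (b : ℕ) := by linarith
    exact hab (Fin.ext (by exact_mod_cast e4))
  rcases Nat.eq_zero_or_pos N with rfl | hN
  · exact ⟨0, Subsingleton.elim _ _⟩
  have hs : ∀ k (hk : k < N), T ⟨k, hk⟩ ⟨k, hk⟩ = T ⟨0, hN⟩ ⟨0, hN⟩ := by
    intro k
    induction k with
    | zero => intro _; rfl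
    | succ k ih =>
      intro hk
      rw [← ih (by omega)]
      have e := congrFun (congrFun h2 ⟨k, by omega⟩) ⟨k + 1, hk⟩
      rw [mtxa_lnk_mul, mtxa_mul_lnk, dif_pos (show 0 < k + 1 by omega), dif_pos hk] at e
      simp only [Nat.add_sub_cancel] at e
      have h0 : (α ⟨k, by omega⟩ : ℂ) ≠ 0 := by exact_mod_cast hα ⟨k, by omega⟩ hk
      exact mul_left_cancel₀ h0 (by linear_combination -e)
  refine ⟨T ⟨0, hN⟩ ⟨0, hN⟩, ?_⟩
  ext a b
  by_cases hab : a = b
  · subst hab
    rw [Matrix.smul_apply, Matrix.one_apply_eq, smul_eq_mul, mul_one]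
    exact hs a a.2
  · simp [hd a b hab, Matrix.one_apply_ne hab]

/-- `T` lives on the lower links; the diagonal of `[lnk α, T]` telescopes. -/
theorem lower_zero {N : ℕ} {α : Fin N → ℝ} (hα : ∀ a : Fin N, (a : ℕ) + 1 < N → α a ≠ 0)
    {T : Matrix (Fin N) (Fin N) ℂ} (h1 : dch N * T - T * dch N = (-4 : ℂ) • T)
    (h2 : lnk α * T = T * lnk α) : T = 0 := by
  have hd : ∀ a b, T a b ≠ 0 → (a : ℕ) = b + 1 := by
    intro a b h
    have e := congrFun (congrFun h1 a) b
    simp only [dch, Matrix.sub_apply, Matrix.diagonal_mul, Matrix.mul_diagonal, Matrix.smul_apply,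
      smul_eq_mul] at e
    have e2 : (chain N a : ℂ) - chain N b = -4 := mul_right_cancel₀ h (by linear_combination e)
    have e3 : chain N a - chain N b = -4 := by exact_mod_cast e2
    unfold chain at e3
    have e4 : ((a : ℕ) : ℝ) = (b : ℕ) + 1 := by linarith
    exact_mod_cast e4
  have hs : ∀ k (hk : k + 1 < N), T ⟨k + 1, hk⟩ ⟨k, by omega⟩ = 0 := by
    intro k
    induction k with
    | zero =>
      intro hk
      have e := congrFun (congrFun h2 ⟨0, by omega⟩) ⟨0, by omega⟩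
      rw [mtxa_lnk_mul, mtxa_mul_lnk, dif_pos hk, dif_neg (lt_irrefl 0)] at e
      have h0 : (α ⟨0, by omega⟩ : ℂ) ≠ 0 := by exact_mod_cast hα ⟨0, by omega⟩ hk
      exact (mul_eq_zero.1 e).resolve_left h0
    | succ k ih =>
      intro hk
      have e := congrFun (congrFun h2 ⟨k + 1, by omega⟩) ⟨k + 1, by omega⟩
      rw [mtxa_lnk_mul, mtxa_mul_lnk, dif_pos hk, dif_pos (show 0 < k + 1 by omega)] at e
      simp only [Nat.add_sub_cancel] at e
      rw [ih (by omega), zero_mul] at e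
      have h0 : (α ⟨k + 1, by omega⟩ : ℂ) ≠ 0 := by exact_mod_cast hα ⟨k + 1, by omega⟩ hk
      exact (mul_eq_zero.1 e).resolve_left h0
  ext a b
  by_contra h
  have e := hd a b h
  have hb : (b : ℕ) + 1 < N := e ▸ a.2
  have ea : a = ⟨b + 1, hb⟩ := Fin.ext e
  exact h (by rw [ea]; exact hs b hb)

theorem two_zero {N : ℕ} {u : Fin N → ℝ} (hu : ∑ a, (u a - chain N a) ^ 2 ≤ 1 / 4) {r : ℝ}
    (hr : r = 2 ∨ r = -2) {T : Matrix (Fin N) (Fin N) ℂ}
    (h : (Matrix.diagonal fun a => (u a : ℂ)) * T - T * (Matrix.diagonal fun a => (u a : ℂ)) =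
      (r : ℂ) • T) : T = 0 := by
  have hu' : ∀ a, |u a - chain N a| ≤ 1 / 2 := fun a => abs_le_of_sq_le_sq
    ((Finset.single_le_sum (f := fun a => (u a - chain N a) ^ 2) (fun _ _ => sq_nonneg _)
      (Finset.mem_univ a)).trans (hu.trans (by norm_num))) (by positivity)
  ext a b
  by_contra h0
  have e := congrFun (congrFun h a) b
  simp only [Matrix.sub_apply, Matrix.diagonal_mul, Matrix.mul_diagonal, Matrix.smul_apply,
    smul_eq_mul] at e
  have e2 : (u a : ℂ) - u b = r := mul_right_cancel₀ h0 (by linear_combination e)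
  have e3 : u a - u b = r := by exact_mod_cast e2
  have h1 := abs_le.1 (hu' a)
  have h2 := abs_le.1 (hu' b)
  unfold chain at h1 h2
  rcases hr with rfl | rfl
  · have h3 : ((b : ℕ) : ℝ) < (a : ℕ) + 1 := by linarith
    have h4 : ((a : ℕ) : ℝ) < (b : ℕ) := by linarith
    norm_cast at h3 h4
    omega
  · have h3 : ((a : ℕ) : ℝ) < (b : ℕ) + 1 := by linarith
    have h4 : ((b : ℕ) : ℝ) < (a : ℕ) := by linarith
    norm_cast at h3 h4
    omega

theorem mtxb_tel {N : ℕ} {A : Matrix (Fin N) (Fin N) ℂ} (B : Matrix (Fin N) (Fin N) ℂ)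
    (hA : ∀ c d, A c d ≠ 0 → (d : ℕ) = c + 1) {a b : Fin N} (hab : (b : ℕ) = a + 1) :
    ∑ c ∈ Finset.Iic a, (A * B - B * A) c c = A a b * B b a := by
  have e1 : ∀ g : Fin N → ℂ, ∑ c ∈ Finset.Iic a, g c = ∑ c, if c ≤ a then g c else 0 := fun g => by
    rw [← Finset.sum_filter]
    exact Finset.sum_congr (by ext; simp) fun _ _ => rfl
  simp only [Matrix.sub_apply, Matrix.mul_apply, Finset.sum_sub_distrib]
  rw [Finset.sum_comm (s := Finset.Iic a) (t := Finset.univ) (f := fun c d => B c d * A d c), e1,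
    ← Finset.sum_sub_distrib, Finset.sum_eq_single a, if_pos le_rfl, Finset.sum_eq_single b,
    Finset.sum_eq_zero, sub_zero]
  · intro c hc
    by_contra h
    have := hA _ _ (right_ne_zero_of_mul h)
    have := Fin.le_def.1 (Finset.mem_Iic.1 hc)
    omega
  · intro d _ hd
    by_contra h
    exact hd (Fin.ext ((hA _ _ (left_ne_zero_of_mul h)).trans hab.symm))
  · simp
  · intro c _ hc
    have hc' : (c : ℕ) ≠ a := fun h => hc (Fin.ext h)
    rw [e1, sub_eq_zero]
    split_ifs with h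
    · refine Finset.sum_congr rfl fun d _ => ?_
      by_cases h0 : A c d = 0
      · simp [h0]
      · have := hA _ _ h0
        have h' : (c : ℕ) ≤ a := h
        rw [if_pos (show d ≤ a from Fin.le_def.2 (by omega)), mul_comm]
    · refine (Finset.sum_eq_zero fun d _ => ?_).symm
      by_cases h0 : A c d = 0
      · simp [h0]
      · have := hA _ _ h0
        rw [Fin.le_def] at h
        exact if_neg (by rw [Fin.le_def]; omega)
  · simp

theorem mtxb_sum {N : ℕ} (a : Fin N) (ha : (a : ℕ) + 1 < N) : 1 ≤ ∑ c ∈ Finset.Iic a, chain N c := by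
  have h1 := Real.sqrt_pos.1 (alp_pos one_pos a ha)
  have e : ∑ c ∈ Finset.Iic a, chain N c =
      ((∑ c ∈ Finset.Iic a, (2 * ((N : ℤ) - 1) - 4 * ((c : ℕ) : ℤ)) : ℤ) : ℝ) := by
    push_cast
    exact Finset.sum_congr rfl fun c _ => by unfold chain; ring
  rw [e] at h1 ⊢
  generalize (∑ c ∈ Finset.Iic a, (2 * ((N : ℤ) - 1) - 4 * ((c : ℕ) : ℤ)) : ℤ) = z at *
  have h2 : (0 : ℝ) < z := by linarith
  exact_mod_cast h2

theorem mtxb_link {N : ℕ} {u : Fin N → ℝ} (hu : ∀ a, |u a - chain N a| ≤ 1 / 2) {a b : Fin N}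
    (h : u a - u b = 4) : (b : ℕ) = a + 1 := by
  have h1 := abs_le.1 (hu a)
  have h2 := abs_le.1 (hu b)
  unfold chain at h1 h2
  have h3 : ((b : ℕ) : ℝ) < (a : ℕ) + 2 := by linarith
  have h4 : ((a : ℕ) : ℝ) < (b : ℕ) := by linarith
  norm_cast at h3 h4
  omega

/-- The classical vacuum is unique: `P` lives on upper links `p_a`, `Q` on lower links `q_a`,
`p_a q_a = 0`, `|p_a|² - |q_a|² = 2t Σ_{c ≤ a} u_c > 0`; a diagonal unitary removes the phases. -/
theorem zero_matrix {N : ℕ} (hN : 2 ≤ N) : ∃ r : ℝ, 0 < r ∧ r ≤ 1 / 2 ∧ ∀ t : ℝ, 0 < t →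
    ∀ u : Fin N → ℝ, ∑ a, u a = 0 → ∑ a, (u a - chain N a) ^ 2 ≤ r ^ 2 →
    ∀ P Q : Matrix (Fin N) (Fin N) ℂ,
      (Matrix.diagonal fun a => (u a : ℂ)) * P - P * (Matrix.diagonal fun a => (u a : ℂ)) =
        (4 : ℂ) • P →
      (Matrix.diagonal fun a => (u a : ℂ)) * Q - Q * (Matrix.diagonal fun a => (u a : ℂ)) =
        (-4 : ℂ) • Q →
      P * Q = Q * P →
      P * Pᴴ - Pᴴ * P + (Q * Qᴴ - Qᴴ * Q) = ((2 * t : ℝ) : ℂ) • Matrix.diagonal (fun a => (u a : ℂ)) →
      u = chain N ∧ Q = 0 ∧ ∃ U : Matrix.unitaryGroup (Fin N) ℂ,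
        (U : Matrix (Fin N) (Fin N) ℂ) * dch N * star (U : Matrix (Fin N) (Fin N) ℂ) = dch N ∧
        (U : Matrix (Fin N) (Fin N) ℂ) * P * star (U : Matrix (Fin N) (Fin N) ℂ) = lnk (alp N t) := by
  have hN' : (2 : ℝ) ≤ N := by exact_mod_cast hN
  have hr : 1 / (2 * (N : ℝ)) ≤ 1 / 2 := one_div_le_one_div_of_le two_pos (by linarith)
  refine ⟨1 / (2 * N), by positivity, hr, fun t ht u h0 hu P Q hP hQ hPQ hD => ?_⟩
  have hu' : ∀ a, |u a - chain N a| ≤ 1 / (2 * N) := fun a => abs_le_of_sq_le_sq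
    ((Finset.single_le_sum (f := fun a => (u a - chain N a) ^ 2) (fun _ _ => sq_nonneg _)
      (Finset.mem_univ a)).trans hu) (by positivity)
  have p1 : ∀ a b, P a b ≠ 0 → u a - u b = 4 := fun a b h => by
    have := congrFun (congrFun hP a) b
    simp only [Matrix.sub_apply, Matrix.diagonal_mul, Matrix.mul_diagonal, Matrix.smul_apply,
      smul_eq_mul] at this
    have : ((u a : ℂ) - u b) = 4 := mul_right_cancel₀ h (by linear_combination this)
    exact_mod_cast this
  have p2 : ∀ a b, P a b ≠ 0 → (b : ℕ) = a + 1 := fun a b h =>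
    mtxb_link (fun a => (hu' a).trans hr) (p1 a b h)
  have q2 : ∀ a b, Q b a ≠ 0 → (b : ℕ) = a + 1 := fun a b h => by
    have := congrFun (congrFun hQ b) a
    simp only [Matrix.sub_apply, Matrix.diagonal_mul, Matrix.mul_diagonal, Matrix.smul_apply,
      smul_eq_mul] at this
    have : ((u a : ℂ) - u b) = 4 := mul_right_cancel₀ h (by linear_combination -this)
    exact mtxb_link (fun a => (hu' a).trans hr) (by exact_mod_cast this)
  have k1 : ∀ a b : Fin N, (b : ℕ) = a + 1 → P a b * Q b a = 0 := fun a b hab => by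
    rw [← mtxb_tel Q p2 hab, hPQ, sub_self]
    simp
  have k2 : ∀ a b : Fin N, (b : ℕ) = a + 1 →
      ‖P a b‖ ^ 2 - ‖Q b a‖ ^ 2 = 2 * t * ∑ c ∈ Finset.Iic a, u c := fun a b hab => by
    have e1 := mtxb_tel Pᴴ p2 hab
    have e2 := mtxb_tel (A := Qᴴ) Q (fun c d h => q2 c d (by simpa using h)) hab
    have e3 : ∑ c ∈ Finset.Iic a, (P * Pᴴ - Pᴴ * P) c c - ∑ c ∈ Finset.Iic a, (Qᴴ * Q - Q * Qᴴ) c c =
        ((2 * t * ∑ c ∈ Finset.Iic a, u c : ℝ) : ℂ) := by
      rw [← Finset.sum_sub_distrib, Finset.mul_sum, Complex.ofReal_sum]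
      refine Finset.sum_congr rfl fun c _ => ?_
      have := congrFun (congrFun hD c) c
      simp only [Matrix.sub_apply, Matrix.add_apply, Matrix.smul_apply, Matrix.diagonal_apply_eq,
        smul_eq_mul] at this ⊢
      push_cast at this ⊢
      linear_combination this
    rw [e1, e2, Matrix.conjTranspose_apply, Matrix.conjTranspose_apply, Complex.star_def,
      Complex.mul_conj', Complex.conj_mul'] at e3
    exact_mod_cast e3
  have k3 : ∀ a b : Fin N, (b : ℕ) = a + 1 → P a b ≠ 0 := fun a b hab h => by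
    have e := k2 a b hab
    have s1 := mtxb_sum a (hab ▸ b.2)
    have s2 : ∑ c ∈ Finset.Iic a, (chain N c - u c) ≤ 1 / 2 :=
      calc _ ≤ ∑ c ∈ Finset.Iic a, 1 / (2 * (N : ℝ)) :=
            Finset.sum_le_sum fun c _ => by linarith [(abs_le.1 (hu' c)).1]
        _ ≤ ∑ c : Fin N, 1 / (2 * (N : ℝ)) :=
            Finset.sum_le_univ_sum_of_nonneg fun _ => by positivity
        _ = _ := by
            simp only [Finset.sum_const, Finset.card_univ, Fintype.card_fin, nsmul_eq_mul]
            field_simp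
    rw [Finset.sum_sub_distrib] at s2
    rw [h, norm_zero] at e
    nlinarith [sq_nonneg ‖Q b a‖]
  have hQ0 : Q = 0 := by
    ext b a
    by_contra h
    exact h ((mul_eq_zero.1 (k1 a b (q2 a b h))).resolve_left (k3 a b (q2 a b h)))
  have huc : u = chain N := by
    have hz : 0 < N := by omega
    have c1 : ∀ k (hk : k < N), u ⟨k, hk⟩ - chain N ⟨k, hk⟩ = u ⟨0, hz⟩ - chain N ⟨0, hz⟩ := by
      intro k
      induction k with
      | zero => intro _; rfl
      | succ k ih =>
        intro hk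
        rw [← ih (by omega)]
        have := p1 _ _ (k3 ⟨k, by omega⟩ ⟨k + 1, hk⟩ rfl)
        unfold chain
        push_cast
        linarith
    have c2 : ∑ a, chain N a = 0 := by
      have := dch_trace N
      rw [dch, Matrix.trace_diagonal] at this
      exact_mod_cast this
    have c3 : ∑ a, (u a - chain N a) = 0 := by rw [Finset.sum_sub_distrib, h0, c2, sub_self]
    rw [Finset.sum_congr rfl fun (a : Fin N) _ => c1 a a.2] at c3
    simp only [Finset.sum_const, Finset.card_univ, Fintype.card_fin, nsmul_eq_mul] at c3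
    have c4 := (mul_eq_zero.1 c3).resolve_left (by positivity)
    exact funext fun a => sub_eq_zero.1 ((c1 a a.2).trans c4)
  obtain ⟨p, hp⟩ : ∃ p : ℕ → ℂ, p = fun k => if h : k + 1 < N then P ⟨k, by omega⟩ ⟨k + 1, h⟩ else 1 :=
    ⟨_, rfl⟩
  have hp0 : ∀ k, p k ≠ 0 := fun k => by
    simp only [hp]
    split_ifs
    exacts [k3 _ _ rfl, one_ne_zero]
  obtain ⟨w, hw⟩ : ∃ w : ℕ → ℂ, w = fun k => ∏ i ∈ Finset.range k, p i / ‖p i‖ := ⟨_, rfl⟩
  have w1 : ∀ k, w k * star (w k) = 1 := fun k => by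
    have : ‖w k‖ = 1 := by
      simp only [hw, norm_prod, norm_div, Complex.norm_real, norm_norm]
      exact Finset.prod_eq_one fun i _ => div_self (norm_ne_zero_iff.2 (hp0 i))
    rw [Complex.star_def, Complex.mul_conj', this]
    simp
  have st : star (Matrix.diagonal fun a : Fin N => w a) = Matrix.diagonal fun a : Fin N => star (w a) := by
    rw [Matrix.star_eq_conjTranspose, Matrix.diagonal_conjTranspose]
    rfl
  refine ⟨huc, hQ0, ⟨Matrix.diagonal fun a => w a, Matrix.mem_unitaryGroup_iff.2 ?_⟩, ?_, ?_⟩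
  · simp only [st, Matrix.diagonal_mul_diagonal, w1, Matrix.diagonal_one]
  · simp only [st, dch, Matrix.diagonal_mul_diagonal]
    congr 1
    funext a
    linear_combination (chain N a : ℂ) * w1 a
  · ext a b
    simp only [st, Matrix.diagonal_mul, Matrix.mul_diagonal, lnk, Matrix.of_apply]
    split_ifs with hab
    · have e1 : p a = P a b := by
        simp only [hp]
        rw [dif_pos (hab ▸ b.2)]
        congr 1
        exact Fin.ext hab.symm
      have e2 : w b = w a * (P a b / ‖P a b‖) := by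
        simp only [hw, hab]
        rw [Finset.prod_range_succ, e1]
      have e3 : alp N t a = ‖P a b‖ := by
        have := k2 a b hab
        rw [hQ0, huc, Matrix.zero_apply, norm_zero, zero_pow two_ne_zero, sub_zero] at this
        rw [alp, ← this, Real.sqrt_sq (norm_nonneg _)]
      have e4 : ((‖P a b‖ : ℝ) : ℂ) ≠ 0 := by simpa using k3 a b hab
      have e5 := Complex.mul_conj' (P a b)
      rw [e2, e3, star_mul', star_div₀, Complex.star_def, Complex.conj_ofReal]
      have e6 := w1 a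
      rw [Complex.star_def] at e6
      field_simp
      linear_combination (P a b * (starRingEnd ℂ) (P a b)) * e6 + e5
    · rw [of_not_not fun h => hab (p2 a b h), mul_zero, zero_mul]

end Crest.Agent.R330

end
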