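import Crest.Agent.R330.L.Exp
import Crest.Agent.R330.L.Mtx

/-! # Row 330, L/Dict: dictionary between the Lie algebra and matrices (owner helper74; statements frozen, plan in `L/Defs.lean`) -/

set_option autoImplicit false
set_option linter.unusedSectionVars false
set_option linter.unusedVariables false

noncomputable section

open MeasureTheory Filter Topology Set Metric
open scoped InnerProductSpace ContDiff Matrix
open Crest.MathPhysics.MatrixQM (GammaNine)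

namespace Crest.Agent.R330

variable {E F : Type} [NormedAddCommGroup E] [InnerProductSpace ℝ E] [FiniteDimensional ℝ E]
  [MeasurableSpace E] [BorelSpace E]
  [NormedAddCommGroup F] [InnerProductSpace ℂ F] [FiniteDimensional ℂ F]
  {K : Type} [Group K] [TopologicalSpace K] [IsTopologicalGroup K]
  [CompactSpace K] [MeasurableSpace K] [BorelSpace K] {𝔤 : Lie E}

namespace MatSys

variable {N : ℕ} (M : MatSys N 𝔤)

/-- Complex combination of two elements. -/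
def cz (a b : E) : Matrix (Fin N) (Fin N) ℂ := M.m a + Complex.I • M.m b

theorem dca_conj (a b : E) : (M.cz a b)ᴴ = M.cz a (-b) := by
  rw [cz, cz, Matrix.conjTranspose_add, Matrix.conjTranspose_smul, (M.herm a).eq, (M.herm b).eq, map_neg,
    smul_neg, ← neg_smul]
  congr 2
  exact Complex.conj_I

theorem cz_inj {a b a' b' : E} (h : M.cz a b = M.cz a' b') : a = a' ∧ b = b' := by
  have h' := congrArg Matrix.conjTranspose h
  rw [dca_conj, dca_conj] at h'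
  simp only [cz, map_neg, smul_neg] at h h'
  have h1 : (2 : ℂ) • M.m a = (2 : ℂ) • M.m a' := by
    linear_combination (norm := module) h + h'
  have h2 : M.m a = M.m a' := smul_right_injective _ two_ne_zero h1
  rw [h2, add_right_inj] at h
  exact ⟨M.injective h2, M.injective (smul_right_injective _ Complex.I_ne_zero h)⟩

theorem cz_surj {A : Matrix (Fin N) (Fin N) ℂ} (h : A.trace = 0) : ∃ a b, M.cz a b = A := by
  obtain ⟨a, ha⟩ := M.surj ((1 / 2 : ℂ) • (A + Aᴴ))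
    (by
      rw [Matrix.IsHermitian, Matrix.conjTranspose_smul, Matrix.conjTranspose_add,
        Matrix.conjTranspose_conjTranspose, add_comm]
      simp)
    (by simp [Matrix.trace_conjTranspose, h])
  obtain ⟨b, hb⟩ := M.surj ((-Complex.I / 2 : ℂ) • (A - Aᴴ))
    (by
      rw [Matrix.IsHermitian, Matrix.conjTranspose_smul, Matrix.conjTranspose_sub,
        Matrix.conjTranspose_conjTranspose, ← neg_sub A, smul_neg, ← neg_smul]
      congr 1
      simp [neg_div])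
    (by simp [Matrix.trace_conjTranspose, h])
  refine ⟨a, b, ?_⟩
  have hI : Complex.I * (-Complex.I / 2) = 1 / 2 := by
    rw [neg_div, mul_neg, ← mul_div_assoc, Complex.I_mul_I]
    ring
  rw [cz, ha, hb, smul_smul, hI]
  module

theorem dca_plane (φ a b : E) (r : ℝ) :
    M.m φ * M.cz a b - M.cz a b * M.m φ = (r : ℂ) • M.cz a b ↔
      (-r) • b = 𝔤.br φ a ∧ r • a = 𝔤.br φ b := by
  have h1 : M.cz (𝔤.br φ a) (𝔤.br φ b) = Complex.I • (M.m φ * M.cz a b - M.cz a b * M.m φ) := by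
    simp only [cz, M.br, mul_add, add_mul, smul_mul_assoc, mul_smul_comm]
    module
  have h2 : M.cz ((-r) • b) (r • a) = Complex.I • ((r : ℂ) • M.cz a b) := by
    simp only [cz, map_smul, ← Complex.coe_smul, smul_add, smul_smul, mul_left_comm Complex.I (r : ℂ),
      Complex.I_mul_I, Complex.ofReal_neg]
    module
  constructor
  · intro h
    exact M.cz_inj (by rw [h1, h2, h])
  · rintro ⟨ha, hb⟩
    refine smul_right_injective _ Complex.I_ne_zero ?_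
    dsimp only
    rw [← h1, ← h2, ha, hb]

theorem AX_eq_zero_iff (φ : E) (x : X E) : AX 𝔤 φ x = 0 ↔
    M.m φ * M.cz (x 0) (x 1) - M.cz (x 0) (x 1) * M.m φ = (2 : ℂ) • M.cz (x 0) (x 1) ∧
    M.m φ * M.cz (x 2) (x 3) - M.cz (x 2) (x 3) * M.m φ = (4 : ℂ) • M.cz (x 2) (x 3) ∧
    M.m φ * M.cz (x 4) (x 5) - M.cz (x 4) (x 5) * M.m φ = (-2 : ℂ) • M.cz (x 4) (x 5) ∧
    M.m φ * M.cz (x 6) (x 7) - M.cz (x 6) (x 7) * M.m φ = (-4 : ℂ) • M.cz (x 6) (x 7) ∧
    𝔤.br φ (x 8) = 0 := by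
  have h2 := M.dca_plane φ (x 0) (x 1) 2
  have h4 := M.dca_plane φ (x 2) (x 3) 4
  have h2' := M.dca_plane φ (x 4) (x 5) (-2)
  have h4' := M.dca_plane φ (x 6) (x 7) (-4)
  push_cast at h2 h4 h2' h4'
  rw [neg_neg] at h2' h4'
  rw [h2, h4, h2', h4', AX, LinearMap.sub_apply, sub_eq_zero, db_V0]
  constructor
  · intro h
    have e := fun i => congrArg (fun y : X E => y i) h
    exact ⟨⟨e 0, e 1⟩, ⟨e 2, e 3⟩, ⟨e 4, e 5⟩, ⟨e 6, e 7⟩, (e 8).symm⟩
  · rintro ⟨⟨e0, e1⟩, ⟨e2, e3⟩, ⟨e4, e5⟩, ⟨e6, e7⟩, e8⟩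
    refine PiLp.ext fun i => ?_
    fin_cases i
    exacts [e0, e1, e2, e3, e4, e5, e6, e7, e8.symm]

/-- `F`-term. -/
theorem cz_F (a b c d : E) : M.cz (𝔤.br a c - 𝔤.br b d) (𝔤.br a d + 𝔤.br b c) =
    Complex.I • (M.cz a b * M.cz c d - M.cz c d * M.cz a b) := by
  simp only [cz, map_sub, map_add, M.br, mul_add, add_mul, smul_mul_assoc, mul_smul_comm, smul_add, smul_sub,
    smul_smul, Complex.I_mul_I]
  module

/-- `D`-term. -/
theorem cz_D (a b : E) : M.cz a b * (M.cz a b)ᴴ - (M.cz a b)ᴴ * M.cz a b = (-2 : ℂ) • M.m (𝔤.br a b) := by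
  rw [dca_conj]
  simp only [cz, map_neg, M.br, mul_add, add_mul, smul_mul_assoc, mul_smul_comm, smul_neg, mul_neg, neg_mul,
    smul_add, smul_sub, smul_smul, Complex.I_mul_I]
  module

theorem cz_conjTranspose (a b : E) : (M.cz a b)ᴴ = M.cz a (-b) := M.dca_conj a b

theorem wl_eq_zero_iff (σ : Spn) (t : ℝ) {x : X E} (h0 : x 0 = 0) (h1 : x 1 = 0) (h4 : x 4 = 0)
    (h5 : x 5 = 0) : wl 𝔤 σ t 1 x = 0 ↔ AX 𝔤 (x 8) x = 0 ∧
      M.cz (x 2) (x 3) * M.cz (x 6) (x 7) = M.cz (x 6) (x 7) * M.cz (x 2) (x 3) ∧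
      M.cz (x 2) (x 3) * (M.cz (x 2) (x 3))ᴴ - (M.cz (x 2) (x 3))ᴴ * M.cz (x 2) (x 3) +
        (M.cz (x 6) (x 7) * (M.cz (x 6) (x 7))ᴴ - (M.cz (x 6) (x 7))ᴴ * M.cz (x 6) (x 7)) =
        ((2 * t : ℝ) : ℂ) • M.m (x 8) := by
  have hw := wpot_four (𝔤 := 𝔤) σ (x := zp x) (by simp only [zp_apply, h0, ite_self])
    (by simp only [zp_apply, h1, ite_self]) (by simp only [zp_apply, h4, ite_self])
    (by simp only [zp_apply, h5, ite_self]) (by simp only [zp_apply, if_true])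
  rw [zp_apply, zp_apply, zp_apply, zp_apply, if_neg (by decide), if_neg (by decide), if_neg (by decide),
    if_neg (by decide)] at hw
  have hn := norm_wd_sq 𝔤 σ 1 (fun v => (t * 1) • v) x
  have hs : wpot 𝔤 σ.G σ.s (mat (1 - Matrix.single 8 8 1) x) + tens σ.s' ((t * 1) • x 8) =
      tens σ.s' (𝔤.br (x 2) (x 3) + 𝔤.br (x 6) (x 7) + t • x 8) +
        tens ((σ.G.γ 2 * σ.G.γ 6) *ᵥ σ.s) (𝔤.br (x 2) (x 6) - 𝔤.br (x 3) (x 7)) +
        tens ((σ.G.γ 2 * σ.G.γ 7) *ᵥ σ.s) (𝔤.br (x 2) (x 7) + 𝔤.br (x 3) (x 6)) := by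
    rw [hw, mul_one, tens_add' _ _ (t • x 8)]
    abel
  rw [one_smul, hs] at hn
  have hF : M.cz (x 2) (x 3) * M.cz (x 6) (x 7) = M.cz (x 6) (x 7) * M.cz (x 2) (x 3) ↔
      𝔤.br (x 2) (x 6) - 𝔤.br (x 3) (x 7) = 0 ∧ 𝔤.br (x 2) (x 7) + 𝔤.br (x 3) (x 6) = 0 := by
    have hz : M.cz 0 0 = 0 := by simp [cz]
    constructor
    · intro h
      exact M.cz_inj (by rw [cz_F, h, sub_self, smul_zero, hz])
    · rintro ⟨ha, hb⟩
      have h := M.cz_F (x 2) (x 3) (x 6) (x 7)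
      rw [ha, hb, hz] at h
      exact sub_eq_zero.1 ((smul_eq_zero.1 h.symm).resolve_left Complex.I_ne_zero)
  have hD : (-2 : ℂ) • M.m (𝔤.br (x 2) (x 3)) + (-2 : ℂ) • M.m (𝔤.br (x 6) (x 7)) =
      ((2 * t : ℝ) : ℂ) • M.m (x 8) ↔ 𝔤.br (x 2) (x 3) + 𝔤.br (x 6) (x 7) + t • x 8 = 0 := by
    have e : (-2 : ℂ) • M.m (𝔤.br (x 2) (x 3)) + (-2 : ℂ) • M.m (𝔤.br (x 6) (x 7)) -
        ((2 * t : ℝ) : ℂ) • M.m (x 8) =
        (-2 : ℂ) • M.m (𝔤.br (x 2) (x 3) + 𝔤.br (x 6) (x 7) + t • x 8) := by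
      simp only [map_add, map_smul, ← Complex.coe_smul]
      push_cast
      module
    rw [← sub_eq_zero, e, smul_eq_zero, map_eq_zero_iff _ M.injective]
    simp
  rw [cz_D, cz_D, hF, hD, ← norm_eq_zero, ← pow_eq_zero_iff two_ne_zero, hn,
    add_eq_zero_iff_of_nonneg (by positivity) (by positivity), pow_eq_zero_iff two_ne_zero,
    pow_eq_zero_iff two_ne_zero, norm_eq_zero, norm_eq_zero]
  refine and_congr Iff.rfl ⟨fun h => ?_, ?_⟩
  · obtain ⟨ha, hb, hc⟩ := tens_three_eq_zero σ h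
    exact ⟨⟨hb, hc⟩, ha⟩
  · rintro ⟨⟨hb, hc⟩, ha⟩
    rw [ha, hb, hc]
    simp only [da_tens_zero', add_zero]

variable (Γ : Grp 𝔤 K)

omit M in
theorem dictb_compact (φ : E) : IsCompact (Γ.orb φ) :=
  isCompact_range (Γ.cont.comp (continuous_id.prodMk continuous_const))

omit M in
theorem dictb_infDist (φ : E) (k : K) (v : E) : infDist (Γ.act k v) (Γ.orb φ) = infDist v (Γ.orb φ) := by
  have h : (Γ.act k) '' Γ.orb φ = Γ.orb φ := by
    ext w
    constructor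
    · rintro ⟨_, ⟨k', rfl⟩, rfl⟩
      exact ⟨k * k', by simp⟩
    · rintro ⟨k', rfl⟩
      refine ⟨_, ⟨k⁻¹ * k', rfl⟩, ?_⟩
      have : Γ.act k * Γ.act (k⁻¹ * k') = Γ.act k' := by rw [← map_mul, mul_inv_cancel_left]
      beta_reduce
      rw [← this]
      rfl
  conv_lhs => rw [← h]
  exact infDist_image (Γ.act k).isometry

theorem dictb_diag (v : E) (s : Equiv.Perm (Fin N)) : ∃ k : K,
    M.m (Γ.act k v) = Matrix.diagonal fun a => (((M.herm v).eigenvalues (s a) : ℝ) : ℂ) := by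
  have hP : s.permMatrix ℂ ∈ Matrix.unitaryGroup (Fin N) ℂ := by
    rw [Matrix.mem_unitaryGroup_iff, Matrix.star_eq_conjTranspose, Matrix.conjTranspose_permMatrix,
      ← Matrix.permMatrix_mul, inv_mul_cancel, Matrix.permMatrix_one]
  obtain ⟨k, hk⟩ := M.exists_act Γ (⟨_, hP⟩ * star (M.herm v).eigenvectorUnitary)
  refine ⟨k, ?_⟩
  have h1 := (M.herm v).conjStarAlgAut_star_eigenvectorUnitary
  rw [Unitary.conjStarAlgAut_apply] at h1
  have h2 : M.m (Γ.act k v) = s.permMatrix ℂ *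
      Matrix.diagonal (RCLike.ofReal ∘ (M.herm v).eigenvalues) * (s⁻¹).permMatrix ℂ := by
    rw [hk, ← h1, ← Matrix.conjTranspose_permMatrix, ← Matrix.star_eq_conjTranspose]
    simp only [Submonoid.coe_mul, star_mul, Matrix.mul_assoc]
  rw [h2, PEquiv.toMatrix_toPEquiv_mul, PEquiv.mul_toMatrix_toPEquiv, Matrix.submatrix_submatrix]
  exact Matrix.submatrix_diagonal_equiv _ s

omit Γ in
theorem dictb_norm {w : E} {d : Fin N → ℝ} (h : M.m w = Matrix.diagonal fun a => (d a : ℂ)) :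
    ‖w‖ ^ 2 = ∑ a, d a ^ 2 := by
  rw [M.norm_sq, h]
  refine Finset.sum_congr rfl fun a _ => ?_
  rw [Finset.sum_eq_single a (fun b _ hb => by simp [Matrix.diagonal_apply_ne _ hb.symm]) (by simp)]
  simp

/-- Spectral theorem, a permutation matrix, `exists_act`, `norm_sq`. -/
theorem infDist_le_eig {φ₀ : E} (h : M.m φ₀ = dch N) (v : E) (r : ℝ) (s : Equiv.Perm (Fin N)) :
    infDist (r • v) (Γ.orb φ₀) ^ 2 ≤ ∑ a, (r * (M.herm v).eigenvalues a - chain N (s a)) ^ 2 := by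
  obtain ⟨k, hk⟩ := M.dictb_diag Γ v s.symm
  have h1 : infDist (r • v) (Γ.orb φ₀) ≤ ‖r • Γ.act k v - φ₀‖ := by
    rw [← dictb_infDist Γ φ₀ k, map_smul, ← dist_eq_norm]
    exact infDist_le_dist_of_mem ⟨1, by simp⟩
  have h2 : M.m (r • Γ.act k v - φ₀) =
      Matrix.diagonal fun a => ((r * (M.herm v).eigenvalues (s.symm a) - chain N a : ℝ) : ℂ) := by
    rw [map_sub, map_smul, hk, h, dch]
    ext a b
    by_cases hab : a = b
    · subst hab; simp
    · simp [Matrix.diagonal_apply_ne _ hab]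
  refine (pow_le_pow_left₀ infDist_nonneg h1 2).trans (le_of_eq ?_)
  rw [M.dictb_norm h2, ← Equiv.sum_comp s]
  simp

/-- Spectral theorem and `hoffman_wielandt`. -/
theorem diag_near {φ₀ : E} (h : M.m φ₀ = dch N) (v : E) : ∃ (k : K) (u : Fin N → ℝ),
    M.m (Γ.act k v) = Matrix.diagonal (fun a => (u a : ℂ)) ∧ ∑ a, u a = 0 ∧
      ∑ a, (u a - chain N a) ^ 2 ≤ infDist v (Γ.orb φ₀) ^ 2 := by
  obtain ⟨k₀, hk₀⟩ := M.dictb_diag Γ v 1
  obtain ⟨_, ⟨k₁, rfl⟩, h1⟩ := (dictb_compact Γ φ₀).exists_infDist_eq_dist (range_nonempty _) (Γ.act k₀ v)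
  obtain ⟨U, hU⟩ := M.exists_unitary Γ k₁
  obtain ⟨s, -, hs⟩ := hoffman_wielandt (ι := Unit) (fun _ : Fin N => ()) U (fun a b hab => absurd rfl hab)
    (fun _ => (M.herm v).eigenvalues) (fun _ => chain N)
  obtain ⟨k, hk⟩ := M.dictb_diag Γ v s.symm
  refine ⟨k, fun a => (M.herm v).eigenvalues (s.symm a), hk, ?_, ?_⟩
  · have h2 := M.traceless (Γ.act k v)
    rw [hk, Matrix.trace_diagonal] at h2
    exact_mod_cast h2
  · rw [← dictb_infDist Γ φ₀ k₀, h1, dist_eq_norm, M.norm_sq, map_sub, hk₀, hU, h, ← Equiv.sum_comp s]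
    simpa [dch] using hs

end MatSys

theorem Grp.isCompact_orb (Γ : Grp 𝔤 K) (φ : E) : IsCompact (Γ.orb φ) := MatSys.dictb_compact Γ φ

theorem Grp.infDist_act (Γ : Grp 𝔤 K) (φ : E) (k : K) (v : E) :
    infDist (Γ.act k v) (Γ.orb φ) = infDist v (Γ.orb φ) := MatSys.dictb_infDist Γ φ k v

theorem Grp.isCompact_nbhd (Γ : Grp 𝔤 K) (φ : E) (r : ℝ) :
    IsCompact {v : E | infDist v (Γ.orb φ) ≤ r} := by
  refine Metric.isCompact_of_isClosed_isBounded (isClosed_le (continuous_infDist_pt _) continuous_const)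
    ((isBounded_closedBall (x := (0 : E)) (r := r + ‖φ‖)).subset fun v hv => ?_)
  obtain ⟨_, ⟨k, rfl⟩, h1⟩ := (Γ.isCompact_orb φ).exists_infDist_eq_dist (range_nonempty _) v
  have h2 : dist v (Γ.act k φ) ≤ r := h1 ▸ hv
  have h3 : dist (Γ.act k φ) 0 = ‖φ‖ := by rw [dist_zero_right, LinearIsometryEquiv.norm_map]
  exact mem_closedBall.2 ((dist_triangle v (Γ.act k φ) 0).trans (by linarith))

end Crest.Agent.R330

end
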