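import Crest.Agent.R330.L.Defs

/-! # Row 330, L/Fc: functional calculus of symmetric maps (owner helper74; statements frozen, plan in `L/Defs.lean`) -/

set_option autoImplicit false
set_option linter.unusedSectionVars false
set_option linter.unusedVariables false

noncomputable section

open MeasureTheory Filter Topology Set Metric
open scoped InnerProductSpace ContDiff Matrix
open Crest.MathPhysics.MatrixQM (GammaNine)

namespace Crest.Agent.R330

variable {V W : Type} [NormedAddCommGroup V] [InnerProductSpace ℝ V] [FiniteDimensional ℝ V]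
  [NormedAddCommGroup W] [InnerProductSpace ℝ W] [FiniteDimensional ℝ W]

theorem ext_eig {U : Type} [AddCommGroup U] [Module ℝ U] {T : V →ₗ[ℝ] V} (hT : T.IsSymmetric)
    {L L' : V →ₗ[ℝ] U} (h : ∀ v (μ : ℝ), T v = μ • v → L v = L' v) : L = L' :=
  (hT.eigenvectorBasis rfl).toBasis.ext fun i => h _ _ (hT.apply_eigenvectorBasis rfl i)

theorem fc_basis (f : ℝ → ℝ) {T : V →ₗ[ℝ] V} (hT : T.IsSymmetric) (i : Fin (Module.finrank ℝ V)) :
    fc f T (hT.eigenvectorBasis rfl i) = f (hT.eigenvalues rfl i) • hT.eigenvectorBasis rfl i := by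
  rw [fc, dif_pos hT]
  exact (hT.eigenvectorBasis rfl).toBasis.constr_basis ℝ _ i

theorem eig_orth {T : V →ₗ[ℝ] V} (hT : T.IsSymmetric) {u v : V} {μ ν : ℝ} (hu : T u = μ • u)
    (hv : T v = ν • v) : μ = ν ∨ ⟪u, v⟫_ℝ = 0 := by
  have := hT u v
  rw [hu, hv, real_inner_smul_left, real_inner_smul_right] at this
  rcases mul_eq_mul_right_iff.1 this with h | h
  · exact Or.inl h
  · exact Or.inr h

theorem fc_eig (f : ℝ → ℝ) {T : V →ₗ[ℝ] V} (hT : T.IsSymmetric) {v : V} {μ : ℝ} (h : T v = μ • v) :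
    fc f T v = f μ • v := by
  conv_lhs => rw [← (hT.eigenvectorBasis rfl).sum_repr' v]
  conv_rhs => rw [← (hT.eigenvectorBasis rfl).sum_repr' v]
  rw [map_sum, Finset.smul_sum]
  refine Finset.sum_congr rfl fun i _ => ?_
  rw [map_smul, fc_basis f hT]
  rcases eig_orth hT (hT.apply_eigenvectorBasis rfl i) h with h1 | h1
  · rw [smul_comm]
    exact congrArg (fun a => f a • _) h1
  · simp [h1]

theorem fc_symm (f : ℝ → ℝ) {T : V →ₗ[ℝ] V} (hT : T.IsSymmetric) : (fc f T).IsSymmetric := by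
  have h : (innerₗ V) ∘ₗ fc f T = (innerₗ V).compl₂ (fc f T) := by
    refine ext_eig hT fun u μ hu => ext_eig hT fun v ν hv => ?_
    simp only [LinearMap.comp_apply, LinearMap.compl₂_apply, innerₗ_apply_apply, fc_eig f hT hu,
      fc_eig f hT hv, real_inner_smul_left, real_inner_smul_right]
    rcases eig_orth hT hu hv with h1 | h1 <;> simp [h1]
  intro u v
  exact LinearMap.congr_fun₂ h u v

theorem fc_intertwine (f : ℝ → ℝ) {T : V →ₗ[ℝ] V} {T' : W →ₗ[ℝ] W} (hT : T.IsSymmetric)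
    (hT' : T'.IsSymmetric) {L : V →ₗ[ℝ] W} (h : L ∘ₗ T = T' ∘ₗ L) :
    L ∘ₗ fc f T = fc f T' ∘ₗ L := by
  refine ext_eig hT fun v μ hv => ?_
  have h1 : T' (L v) = μ • L v := by
    rw [← map_smul, ← hv]
    exact (LinearMap.congr_fun h v).symm
  simp only [LinearMap.comp_apply, fc_eig f hT hv, fc_eig f hT' h1, map_smul]

theorem fc_ge_basis (f : ℝ → ℝ) {T : V →ₗ[ℝ] V} (hT : T.IsSymmetric) {a : ℝ}
    (h : ∀ i, a ≤ f (hT.eigenvalues rfl i)) (v : V) : a * ‖v‖ ^ 2 ≤ ⟪v, fc f T v⟫_ℝ := by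
  rw [← real_inner_self_eq_norm_sq, ← (hT.eigenvectorBasis rfl).sum_inner_mul_inner v v,
    ← (hT.eigenvectorBasis rfl).sum_inner_mul_inner v (fc f T v), Finset.mul_sum]
  refine Finset.sum_le_sum fun i _ => ?_
  rw [← fc_symm f hT, fc_basis f hT, real_inner_smul_left, real_inner_comm v]
  nlinarith [h i, mul_self_nonneg ⟪v, hT.eigenvectorBasis rfl i⟫_ℝ]

theorem fc_ge (f : ℝ → ℝ) {T : V →ₗ[ℝ] V} (hT : T.IsSymmetric) {a : ℝ}
    (h : ∀ v (μ : ℝ), v ≠ 0 → T v = μ • v → a ≤ f μ) (v : V) : a * ‖v‖ ^ 2 ≤ ⟪v, fc f T v⟫_ℝ :=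
  fc_ge_basis f hT (fun i => h _ _ ((hT.eigenvectorBasis rfl).toBasis.ne_zero i)
    (hT.apply_eigenvectorBasis rfl i)) v

theorem fc_sqrt_sq {T : V →ₗ[ℝ] V} (hT : T.IsSymmetric) (h0 : ∀ v, 0 ≤ ⟪v, T v⟫_ℝ) (v : V) :
    fc Real.sqrt T (fc Real.sqrt T v) = T v := by
  have h : fc Real.sqrt T ∘ₗ fc Real.sqrt T = T := by
    refine ext_eig hT fun v μ hv => ?_
    simp only [LinearMap.comp_apply, fc_eig _ hT hv, map_smul, smul_smul, hv]
    by_cases h1 : v = 0
    · simp [h1]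
    have := h0 v
    rw [hv, real_inner_smul_right, real_inner_self_eq_norm_sq] at this
    rw [Real.mul_self_sqrt (nonneg_of_mul_nonneg_left this (by positivity))]
  exact LinearMap.congr_fun h v

/-- A positive definite symmetric map is bounded below. -/
theorem exists_pos_lower {T : V →ₗ[ℝ] V} (hT : T.IsSymmetric) (h : ∀ v, v ≠ 0 → 0 < ⟪v, T v⟫_ℝ) :
    ∃ a : ℝ, 0 < a ∧ ∀ v, a * ‖v‖ ^ 2 ≤ ⟪v, T v⟫_ℝ := by
  have h1 : ∀ i, 0 < hT.eigenvalues rfl i := fun i => by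
    have := h _ ((hT.eigenvectorBasis rfl).toBasis.ne_zero i)
    simpa [hT.apply_eigenvectorBasis rfl i, real_inner_smul_right] using this
  have h2 : ∀ᶠ a in 𝓝[>] (0 : ℝ), ∀ i, a ≤ hT.eigenvalues rfl i :=
    eventually_all.2 fun i => by
      filter_upwards [Ioo_mem_nhdsGT (h1 i)] with a ha using ha.2.le
  obtain ⟨a, ha, ha'⟩ := (h2.and self_mem_nhdsWithin).exists
  have h3 : fc id T = T := ext_eig hT fun v μ hv => by rw [fc_eig _ hT hv, hv, id]
  exact ⟨a, ha', fun v => h3 ▸ fc_ge_basis id hT ha v⟩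

theorem IsSkew.nsq_symm {A : V →ₗ[ℝ] V} (hA : IsSkew A) : (-(A ∘ₗ A)).IsSymmetric := by
  intro u v
  simp only [LinearMap.neg_apply, LinearMap.comp_apply, inner_neg_left, inner_neg_right]
  rw [hA, hA, neg_neg]

theorem IsSkew.inner_nsq {A : V →ₗ[ℝ] V} (hA : IsSkew A) (v : V) :
    ⟪v, (-(A ∘ₗ A)) v⟫_ℝ = ‖A v‖ ^ 2 := by
  simp only [LinearMap.neg_apply, LinearMap.comp_apply, inner_neg_right]
  rw [← hA, real_inner_self_eq_norm_sq]

theorem trace_fc_proj (f : ℝ → ℝ) {T : V →ₗ[ℝ] V} {T' : W →ₗ[ℝ] W} (hT : T.IsSymmetric)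
    (hT' : T'.IsSymmetric) (ι : W →ₗ[ℝ] V) (π : V →ₗ[ℝ] W) (hπ : π ∘ₗ ι = LinearMap.id)
    (h : ι ∘ₗ T' = T ∘ₗ ι) :
    LinearMap.trace ℝ V (fc f T ∘ₗ ι ∘ₗ π) = LinearMap.trace ℝ W (fc f T') := by
  rw [← LinearMap.comp_assoc, ← fc_intertwine f hT' hT h, LinearMap.trace_comp_comm',
    ← LinearMap.comp_assoc, hπ, LinearMap.id_comp]

theorem trf_ind0 {A : V →ₗ[ℝ] V} (hA : IsSkew A) :
    trf ind0 A = Module.finrank ℝ (LinearMap.ker A) := by
  refine LinearMap.IsProj.trace (p := LinearMap.ker A) ⟨fun v => ?_, fun v hv => ?_⟩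
  · have h : A ∘ₗ fc ind0 (-(A ∘ₗ A)) = 0 := by
      refine ext_eig hA.nsq_symm fun v μ hv => ?_
      rw [LinearMap.comp_apply, fc_eig _ hA.nsq_symm hv, ind0]
      split_ifs with h0
      · have := hA.inner_nsq v
        rw [hv, h0, zero_smul, inner_zero_right] at this
        simpa using this.symm
      · simp
    exact LinearMap.congr_fun h v
  · rw [fc_eig (μ := 0) _ hA.nsq_symm (by simp [LinearMap.mem_ker.1 hv])]
    simp [ind0]

/-- Traces of intertwined maps. -/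
theorem trace_eq_of_intertwine {T : V →ₗ[ℝ] V} {R : W →ₗ[ℝ] W} (κ : W →ₗ[ℝ] V)
    (h : T ∘ₗ κ = κ ∘ₗ R) (hT : ∀ v, (∀ y, ⟪v, κ y⟫_ℝ = 0) → T v = 0)
    (hR : ∀ y, κ y = 0 → R y = 0) : LinearMap.trace ℝ V T = LinearMap.trace ℝ W R := by
  obtain ⟨g, hg⟩ := κ.rangeRestrict.exists_rightInverse_of_surjective κ.range_rangeRestrict
  set κ' : V →ₗ[ℝ] W := g ∘ₗ ((LinearMap.range κ).orthogonalProjectionOnto : V →ₗ[ℝ] LinearMap.range κ)
    with hκ'
  have h1 : ∀ v, κ (κ' v) = (LinearMap.range κ).starProjection v := fun v =>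
    congrArg Subtype.val (LinearMap.congr_fun hg ((LinearMap.range κ).orthogonalProjectionOnto v))
  have h2 : T = κ ∘ₗ R ∘ₗ κ' := by
    ext v
    have h3 := hT (v - (LinearMap.range κ).starProjection v) fun y =>
      Submodule.starProjection_inner_eq_zero v _ (LinearMap.mem_range_self κ y)
    rw [map_sub, sub_eq_zero, ← h1] at h3
    rw [h3]
    exact LinearMap.congr_fun h (κ' v)
  have h3 : (R ∘ₗ κ') ∘ₗ κ = R := by
    ext y
    have h4 := hR (y - κ' (κ y)) (by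
      rw [map_sub, h1, Submodule.starProjection_eq_self_iff.2 (LinearMap.mem_range_self κ y),
        sub_self])
    rw [map_sub, sub_eq_zero] at h4
    exact h4.symm
  rw [h2, ← LinearMap.trace_comp_comm', h3]

end Crest.Agent.R330

end
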