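import Crest.Agent.R330.L.Exp
import Crest.Agent.R330.L.Loc
import Crest.Agent.R330.L.Grp

/-! # Row 330, L/Inner: the inner region (owner helper74; statements frozen, plan in `L/Defs.lean`) -/

set_option autoImplicit false
set_option linter.unusedSectionVars false
set_option linter.unusedVariables false

noncomputable section

open MeasureTheory Filter Topology Set Metric
open scoped InnerProductSpace ContDiff Matrix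
open Crest.MathPhysics.MatrixQM (GammaNine)

namespace Crest.Agent.R330

variable {E F : Type} [NormedAddCommGroup E] [InnerProductSpace ℝ E] [FiniteDimensional ℝ E]
  [MeasurableSpace E] [BorelSpace E]
  [NormedAddCommGroup F] [InnerProductSpace ℂ F] [FiniteDimensional ℂ F]
  {K : Type} [Group K] [TopologicalSpace K] [IsTopologicalGroup K]
  [CompactSpace K] [MeasurableSpace K] [BorelSpace K] {𝔤 : Lie E}

variable {σ : Spn} {t : ℝ} {x₀ : X E} (Q : Quad 𝔤 σ t x₀) (C : Cl (Th E) F)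

/-- Gauss law: for `a = ξ·x₀`, `Λ ∂_a ψ = S(ad ξ) ψ - ∂_{ξ·(x - Λx₀)} ψ`. -/
theorem Quad.gauss_dir : ∃ b : ℝ, 0 ≤ b ∧ ∀ Λ : ℝ, 0 < Λ → ∀ (ψ : X E → F) (x : X E),
    GaussAt 𝔤 C ψ x → ‖x - Λ • x₀‖ ≤ 1 →
      Λ ^ 2 * gdir (LinearMap.id - Q.P) ψ x ≤ b * (‖ψ x‖ ^ 2 + gsq ψ x) := by
  set e := stdOrthonormalBasis ℝ (X E)
  choose c hc h using fun i => (LinearMap.toContinuousLinearMap (lift 9 (𝔤.br (Q.β (e i))))).bound
  refine ⟨∑ i, (2 * ‖C.S (lift 16 (𝔤.br (Q.β (e i))))‖ ^ 2 + 2 * c i ^ 2), by positivity,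
    fun Λ hΛ ψ x hG hx => ?_⟩
  rw [gdir, Finset.mul_sum, Finset.sum_mul]
  refine Finset.sum_le_sum fun i _ => ?_
  change Λ ^ 2 * ‖fderiv ℝ ψ x ((LinearMap.id - Q.P : X E →ₗ[ℝ] X E) (e i))‖ ^ 2 ≤ _
  have h1 : fderiv ℝ ψ x (lift 9 (𝔤.br (Q.β (e i))) x) = _ := hG (Q.β (e i))
  have h2 : Λ • fderiv ℝ ψ x ((LinearMap.id - Q.P : X E →ₗ[ℝ] X E) (e i)) = C.S (lift 16 (𝔤.br (Q.β (e i)))) (ψ x) +
      -fderiv ℝ ψ x (lift 9 (𝔤.br (Q.β (e i))) (x - Λ • x₀)) := by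
    rw [LinearMap.sub_apply, LinearMap.id_apply, Q.gauge, gau_apply, map_sub, map_sub, h1, map_smul, map_smul]
    simp
  have h3 := fae_add_sq (C.S (lift 16 (𝔤.br (Q.β (e i)))) (ψ x))
    (-fderiv ℝ ψ x (lift 9 (𝔤.br (Q.β (e i))) (x - Λ • x₀)))
  rw [← h2, norm_smul, mul_pow, Real.norm_eq_abs, sq_abs, norm_neg] at h3
  have h4 := pow_le_pow_left₀ (norm_nonneg _) ((C.S (lift 16 (𝔤.br (Q.β (e i))))).le_opNorm (ψ x)) 2
  have h5 := (norm_fderiv_apply_sq_le ψ x _).trans (mul_le_mul_of_nonneg_left (pow_le_pow_left₀ (norm_nonneg _)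
    ((h i (x - Λ • x₀)).trans (mul_le_of_le_one_right (hc i).le hx)) 2) (gsq_nonneg' ψ x))
  have h6 := mul_nonneg (sq_nonneg ‖C.S (lift 16 (𝔤.br (Q.β (e i))))‖) (gsq_nonneg' ψ x)
  have h7 := mul_nonneg (sq_nonneg (c i)) (sq_nonneg ‖ψ x‖)
  rw [mul_pow] at h4
  simp only [LinearMap.coe_toContinuousLinearMap'] at h5
  linarith

/-- `wl_expand`, `yuk_expand`, `iS_gap`, `exists_norm_yuk`, `exists_norm_wpot`, `gauss_dir`. -/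
theorem Quad.dens_le {w : F} (hw : ∀ a, C.vac Q.J a = ⟪w, a⟫_ℂ • w) (hw1 : ‖w‖ = 1) {τ : ℝ}
    (hτ : 0 < τ) (hτ' : τ < 1 / 2) : ∃ b : ℝ, 0 ≤ b ∧ ∀ᶠ Λ : ℝ in atTop, ∀ (ψ : X E → F) (x : X E),
      GaussAt 𝔤 C ψ x → ‖x - Λ • x₀‖ ≤ 1 →
        ldens Q.P Q.G w Q.γ τ Λ (Λ • x₀) ψ x ≤
          edens 𝔤 C σ Λ (fun v => (t * Λ) • v) (1 / 2 - τ / 2) ψ x + b * ‖ψ x‖ ^ 2 := by
  obtain ⟨b₁, hb₁, h₁⟩ := Q.gauss_dir C
  obtain ⟨b₂, hb₂, h₂⟩ := exists_norm_yuk 𝔤 C σ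
  obtain ⟨b₃, hb₃, h₃⟩ := exists_norm_wpot 𝔤 σ.G σ.unit
  refine ⟨τ / 2 + b₃ ^ 2 / (4 * τ) + b₂, by positivity, ?_⟩
  filter_upwards [eventually_gt_atTop 0, eventually_ge_atTop (2 * b₁ / τ)] with Λ hΛ hΛ' ψ x hG hx
  have g1 := h₁ Λ hΛ ψ x hG hx
  obtain ⟨z, rfl⟩ : ∃ z, x = Λ • x₀ + z := ⟨x - Λ • x₀, by abel⟩
  rw [add_sub_cancel_left] at hx
  set a := ψ (Λ • x₀ + z)
  have g0 := gsq_nonneg' ψ (Λ • x₀ + z)
  have g2 : Λ * gdir (LinearMap.id - Q.P) ψ (Λ • x₀ + z) ≤ τ / 2 * (‖a‖ ^ 2 + gsq ψ (Λ • x₀ + z)) := by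
    rw [div_le_iff₀ hτ] at hΛ'
    refine le_of_mul_le_mul_left ?_ hΛ
    have := mul_le_mul_of_nonneg_right hΛ' (show 0 ≤ ‖a‖ ^ 2 + gsq ψ (Λ • x₀ + z) by positivity)
    linarith
  have g3 := mul_le_mul_of_nonneg_left (Q.osc.gdir_le ψ (Λ • x₀ + z)) (sub_nonneg.2 hτ'.le)
  have g4 : (1 / 2 - τ) * Λ ^ 2 * ‖Q.G z‖ ^ 2 ≤ 1 / 2 * ‖wl 𝔤 σ t Λ (Λ • x₀ + z)‖ ^ 2 + b₃ ^ 2 / (4 * τ) := by
    have k1 : Λ * ‖Q.G z‖ ≤ ‖wl 𝔤 σ t Λ (Λ • x₀ + z)‖ + b₃ := by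
      rw [wl_expand, Q.zero, smul_zero, zero_add, ← Q.norm_B, ← abs_of_pos hΛ, ← Real.norm_eq_abs, ← norm_smul,
        Real.norm_of_nonneg hΛ.le]
      refine (norm_le_add_norm_add _ (wpot 𝔤 σ.G σ.s z)).trans (add_le_add_right ((h₃ z z).1.trans ?_) _)
      exact mul_le_of_le_one_right hb₃.le (pow_le_one₀ (norm_nonneg _) hx)
    have k2 := mul_le_mul_of_nonneg_left (pow_le_pow_left₀ (by positivity) k1 2) (sub_nonneg.2 hτ'.le)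
    set p := ‖wl 𝔤 σ t Λ (Λ • x₀ + z)‖
    have k3 : (1 / 2 - τ) * (p + b₃) ^ 2 ≤ 1 / 2 * p ^ 2 + b₃ ^ 2 / (4 * τ) := by
      rw [← sub_le_iff_le_add', le_div_iff₀ (by positivity)]
      nlinarith [sq_nonneg (2 * τ * p - (1 - 2 * τ) * b₃), mul_nonneg hτ.le (sq_nonneg b₃)]
    linarith
  have g5 := C.iS_gap Q.J_cx Q.Ξ_symm Q.ΞJ Q.γ Q.γ_pos.le Q.Ξ_ge a
  rw [hw, norm_smul, hw1, mul_one, Q.tr] at g5
  have g6 : |(⟪a, C.iS (yuk 𝔤 σ 0 (fun _ => 0) z) a⟫_ℂ).re| ≤ b₂ * ‖a‖ ^ 2 := by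
    have k1 : ‖C.iS (yuk 𝔤 σ 0 (fun _ => 0) z)‖ ≤ b₂ :=
      (h₂ 0 _ z).trans (mul_le_of_le_one_right hb₂.le (by simpa using hx))
    refine (Complex.abs_re_le_norm _).trans ((norm_inner_le_norm _ _).trans ?_)
    calc _ ≤ ‖a‖ * (b₂ * ‖a‖) := mul_le_mul_of_nonneg_left (ContinuousLinearMap.le_of_opNorm_le _ k1 a) (norm_nonneg _)
      _ = _ := by ring
  have g7 : (⟪a, C.iS (yuk 𝔤 σ Λ (fun v => (t * Λ) • v) (Λ • x₀ + z)) a⟫_ℂ).re =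
      Λ * (⟪a, C.iS (Q.J ∘ₗ Q.Ξ) a⟫_ℂ).re + (⟪a, C.iS (yuk 𝔤 σ 0 (fun _ => 0) z) a⟫_ℂ).re := by
    rw [yuk_expand, Q.yuk_eq, Cl.iS, C.S_add, C.S_smul, smul_add, smul_comm, _root_.add_apply,
      inner_add_right, Complex.add_re, _root_.smul_apply, inner_smul_right, Complex.re_ofReal_mul]
    rfl
  have g8 := mul_le_mul_of_nonneg_left g5 hΛ.le
  have g9 := mul_le_mul_of_nonneg_right g4 (sq_nonneg ‖a‖)
  rw [ldens, edens, add_sub_cancel_left, g7]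
  linarith [(abs_le.1 g6).1]

theorem innb_germ {Y : Type} [NormedAddCommGroup Y] [InnerProductSpace ℝ Y] [FiniteDimensional ℝ Y]
    [MeasurableSpace Y] [BorelSpace Y] {P G : Y →ₗ[ℝ] Y} {g₀ : ℝ} (h : OscL P G g₀) {x₁ : Y} {ψ : Y → F}
    (hs : ∀ x ∈ tsupport ψ, ‖x - x₁‖ ≤ 1 → ‖P (x - x₁)‖ ≤ 1 / 4) (L : (Y → F) → Y → ℝ)
    (hL : ∀ u v x, u =ᶠ[𝓝 x] v → L u x = L v x) (h0 : ∀ x, L 0 x = 0) (x : Y) :
    st (x - x₁ - P (x - x₁)) * L (fun y => (st (P (y - x₁)) : ℂ) • ψ y) x = pw P x₁ x * L ψ x := by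
  have hc : Continuous fun y => P (y - x₁) :=
    (lin_smooth P).continuous.comp (continuous_id.sub continuous_const)
  by_cases hA : 1 / 2 ≤ ‖x - x₁ - P (x - x₁)‖ ^ 2
  · rw [pw, st_eq_zero hA, zero_mul, zero_mul, zero_mul]
  by_cases hP : ‖P (x - x₁)‖ < 1 / 2
  · rw [pw, st_eq_one hP.le, mul_one, hL _ ψ x]
    filter_upwards [hc.norm.continuousAt.eventually_lt continuousAt_const hP] with y hy
    rw [st_eq_one hy.le, Complex.ofReal_one, one_smul]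
  by_cases hx : x ∈ tsupport ψ
  · have h1 : 1 < ‖x - x₁‖ := not_le.1 fun h1 => hP ((hs x hx h1).trans_lt (by norm_num))
    have h2 : 1 / 2 < ‖P (x - x₁)‖ ^ 2 := by nlinarith [h.norm_sq (x - x₁), not_le.1 hA]
    rw [pw, st_eq_zero h2.le, mul_zero, zero_mul, hL _ 0 x, h0, mul_zero]
    filter_upwards [continuousAt_const.eventually_lt (hc.norm.pow 2).continuousAt h2] with y hy
    rw [st_eq_zero hy.le, Complex.ofReal_zero, zero_smul, Pi.zero_apply]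
  · have h1 := notMem_tsupport_iff_eventuallyEq.1 hx
    rw [hL ψ 0 x h1, hL _ 0 x, h0, mul_zero, mul_zero]
    filter_upwards [h1] with y hy
    rw [hy, Pi.zero_apply, smul_zero]

/-- Apply `local_scaled` to `u = st (P (x - Λx₀)) ψ`.  Where `st (z - Pz) ≠ 0`: if `‖Pz‖ < 1/2` then `u = ψ`
near `x`; otherwise `u = 0` near `x` and `pw = 0` or `x ∉ tsupport ψ`. -/
theorem Quad.weighted (Γ : Grp 𝔤 K) {w : F} (hw : ∀ a, C.vac Q.J a = ⟪w, a⟫_ℂ • w) (hw1 : ‖w‖ = 1) :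
    ∃ c τ : ℝ, 0 < c ∧ 0 < τ ∧ τ < 1 / 2 ∧ ∀ᶠ Λ : ℝ in atTop, ∃ s : X E → F, MemLp s 2 volume ∧
      ∃ b : ℝ, 0 ≤ b ∧ ∀ ψ, Cls 𝔤 C σ.G neut ψ → tsupport ψ ⊆ Γ.Inn Q.P (Λ • x₀) →
        c * Λ * ∫ x, pw Q.P (Λ • x₀) x * ‖ψ x‖ ^ 2 ≤
          (∫ x, pw Q.P (Λ • x₀) x * edens 𝔤 C σ Λ (fun v => (t * Λ) • v) (1 / 2 - τ) ψ x) +
            b * ‖∫ x, ⟪s x, ψ x⟫_ℂ‖ ^ 2 := by
  obtain ⟨c, τ, hc, hτ, hτ', h1⟩ := Q.osc.local_scaled hw1 Q.γ_pos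
  obtain ⟨b₀, hb₀, h2⟩ := Q.dens_le C hw hw1 hτ hτ'
  obtain ⟨b₁, -, h3⟩ := Q.osc.pw_props
  refine ⟨c / 2, τ / 2, by positivity, by positivity, by linarith, ?_⟩
  filter_upwards [h2, eventually_gt_atTop 0, eventually_ge_atTop (2 * b₀ / c)] with Λ h2 hΛ hΛ'
  obtain ⟨s, hs, b, hb, h1⟩ := h1 Λ (Λ • x₀) hΛ
  obtain ⟨p1, p2, -, p4, -⟩ := h3 (Λ • x₀)
  have hB : ContDiff ℝ ∞ fun y : X E => st (Q.P (y - Λ • x₀)) :=
    st_contDiff.comp ((lin_smooth Q.P).comp (contDiff_id.sub contDiff_const))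
  refine ⟨fun y => (st (Q.P (y - Λ • x₀)) : ℂ) • s y, ?_, b, hb, fun ψ hψ hsupp => ?_⟩
  · refine hs.of_le ((Complex.continuous_ofReal.comp hB.continuous).aestronglyMeasurable.smul hs.1)
      (Eventually.of_forall fun y => ?_)
    rw [norm_smul, Complex.norm_real, Real.norm_of_nonneg (st_nonneg _)]
    exact mul_le_of_le_one_left (norm_nonneg _) (st_le_one _)
  have e1 := h1 _ (hψ.1.smul_of_contDiffOn isOpen_univ (subset_univ _) hB.contDiffOn)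
  have hg := innb_germ Q.osc (x₁ := Λ • x₀) (ψ := ψ) fun x hx => (hsupp hx).2
  have e2 := hg (fun u x => ‖u x‖ ^ 2) (fun u v x h => by rw [h.eq_of_nhds]) (fun x => by simp)
  have e3 := hg (ldens Q.P Q.G w Q.γ τ Λ (Λ • x₀))
    (fun u v x h => by simp only [ldens, gdir, h.eq_of_nhds, h.fderiv_eq]) (fun x => by simp [ldens, gdir])
  have e4 : ∀ x, ⟪s x, (st (Q.P (x - Λ • x₀)) : ℂ) • ψ x⟫_ℂ = ⟪(st (Q.P (x - Λ • x₀)) : ℂ) • s x, ψ x⟫_ℂ :=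
    fun x => by rw [inner_smul_left, inner_smul_right, Complex.conj_ofReal]
  simp only [e2, e3, e4] at e1
  have hc0 := hψ.1.1.continuous
  have i1 : Integrable fun x => pw Q.P (Λ • x₀) x * ‖ψ x‖ ^ 2 :=
    F_wt hψ.1 isOpen_univ (subset_univ _) p1.continuous.continuousOn (hc0.norm.pow 2) fun x hx => by
      simp [image_eq_zero_of_notMem_tsupport hx]
  have i2 : Integrable fun x => pw Q.P (Λ • x₀) x * edens 𝔤 C σ Λ (fun v => (t * Λ) • v) (1 / 2 - τ / 2) ψ x :=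
    F_wt hψ.1 isOpen_univ (subset_univ _) p1.continuous.continuousOn
      (F_cont 𝔤 C σ Λ 0 _ (contDiff_id.const_smul _)
        (fun a u v => by simp [fderiv_csmul, inner_smul_left, inner_smul_right])
        ⟨hψ.1, hψ.2.1, fun _ h => h.elim⟩ (Or.inr (hψ.2.2 (V0, 0) rfl))) fun x hx => F_zero 𝔤 C σ _ _ _ hx
  have i3 : Integrable fun x => pw Q.P (Λ • x₀) x * ldens Q.P Q.G w Q.γ τ Λ (Λ • x₀) ψ x := by
    refine F_wt hψ.1 isOpen_univ (subset_univ _) p1.continuous.continuousOn ?_ fun x hx => by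
      simp [ldens, gdir, image_eq_zero_of_notMem_tsupport hx, fderiv_of_notMem_tsupport ℝ hx]
    have c1 := gdir_cont Q.P hψ.1.one
    have c2 := gdir_cont (LinearMap.id - Q.P) hψ.1.one
    have c3 := (lin_smooth Q.G).continuous
    unfold ldens
    fun_prop
  have e5 : ∫ x, pw Q.P (Λ • x₀) x * ldens Q.P Q.G w Q.γ τ Λ (Λ • x₀) ψ x ≤
      (∫ x, pw Q.P (Λ • x₀) x * edens 𝔤 C σ Λ (fun v => (t * Λ) • v) (1 / 2 - τ / 2) ψ x) +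
        b₀ * ∫ x, pw Q.P (Λ • x₀) x * ‖ψ x‖ ^ 2 := by
    rw [← integral_const_mul, ← integral_add i2 (i1.const_mul _)]
    refine integral_mono i3 (i2.add (i1.const_mul _)) fun x => ?_
    rcases le_total 1 ‖x - Λ • x₀‖ with hx | hx
    · simp [p4 x hx]
    · have := mul_le_mul_of_nonneg_left (h2 ψ x (hψ.2.1 x) hx) (p2 x).1
      simp only
      linarith
  have hn : 0 ≤ ∫ x, pw Q.P (Λ • x₀) x * ‖ψ x‖ ^ 2 := integral_nonneg fun x => mul_nonneg (p2 x).1 (sq_nonneg _)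
  rw [div_le_iff₀ hc] at hΛ'
  nlinarith [mul_le_mul_of_nonneg_right hΛ' hn]

/-- Unfixing: `energy_weighted_Qd` with `ϖ = avg pw` on `U = {ϖ > m/2}`, `integral_avg`, `densities`. -/
theorem Quad.unfix (Γ : Grp 𝔤 K) {τ : ℝ} (hτ : 0 < τ) : ∃ A b : ℝ, 0 < A ∧ 0 ≤ b ∧
    ∀ (Λ : ℝ) (x₁ : X E) (ψ : X E → F), Cls 𝔤 C σ.G neut ψ → tsupport ψ ⊆ Γ.Inn Q.P x₁ →
      Γ.mB x₁ * ∫ x, ‖ψ x‖ ^ 2 ≤ ∫ x, pw Q.P x₁ x * ‖ψ x‖ ^ 2 ∧
      ∫ x, pw Q.P x₁ x * edens 𝔤 C σ Λ (fun v => (t * Λ) • v) (1 / 2 - τ) ψ x ≤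
        A * Γ.mB x₁ * (∫ x, ‖Ql 𝔤 C σ t Λ ψ x‖ ^ 2) + b * ∫ x, pw Q.P x₁ x * ‖ψ x‖ ^ 2 := by
  obtain ⟨M, hM, hd⟩ := Γ.doubling
  obtain ⟨b, hb, hp⟩ := Q.osc.pw_props
  refine ⟨2 * M, (1 / (16 * τ) + 1 / 8) * (2 * b * M) ^ 2, by positivity, by positivity, fun Λ x₁ ψ hψ hs => ?_⟩
  obtain ⟨p1, p2, p3, p4, p5⟩ := hp x₁
  set p := pw Q.P x₁ with hpd
  set f : E → E := fun v => (t * Λ) • v with hfd
  have hm := Γ.mB_pos x₁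
  have hψ0 : Cls 𝔤 C σ.G ∅ ψ := ⟨hψ.1, hψ.2.1, fun _ h => h.elim⟩
  have hrot : ∀ x, RotAt C σ.G V0 0 ψ x := hψ.2.2 (V0, 0) rfl
  have f1 : ContDiff ℝ ∞ f := contDiff_id.const_smul (t * Λ)
  have f2 : ∀ a u v, ⟪fderiv ℝ f a u, v⟫_ℝ = ⟪u, fderiv ℝ f a v⟫_ℝ := fun a u v => by
    have h : HasFDerivAt f ((t * Λ) • ContinuousLinearMap.id ℝ E) a := (hasFDerivAt_id a).const_smul (t * Λ)
    rw [h.fderiv]
    simp only [_root_.smul_apply, ContinuousLinearMap.id_apply, real_inner_smul_left,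
      real_inner_smul_right]
  have f3 : ∀ k v, f (Γ.act k v) = Γ.act k (f v) := fun k v => (map_smul (Γ.act k) (t * Λ) v).symm
  have p0 : ∀ x, 1 < ‖x - x₁‖ → p x = 0 := fun x hx => p4 x hx.le
  have N1 : ContDiff ℝ ∞ (Γ.avg p) := Γ.contDiff_avg p1
  have N0 : ∀ x, 0 ≤ Γ.avg p x := Γ.avg_nonneg fun x => (p2 x).1
  have Nle : ∀ x, Γ.avg p x ≤ M * Γ.mB x₁ := fun x => by
    have := Γ.avg_le p1.continuous p0 (fun x => (p2 x).2) x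
    rw [one_mul] at this
    exact this.trans (hd x₁ x)
  have Nge : ∀ x ∈ tsupport ψ, Γ.mB x₁ ≤ Γ.avg p x := fun x hx => by
    obtain ⟨k₀, hk₀⟩ := (hs hx).1
    rw [← Γ.avg_ax p k₀ x, ← one_mul (Γ.mB x₁)]
    refine Γ.le_avg p1.continuous (fun x => (p2 x).1) fun k hk => (p3 _ ?_).ge
    have e : Γ.ax k (Γ.ax k₀ x) - x₁ = Γ.ax k (Γ.ax k₀ x - x₁) + (Γ.ax k x₁ - x₁) := by
      rw [map_sub]
      abel
    rw [e]
    refine (norm_add_le _ _).trans ?_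
    rw [LinearIsometry.norm_map]
    linarith
  have hden := fun κ => Γ.densities C σ Λ κ f1 f3 hψ0
  have cψ : HasCompactSupport fun x => ‖ψ x‖ ^ 2 :=
    hψ.1.2.mono' fun x hx => by
      by_contra h
      exact hx (by simp [image_eq_zero_of_notMem_tsupport h])
  have a1 : ∫ x, p x * ‖ψ x‖ ^ 2 = ∫ x, Γ.avg p x * ‖ψ x‖ ^ 2 :=
    Γ.integral_avg p1.continuous (F_sq hψ.1) cψ fun k x => by rw [(hden 0 k x).1]
  have ce := F_cont 𝔤 C σ Λ 0 (1 / 2 - τ) f1 f2 hψ0 (Or.inr hrot)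
  have cse : HasCompactSupport (edens 𝔤 C σ Λ f (1 / 2 - τ) ψ) :=
    hψ.1.2.mono' fun x hx => by
      by_contra h
      exact hx (F_zero 𝔤 C σ Λ _ f h)
  have a2 : ∫ x, p x * edens 𝔤 C σ Λ f (1 / 2 - τ) ψ x = ∫ x, Γ.avg p x * edens 𝔤 C σ Λ f (1 / 2 - τ) ψ x :=
    Γ.integral_avg p1.continuous (ce.integrable_of_hasCompactSupport cse) cse fun k x => (hden _ k x).2.2.2
  have i1 : Integrable fun x => Γ.avg p x * ‖ψ x‖ ^ 2 :=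
    (N1.continuous.mul (hψ.1.1.continuous.norm.pow 2)).integrable_of_hasCompactSupport cψ.mul_left
  have hQ : Core (Qd 𝔤 C σ Λ f ψ) := Core.dirac C _ (contDiff_wd 𝔤 σ Λ f1) hψ.1
  refine ⟨?_, ?_⟩
  · rw [a1, ← integral_const_mul]
    refine integral_mono ((F_sq hψ.1).const_mul _) i1 fun x => ?_
    by_cases hx : x ∈ tsupport ψ
    · exact mul_le_mul_of_nonneg_right (Nge x hx) (sq_nonneg _)
    · simp [image_eq_zero_of_notMem_tsupport hx]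
  · have key := energy_weighted_Qd 𝔤 C σ Λ 0 f1 f2 hψ0 (Or.inr ⟨by simp, hrot⟩)
      (U := {x | Γ.mB x₁ / 2 < Γ.avg p x}) (isOpen_lt continuous_const N1.continuous)
      (fun x hx => lt_of_lt_of_le (half_lt_self hm) (Nge x hx)) (ϖ := Γ.avg p) (Λ := fun _ => 2 * b * M)
      (N1.of_le (by simp)).contDiffOn continuousOn_const (fun x _ => N0 x) (fun x hx => by
        have h1 := (Γ.norm_fderiv_avg_le p1 p0 p5 x).trans (mul_le_mul_of_nonneg_left (hd x₁ x) hb)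
        have h2 : Γ.mB x₁ / 2 < Γ.avg p x := hx
        have h3 : 0 ≤ b * M := by positivity
        nlinarith) hτ
    have h4 : ∫ x, Γ.avg p x * ‖Qd 𝔤 C σ Λ f ψ x‖ ^ 2 ≤ M * Γ.mB x₁ * ∫ x, ‖Qd 𝔤 C σ Λ f ψ x‖ ^ 2 := by
      rw [← integral_const_mul]
      exact integral_mono_of_nonneg (Eventually.of_forall fun x => mul_nonneg (N0 x) (sq_nonneg _))
        ((F_sq hQ).const_mul _) (Eventually.of_forall fun x => mul_le_mul_of_nonneg_right (Nle x) (sq_nonneg _))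
    have h5 : ∫ x, (2 * b * M) ^ 2 * Γ.avg p x * ‖ψ x‖ ^ 2 = (2 * b * M) ^ 2 * ∫ x, p x * ‖ψ x‖ ^ 2 := by
      rw [a1, ← integral_const_mul]
      simp only [mul_assoc]
    rw [h5] at key
    rw [a2]
    change _ ≤ 2 * M * Γ.mB x₁ * (∫ x, ‖Qd 𝔤 C σ Λ f ψ x‖ ^ 2) + _
    linarith

theorem Quad.inner_codim (Γ : Grp 𝔤 K) {w : F} (hw : ∀ a, C.vac Q.J a = ⟪w, a⟫_ℂ • w)
    (hw1 : ‖w‖ = 1) : ∃ c : ℝ, 0 < c ∧ ∀ᶠ Λ : ℝ in atTop,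
      Codim (flows 𝔤 C σ.G neut) (Ql 𝔤 C σ t Λ) (Γ.Inn Q.P (Λ • x₀)) (c * Λ) := by
  obtain ⟨c, τ, hc, hτ, -, h1⟩ := Q.weighted C Γ hw hw1
  obtain ⟨A, b', hA, hb', h2⟩ := Q.unfix C Γ hτ
  refine ⟨c / (2 * A), by positivity, ?_⟩
  filter_upwards [h1, eventually_ge_atTop (2 * b' / c), eventually_gt_atTop 0] with Λ h1 hΛ hΛ0
  obtain ⟨s, hs, b, hb, h1⟩ := h1
  have hm := Γ.mB_pos (Λ • x₀)
  refine ⟨s, hs, b / (A * Γ.mB (Λ • x₀)), by positivity, fun ψ hψ hsupp => ?_⟩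
  have hψ' := (cls_iff_ds 𝔤 C σ.G neut ψ).2 hψ
  have e1 := h1 ψ hψ' hsupp
  obtain ⟨e2, e3⟩ := h2 Λ (Λ • x₀) ψ hψ' hsupp
  set n := ∫ x, pw Q.P (Λ • x₀) x * ‖ψ x‖ ^ 2
  set p := ∫ x, ‖ψ x‖ ^ 2
  set q := ∫ x, ‖Ql 𝔤 C σ t Λ ψ x‖ ^ 2
  set T := ‖∫ x, ⟪s x, ψ x⟫_ℂ‖ ^ 2
  set m := Γ.mB (Λ • x₀)
  have hp : 0 ≤ p := integral_nonneg fun x => by positivity
  have hn : 0 ≤ n := le_trans (by positivity) e2
  have hb2 : b' ≤ c * Λ / 2 := by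
    rw [div_le_iff₀ hc] at hΛ
    linarith
  have e4 : c * Λ / 2 * (m * p) ≤ A * m * q + b * T := by
    have := mul_le_mul_of_nonneg_right hb2 hn
    have := mul_le_mul_of_nonneg_left e2 (show 0 ≤ c * Λ / 2 by positivity)
    linarith
  have e5 : c / (2 * A) * Λ * p = c * Λ / 2 * (m * p) / (A * m) := by field_simp
  have e6 : q + b / (A * m) * T = (A * m * q + b * T) / (A * m) := by field_simp
  rw [e5, e6]
  gcongr

end Crest.Agent.R330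

end
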