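import Crest.Agent.R330.L.Fc

/-! # Row 330, L/Quad: the abstract quadratic model (owner helper74; statements frozen, plan in `L/Defs.lean`) -/

set_option autoImplicit false
set_option linter.unusedSectionVars false
set_option linter.unusedVariables false

noncomputable section

open MeasureTheory Filter Topology Set Metric
open scoped InnerProductSpace ContDiff Matrix
open Crest.MathPhysics.MatrixQM (GammaNine)

namespace Crest.Agent.R330

variable {V W : Type} [NormedAddCommGroup V] [InnerProductSpace ℝ V] [FiniteDimensional ℝ V]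
  [NormedAddCommGroup W] [InnerProductSpace ℝ W] [FiniteDimensional ℝ W]

theorem fc_sqrt_lower {T : V →ₗ[ℝ] V} (hT : T.IsSymmetric) (h : ∀ v, v ≠ 0 → 0 < ⟪v, T v⟫_ℝ) :
    ∃ a : ℝ, 0 < a ∧ ∀ v, a * ‖v‖ ^ 2 ≤ ⟪v, fc Real.sqrt T v⟫_ℝ := by
  obtain ⟨a, ha, h1⟩ := exists_pos_lower hT h
  refine ⟨√a, Real.sqrt_pos.2 ha, fc_ge _ hT fun v μ hv hμ => Real.sqrt_le_sqrt ?_⟩
  have := h1 v
  rw [hμ, real_inner_smul_right, real_inner_self_eq_norm_sq] at this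
  exact le_of_mul_le_mul_right this (by positivity)

theorem fc_sqrt_nonneg {T : V →ₗ[ℝ] V} (hT : T.IsSymmetric) (v : V) : 0 ≤ ⟪v, fc Real.sqrt T v⟫_ℝ := by
  simpa using fc_ge Real.sqrt hT (a := 0) (fun v μ _ _ => Real.sqrt_nonneg μ) v

theorem nsq_intertwine {A : V →ₗ[ℝ] V} {A' : W →ₗ[ℝ] W} {L : V →ₗ[ℝ] W} (h : L ∘ₗ A = A' ∘ₗ L) :
    L ∘ₗ (-(A ∘ₗ A)) = (-(A' ∘ₗ A')) ∘ₗ L := by
  ext v
  have h1 : ∀ v, L (A v) = A' (L v) := LinearMap.congr_fun h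
  simp [h1]

/-- polar decomposition of an invertible skew map -/
theorem skew_polar {Y : V →ₗ[ℝ] V} (hY : IsSkew Y) (hinj : Function.Injective Y) :
    ∃ (J : V →ₗ[ℝ] V) (γ : ℝ), 0 < γ ∧
      (∀ v, γ * ‖v‖ ^ 2 ≤ ⟪v, fc Real.sqrt (-(Y ∘ₗ Y)) v⟫_ℝ) ∧ IsCx J ∧
      (∀ v, J (fc Real.sqrt (-(Y ∘ₗ Y)) v) = Y v) ∧
      (∀ v, fc Real.sqrt (-(Y ∘ₗ Y)) (J v) = J (fc Real.sqrt (-(Y ∘ₗ Y)) v)) ∧
      ∀ A : V →ₗ[ℝ] V, A ∘ₗ Y = Y ∘ₗ A → ∀ v, A (J v) = J (A v) := by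
  have sY := hY.nsq_symm
  have Ypos : ∀ v, v ≠ 0 → 0 < ⟪v, (-(Y ∘ₗ Y)) v⟫_ℝ := fun v hv => by
    rw [hY.inner_nsq]
    have : Y v ≠ 0 := fun h0 => hv (hinj (h0.trans (map_zero Y).symm))
    positivity
  obtain ⟨γ, hγ, hΞge⟩ := fc_sqrt_lower sY Ypos
  have Ξ'_symm := fc_symm (fun μ => (√μ)⁻¹) sY
  have ΞΞ := fc_sqrt_sq sY fun v => by rw [hY.inner_nsq]; positivity
  have hμ : ∀ v (μ : ℝ), (-(Y ∘ₗ Y)) v = μ • v → ((√μ)⁻¹ * √μ) • v = v := fun v μ hv => by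
    by_cases h0 : v = 0
    · simp [h0]
    have := Ypos v h0
    rw [hv, real_inner_smul_right, real_inner_self_eq_norm_sq] at this
    have hn := norm_pos_iff.2 h0
    have hμ : 0 < μ := (mul_pos_iff_of_pos_right (by positivity)).1 this
    rw [inv_mul_cancel₀ (Real.sqrt_pos.2 hμ).ne', one_smul]
  have i1 := LinearMap.congr_fun (ext_eig sY
    (L := fc (fun μ => (√μ)⁻¹) (-(Y ∘ₗ Y)) ∘ₗ fc Real.sqrt (-(Y ∘ₗ Y))) (L' := LinearMap.id)
    fun v μ hv => by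
      rw [LinearMap.comp_apply, fc_eig _ sY hv, map_smul, fc_eig _ sY hv, smul_smul, mul_comm,
        hμ v μ hv, LinearMap.id_apply])
  have i2 := LinearMap.congr_fun (ext_eig sY
    (L := fc Real.sqrt (-(Y ∘ₗ Y)) ∘ₗ fc (fun μ => (√μ)⁻¹) (-(Y ∘ₗ Y))) (L' := LinearMap.id)
    fun v μ hv => by
      rw [LinearMap.comp_apply, fc_eig _ sY hv, map_smul, fc_eig _ sY hv, smul_smul,
        hμ v μ hv, LinearMap.id_apply])
  have YΞ := LinearMap.congr_fun (fc_intertwine Real.sqrt sY sY (nsq_intertwine (L := Y) rfl))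
  have AΞ' := fun (A : V →ₗ[ℝ] V) (hA : A ∘ₗ Y = Y ∘ₗ A) =>
    LinearMap.congr_fun (fc_intertwine (fun μ => (√μ)⁻¹) sY sY (nsq_intertwine hA))
  generalize fc (fun μ => (√μ)⁻¹) (-(Y ∘ₗ Y)) = Ξ' at Ξ'_symm i1 i2 AΞ'
  generalize fc Real.sqrt (-(Y ∘ₗ Y)) = Ξ at hΞge ΞΞ i1 i2 YΞ
  simp only [LinearMap.comp_apply, LinearMap.id_apply, LinearMap.neg_apply] at i1 i2 YΞ AΞ' ΞΞ
  have YΞ' := AΞ' Y rfl
  refine ⟨Y ∘ₗ Ξ', γ, hγ, hΞge, ⟨fun u v => ?_, fun v => ?_⟩, fun v => ?_, fun v => ?_,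
    fun A hA v => ?_⟩ <;> simp only [LinearMap.comp_apply]
  · rw [hY, Ξ'_symm, YΞ']
  · rw [← YΞ', ← neg_neg (Y (Y _)), ← ΞΞ, i2, i2]
  · rw [i1]
  · rw [i1, ← YΞ, i2]
  · rw [← AΞ' A hA]
    exact LinearMap.congr_fun hA _

/-- hypotheses of the quadratic model -/
structure QH (c B : W →ₗ[ℝ] V) (AY : W →ₗ[ℝ] W) (A : V →ₗ[ℝ] V) : Prop where
  hc : ∀ y, ‖c y‖ = ‖y‖
  hB : Function.Injective B
  hAY : IsSkew AY
  hA : IsSkew A
  hcA : c ∘ₗ AY = A ∘ₗ c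
  hBA : B ∘ₗ AY = A ∘ₗ B
  hcB : LinearMap.adjoint c ∘ₗ B = AY

/-- the Yukawa matrix -/
def qY (c B : W →ₗ[ℝ] V) (A : V →ₗ[ℝ] V) : V →ₗ[ℝ] V :=
  B ∘ₗ LinearMap.adjoint c - c ∘ₗ LinearMap.adjoint B - A

namespace QH

variable {c B : W →ₗ[ℝ] V} {AY : W →ₗ[ℝ] W} {A : V →ₗ[ℝ] V} (h : QH c B AY A)
include h

theorem inner_cc (y y' : W) : ⟪c y, c y'⟫_ℝ = ⟪y, y'⟫_ℝ :=
  (LinearIsometry.mk c h.hc).inner_map_map y y'

theorem ctc (y : W) : LinearMap.adjoint c (c y) = y :=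
  ext_inner_left ℝ fun y' => by rw [LinearMap.adjoint_inner_right, h.inner_cc]

theorem ctB (y : W) : LinearMap.adjoint c (B y) = AY y := LinearMap.congr_fun h.hcB y

theorem inner_cB (y y' : W) : ⟪c y, B y'⟫_ℝ = ⟪y, AY y'⟫_ℝ := by
  rw [← LinearMap.adjoint_inner_right, h.ctB]

theorem Btc (y : W) : LinearMap.adjoint B (c y) = -AY y :=
  ext_inner_right ℝ fun y' => by
    rw [LinearMap.adjoint_inner_left, h.inner_cB, inner_neg_left, h.hAY, neg_neg]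

theorem Ac (y : W) : A (c y) = c (AY y) := (LinearMap.congr_fun h.hcA y).symm

theorem AB (y : W) : A (B y) = B (AY y) := (LinearMap.congr_fun h.hBA y).symm

theorem ctA (v : V) : LinearMap.adjoint c (A v) = AY (LinearMap.adjoint c v) :=
  ext_inner_right ℝ fun y => by
    rw [LinearMap.adjoint_inner_left, h.hA, h.Ac, h.hAY, LinearMap.adjoint_inner_left]

theorem BtA (v : V) : LinearMap.adjoint B (A v) = AY (LinearMap.adjoint B v) :=
  ext_inner_right ℝ fun y => by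
    rw [LinearMap.adjoint_inner_left, h.hA, h.AB, h.hAY, LinearMap.adjoint_inner_left]

theorem Y_apply (v : V) :
    qY c B A v = B (LinearMap.adjoint c v) - c (LinearMap.adjoint B v) - A v := rfl

theorem Yc (y : W) : qY c B A (c y) = B y := by
  rw [h.Y_apply, h.ctc, h.Btc, h.Ac, map_neg]
  abel

theorem YB (y : W) : qY c B A (B y) = -c (LinearMap.adjoint B (B y)) := by
  rw [h.Y_apply, h.ctB, h.AB]
  abel

theorem Y_skew : IsSkew (qY c B A) := by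
  intro u v
  simp only [h.Y_apply, inner_sub_left, inner_sub_right]
  rw [h.hA, ← LinearMap.adjoint_inner_right B, ← LinearMap.adjoint_inner_right c,
    ← LinearMap.adjoint_inner_left B _ u, ← LinearMap.adjoint_inner_left c _ u]
  ring

theorem YA : A ∘ₗ qY c B A = qY c B A ∘ₗ A := by
  ext v
  simp only [LinearMap.comp_apply, h.Y_apply, map_sub, h.AB, h.Ac, h.ctA, h.BtA]

theorem H_symm : (LinearMap.adjoint B ∘ₗ B).IsSymmetric := fun u v => by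
  simp only [LinearMap.comp_apply, LinearMap.adjoint_inner_left, LinearMap.adjoint_inner_right]

theorem H_inner (y : W) : ⟪y, (LinearMap.adjoint B ∘ₗ B) y⟫_ℝ = ‖B y‖ ^ 2 := by
  rw [LinearMap.comp_apply, LinearMap.adjoint_inner_right, real_inner_self_eq_norm_sq]

theorem H_pos (y : W) (hy : y ≠ 0) : 0 < ⟪y, (LinearMap.adjoint B ∘ₗ B) y⟫_ℝ := by
  rw [h.H_inner]
  have : B y ≠ 0 := fun h0 => hy (h.hB (h0.trans (map_zero B).symm))
  positivity

theorem inj (hker : trf ind0 A = 2 * trf ind0 AY) : Function.Injective (qY c B A) := by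
  rw [injective_iff_map_eq_zero]
  intro v hv
  have h1 : ∀ y, ⟪v, B y⟫_ℝ = 0 := fun y => by
    have := h.Y_skew v (c y)
    rw [hv, inner_zero_left, h.Yc] at this
    linarith
  have hsurj : Function.Surjective (LinearMap.adjoint B ∘ₗ B) := by
    rw [← LinearMap.injective_iff_surjective, injective_iff_map_eq_zero]
    intro y hy
    by_contra h0
    have := h.H_pos y h0
    rw [hy, inner_zero_right] at this
    exact lt_irrefl _ this
  have h2 : ∀ y, ⟪v, c y⟫_ℝ = 0 := fun y => by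
    obtain ⟨y, rfl⟩ := hsurj y
    have := h.Y_skew v (B y)
    rw [hv, inner_zero_left, h.YB, inner_neg_right, neg_neg] at this
    exact this.symm
  have h3 : LinearMap.adjoint B v = 0 :=
    ext_inner_right ℝ fun y => by rw [LinearMap.adjoint_inner_left, h1, inner_zero_left]
  have h4 : LinearMap.adjoint c v = 0 :=
    ext_inner_right ℝ fun y => by rw [LinearMap.adjoint_inner_left, h2, inner_zero_left]
  have h5 : A v = 0 := by
    rw [h.Y_apply, h3, h4] at hv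
    simpa using hv
  let Φ : LinearMap.ker AY × LinearMap.ker AY →ₗ[ℝ] LinearMap.ker A :=
    LinearMap.codRestrict _ (LinearMap.coprod (c ∘ₗ (LinearMap.ker AY).subtype)
      (B ∘ₗ (LinearMap.ker AY).subtype)) fun p => by
        simp [h.Ac, h.AB, LinearMap.mem_ker.1 p.1.2, LinearMap.mem_ker.1 p.2.2]
  have hΦ : ∀ p, (Φ p : V) = c p.1 + B p.2 := fun p => rfl
  have hinj : Function.Injective Φ := by
    rw [injective_iff_map_eq_zero]
    intro p hp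
    have e0 : c p.1 + B p.2 = 0 := by rw [← hΦ, hp]; rfl
    have e1 := congrArg (LinearMap.adjoint c) e0
    rw [map_add, h.ctc, h.ctB, LinearMap.mem_ker.1 p.2.2, add_zero, map_zero] at e1
    rw [e1, map_zero, zero_add] at e0
    exact Prod.ext (Subtype.ext e1) (Subtype.ext (h.hB (e0.trans (map_zero B).symm)))
  rw [trf_ind0 h.hA, trf_ind0 h.hAY] at hker
  have hs : Function.Surjective Φ := by
    rw [← LinearMap.injective_iff_surjective_of_finrank_eq_finrank]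
    · exact hinj
    · rw [Module.finrank_prod, ← two_mul]
      exact_mod_cast hker.symm
  obtain ⟨p, hp⟩ := hs ⟨v, h5⟩
  have e0 : v = c p.1 + B p.2 := by rw [← hΦ, hp]
  rw [← inner_self_eq_zero (𝕜 := ℝ)]
  nth_rw 2 [e0]
  rw [inner_add_right, h1, h2, add_zero]

/-- `tr(JA) = tr|A| - 2 tr|A_Y|`. -/
theorem trace_JA {G : W →ₗ[ℝ] W} {J Ξ : V →ₗ[ℝ] V} (hG : G.IsSymmetric)
    (hG0 : ∀ y, ⟪y, G y⟫_ℝ ≤ 0 → y = 0) (hGA : ∀ y, AY (G y) = G (AY y)) (hJ : IsCx J)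
    (hΞ0 : ∀ v, ⟪v, Ξ v⟫_ℝ ≤ 0 → v = 0) (hY : ∀ v, qY c B A v = J (Ξ v))
    (hJc : ∀ y, J (c (G y)) = B y) (hAJ : ∀ v, A (J v) = J (A v)) :
    LinearMap.trace ℝ V (J ∘ₗ A) = trf Real.sqrt A - 2 * trf Real.sqrt AY := by
  set a := fc Real.sqrt (-(A ∘ₗ A)) with ha
  set b := fc Real.sqrt (-(AY ∘ₗ AY)) with hb
  have sA := h.hA.nsq_symm
  have sY := h.hAY.nsq_symm
  have a_symm : a.IsSymmetric := fc_symm _ sA
  have aa : ∀ v, a (a v) = -A (A v) := fc_sqrt_sq sA fun v => by rw [h.hA.inner_nsq]; positivity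
  have bb : ∀ v, b (b v) = -AY (AY v) := fc_sqrt_sq sY fun v => by rw [h.hAY.inner_nsq]; positivity
  have ac : ∀ y, a (c y) = c (b y) := fun y =>
    (LinearMap.congr_fun (fc_intertwine _ sY sA (nsq_intertwine h.hcA)) y).symm
  have aB : ∀ y, a (B y) = B (b y) := fun y =>
    (LinearMap.congr_fun (fc_intertwine _ sY sA (nsq_intertwine h.hBA)) y).symm
  have aA : ∀ v, a (A v) = A (a v) := fun v =>
    (LinearMap.congr_fun (fc_intertwine _ sA sA (nsq_intertwine (L := A) rfl)) v).symm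
  have bA : ∀ v, b (AY v) = AY (b v) := fun v =>
    (LinearMap.congr_fun (fc_intertwine _ sY sY (nsq_intertwine (L := AY) rfl)) v).symm
  have aJ : ∀ v, a (J v) = J (a v) := fun v =>
    (LinearMap.congr_fun (fc_intertwine _ sA sA (nsq_intertwine (L := J)
      (LinearMap.ext fun v => (hAJ v).symm))) v).symm
  have bG : ∀ v, b (G v) = G (b v) := fun v =>
    (LinearMap.congr_fun (fc_intertwine _ sY sY (nsq_intertwine (L := G)
      (LinearMap.ext fun v => (hGA v).symm))) v).symm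
  have JB : ∀ y, J (B y) = -c (G y) := fun y => by rw [← hJc, hJ.2]
  have iJ : ∀ u v, ⟪J u, J v⟫_ℝ = ⟪u, v⟫_ℝ := fun u v => by
    rw [hJ.1, hJ.2, inner_neg_right, neg_neg]
  have Gsurj : Function.Surjective G := by
    rw [← LinearMap.injective_iff_surjective, injective_iff_map_eq_zero]
    intro y hy
    exact hG0 y (by rw [hy, inner_zero_right])
  set κ : W →ₗ[ℝ] V := c ∘ₗ G ∘ₗ b - B ∘ₗ AY with hκ
  have κ_apply : ∀ y, κ y = c (G (b y)) - B (AY y) := fun y => rfl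
  set T : V →ₗ[ℝ] V := a - J ∘ₗ A with hT
  have T_apply : ∀ v, T v = a v - J (A v) := fun v => rfl
  have Tκ : ∀ y, T (κ y) = κ ((2 : ℝ) • b y) := fun y => by
    simp only [T_apply, κ_apply, map_sub, ac, aB, h.Ac, h.AB, hGA, hJc, JB, bG, bA, bb,
      map_neg, two_smul, map_add]
    abel
  have T_symm : ∀ u v, ⟪T u, v⟫_ℝ = ⟪u, T v⟫_ℝ := fun u v => by
    simp only [T_apply, inner_sub_left, inner_sub_right]
    rw [a_symm, hJ.1, h.hA, neg_neg, hAJ]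
  have key := trace_eq_of_intertwine (T := T) (R := (2 : ℝ) • b) κ (LinearMap.ext Tκ) ?_ ?_
  · rw [hT, map_sub, map_smul, smul_eq_mul] at key
    simp only [trf]
    linarith
  · intro v hv
    set v' := T v with hv'
    have e1 : ∀ y, ⟪v', κ y⟫_ℝ = 0 := fun y => by rw [hv', T_symm, Tκ, hv]
    have e2 : J (A v') = -a v' := by
      simp only [hv', T_apply, map_sub, aa, aJ, aA, hAJ, hJ.2]
      abel
    have e3 : ∀ y, ⟪A v', B y⟫_ℝ = ⟪a v', c (G y)⟫_ℝ := fun y => by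
      have := hJ.1 (A v') (c (G y))
      rw [e2, hJc, inner_neg_left] at this
      linarith
    have e4 : ∀ y, ⟪a v', c (G y)⟫_ℝ = 0 := fun y => by
      have h1 := e1 y
      have h2 := h.hA v' (B y)
      rw [κ_apply, inner_sub_right, ← bG, ← ac, ← a_symm, ← h.AB] at h1
      have := e3 y
      linarith
    have e5 : ∀ y, ⟪a v', c y⟫_ℝ = 0 := fun y => by
      obtain ⟨y, rfl⟩ := Gsurj y
      exact e4 y
    have e6 : LinearMap.adjoint c (A (A v')) = 0 := ext_inner_right ℝ fun y => by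
      rw [LinearMap.adjoint_inner_left, ← neg_neg (A (A v')), ← aa, inner_neg_left, a_symm, ac, e5,
        neg_zero, inner_zero_left]
    have e7 : LinearMap.adjoint B (A (A v')) = 0 := ext_inner_right ℝ fun y => by
      rw [LinearMap.adjoint_inner_left, h.hA, h.AB, e3, e4, neg_zero, inner_zero_left]
    have e8 := congrArg J (hY (A (A v')))
    rw [h.Y_apply, e6, e7, map_zero, map_zero, sub_self, zero_sub, map_neg, hJ.2, neg_inj, ← hAJ,
      ← hAJ, e2, map_neg, map_neg, ← aA, ← aA] at e8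
    have e9 : A (A v') = 0 := hΞ0 _ (by
      rw [← e8, inner_neg_right]
      exact neg_nonpos.2 (fc_sqrt_nonneg sA _))
    have e10 : A v' = 0 := by
      rw [← inner_self_eq_zero (𝕜 := ℝ), h.hA, e9, inner_zero_right, neg_zero]
    have e11 : a v' = 0 := by rw [← neg_eq_zero, ← e2, e10, map_zero]
    rw [← inner_self_eq_zero (𝕜 := ℝ)]
    nth_rw 1 [hv']
    rw [T_symm, T_apply, e10, e11, map_zero, sub_zero, inner_zero_right]
  · intro y hy
    have e1 := congrArg (LinearMap.adjoint c) hy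
    rw [κ_apply, map_sub, h.ctc, h.ctB, map_zero, sub_eq_zero, ← neg_neg (AY (AY y)), ← bb] at e1
    have e2 : b y = 0 := hG0 _ (by
      rw [e1, inner_neg_right]
      exact neg_nonpos.2 (fc_sqrt_nonneg sY _))
    simp [e2]

end QH

/-- `𝒴 = B cᵀ - c Bᵀ - A` is invertible. -/
theorem quad_inj (c B : W →ₗ[ℝ] V) (AY : W →ₗ[ℝ] W) (A : V →ₗ[ℝ] V)
    (hc : ∀ y, ‖c y‖ = ‖y‖) (hB : Function.Injective B) (hAY : IsSkew AY) (hA : IsSkew A)
    (hcA : c ∘ₗ AY = A ∘ₗ c) (hBA : B ∘ₗ AY = A ∘ₗ B) (hcB : LinearMap.adjoint c ∘ₗ B = AY)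
    (hker : trf ind0 A = 2 * trf ind0 AY) :
    Function.Injective (B ∘ₗ LinearMap.adjoint c - c ∘ₗ LinearMap.adjoint B - A) :=
  QH.inj ⟨hc, hB, hAY, hA, hcA, hBA, hcB⟩ hker

theorem quad_abs (c B : W →ₗ[ℝ] V) (AY : W →ₗ[ℝ] W) (A : V →ₗ[ℝ] V)
    (hc : ∀ y, ‖c y‖ = ‖y‖) (hB : Function.Injective B) (hAY : IsSkew AY) (hA : IsSkew A)
    (hcA : c ∘ₗ AY = A ∘ₗ c) (hBA : B ∘ₗ AY = A ∘ₗ B) (hcB : LinearMap.adjoint c ∘ₗ B = AY)
    (hker : trf ind0 A = 2 * trf ind0 AY) (htr : trf Real.sqrt A = 2 * trf Real.sqrt AY) :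
    ∃ (G : W →ₗ[ℝ] W) (J Ξ : V →ₗ[ℝ] V) (g₀ γ : ℝ), 0 < g₀ ∧ 0 < γ ∧ G.IsSymmetric ∧
      (∀ y, g₀ * ‖y‖ ^ 2 ≤ ⟪y, G y⟫_ℝ) ∧ (∀ y, ‖B y‖ = ‖G y‖) ∧ AY ∘ₗ G = G ∘ₗ AY ∧ IsCx J ∧
      Ξ.IsSymmetric ∧ Ξ ∘ₗ J = J ∘ₗ Ξ ∧ (∀ v, γ * ‖v‖ ^ 2 ≤ ⟪v, Ξ v⟫_ℝ) ∧
      B ∘ₗ LinearMap.adjoint c - c ∘ₗ LinearMap.adjoint B - A = J ∘ₗ Ξ ∧
      LinearMap.trace ℝ V Ξ = 2 * LinearMap.trace ℝ W G ∧ (∀ y, J (c (G y)) = B y) ∧
      A ∘ₗ J = J ∘ₗ A ∧ LinearMap.trace ℝ V (J ∘ₗ A) = 0 := by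
  have h : QH c B AY A := ⟨hc, hB, hAY, hA, hcA, hBA, hcB⟩
  have hinj := h.inj hker
  obtain ⟨J, γ, hγ, hΞge, hJcx, JΞ, ΞJ, AJ⟩ := skew_polar h.Y_skew hinj
  replace AJ := AJ A h.YA
  have sY := h.Y_skew.nsq_symm
  have Ξ_symm := fc_symm Real.sqrt sY
  obtain ⟨g₀, hg₀, hGge⟩ := fc_sqrt_lower h.H_symm h.H_pos
  have G_symm := fc_symm Real.sqrt h.H_symm
  have GG := fc_sqrt_sq h.H_symm fun y => by rw [h.H_inner]; positivity
  have cG := LinearMap.congr_fun (fc_intertwine Real.sqrt h.H_symm sY (L := c)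
    (LinearMap.ext fun y => by
      simp only [LinearMap.comp_apply, LinearMap.neg_apply, h.Yc, h.YB, neg_neg]))
  have AG := fc_intertwine Real.sqrt h.H_symm h.H_symm (L := AY) (LinearMap.ext fun y => by
    simp only [LinearMap.comp_apply, ← h.BtA, h.AB])
  generalize fc Real.sqrt (LinearMap.adjoint B ∘ₗ B) = G at hGge G_symm GG cG AG
  generalize fc Real.sqrt (-(qY c B A ∘ₗ qY c B A)) = Ξ at hΞge JΞ ΞJ Ξ_symm cG
  simp only [LinearMap.comp_apply] at cG GG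
  have Jc : ∀ y, J (c (G y)) = B y := fun y => by rw [cG, JΞ, h.Yc]
  have pos0 : ∀ {a b r : ℝ}, 0 < a → a * r ^ 2 ≤ b → b ≤ 0 → r = 0 := fun ha h1 h2 => by
    by_contra h0
    have := h1.trans h2
    exact absurd this (not_le.2 (by positivity))
  have trJA : LinearMap.trace ℝ V (J ∘ₗ A) = 0 := by
    rw [h.trace_JA G_symm (fun y hy => norm_eq_zero.1 (pos0 hg₀ (hGge y) hy)) (LinearMap.congr_fun AG)
      hJcx (fun y hy => norm_eq_zero.1 (pos0 hγ (hΞge y) hy)) (fun v => (JΞ v).symm) Jc AJ, htr,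
      sub_self]
  refine ⟨G, J, Ξ, g₀, γ, hg₀, hγ, G_symm, hGge, fun y => ?_, AG, hJcx, Ξ_symm,
    LinearMap.ext ΞJ, hΞge, LinearMap.ext fun v => (JΞ v).symm, ?_, Jc,
    LinearMap.ext AJ, trJA⟩
  · rw [← sq_eq_sq₀ (norm_nonneg _) (norm_nonneg _), ← h.H_inner, ← real_inner_self_eq_norm_sq,
      G_symm, GG]
    rfl
  · have e1 : Ξ = c ∘ₗ (G ∘ₗ LinearMap.adjoint c) + (J ∘ₗ c) ∘ₗ LinearMap.adjoint B + J ∘ₗ A := by
      ext v
      have h1 := hJcx.2 (Ξ v)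
      rw [JΞ, h.Y_apply, map_sub, map_sub, ← Jc, hJcx.2] at h1
      simp only [LinearMap.add_apply, LinearMap.comp_apply]
      rw [← neg_inj, ← h1]
      abel
    have e2 : (G ∘ₗ LinearMap.adjoint c) ∘ₗ c = G := LinearMap.ext fun y => by
      simp only [LinearMap.comp_apply, h.ctc]
    have e3 : LinearMap.adjoint B ∘ₗ J ∘ₗ c = G := LinearMap.ext fun y =>
      ext_inner_right ℝ fun y' => by
        simp only [LinearMap.comp_apply]
        rw [LinearMap.adjoint_inner_left, ← Jc, hJcx.1, hJcx.2, inner_neg_right, neg_neg,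
          h.inner_cc, G_symm]
    rw [e1, map_add, map_add, trJA, ← LinearMap.trace_comp_comm', e2, LinearMap.trace_comp_comm', e3]
    ring

end Crest.Agent.R330

end
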